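import Vale.Agent.P183.Defs

namespace Vale.Agent.P183

open Classical in
/-- the fibre function of a point of the lexicographic sum -/
noncomputable def LEX_f {D : Type} [PartialOrder D] {K : D → Type} [∀ d, PartialOrder (K d)]
    [∀ d, BoundedOrder (K d)] (d : D) (k : K d) : ∀ e, K e :=
  Function.update (fun e => if e < d then ⊤ else ⊥) d k

theorem LEX_self {D : Type} [PartialOrder D] {K : D → Type} [∀ d, PartialOrder (K d)]
    [∀ d, BoundedOrder (K d)] (d : D) (k : K d) : LEX_f d k d = k := by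
  classical
  unfold LEX_f
  rw [Function.update_self]

theorem LEX_top {D : Type} [PartialOrder D] {K : D → Type} [∀ d, PartialOrder (K d)]
    [∀ d, BoundedOrder (K d)] (d : D) (k : K d) {e : D} (h : e < d) : LEX_f d k e = ⊤ := by
  classical
  unfold LEX_f
  rw [Function.update_of_ne h.ne, if_pos h]

theorem LEX_bot {D : Type} [PartialOrder D] {K : D → Type} [∀ d, PartialOrder (K d)]
    [∀ d, BoundedOrder (K d)] (d : D) (k : K d) {e : D} (h : ¬ e ≤ d) : LEX_f d k e = ⊥ := by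
  classical
  unfold LEX_f
  rw [Function.update_of_ne (fun h' => h (le_of_eq h')), if_neg (fun h' => h h'.le)]

/-- (LEX) `(d, k) ↦ (d, fun e => if e = d then k else if e < d then ⊤ else ⊥)` (with a cast for
`e = d`: use `Function.update (fun e => if e < d then ⊤ else ⊥) d k`); inverse `(d, κ) ↦ (d, κ d)`.
`Sigma.Lex.le_def`-type lemmas: `(d, k) ≤ (d', k')` iff `d < d'` or `d = d'` and `k ≤ k'`. -/
theorem lex_iso (D : Type) [PartialOrder D] (K : D → Type) [∀ d, PartialOrder (K d)]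
    [∀ d, BoundedOrder (K d)] :
    Nonempty ((Σₗ d, K d) ≃o {p : D × (∀ d, K d) //
      ∀ k, (¬ k ≤ p.1 → p.2 k = ⊥) ∧ (k ≤ p.1 → ¬ p.1 ≤ k → p.2 k = ⊤)}) := by
  refine ⟨{
    toFun := fun a => ⟨((ofLex a).1, LEX_f (ofLex a).1 (ofLex a).2), fun k =>
      ⟨fun h => LEX_bot _ _ h, fun h h' => LEX_top _ _ (lt_of_le_not_ge h h')⟩⟩
    invFun := fun p => toLex ⟨p.1.1, p.1.2 p.1.1⟩
    left_inv := ?_
    right_inv := ?_
    map_rel_iff' := ?_ }⟩
  · intro a
    obtain ⟨d, k⟩ := a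
    show toLex (⟨d, LEX_f d k d⟩ : Sigma K) = toLex ⟨d, k⟩
    rw [LEX_self]
  · rintro ⟨⟨d, κ⟩, h⟩
    apply Subtype.ext
    show (d, LEX_f d (κ d)) = (d, κ)
    have e : LEX_f d (κ d) = κ := by
      funext e
      by_cases h1 : e ≤ d
      · by_cases h2 : d ≤ e
        · obtain rfl := le_antisymm h1 h2
          exact LEX_self _ _
        · rw [LEX_top _ _ (lt_of_le_not_ge h1 h2)]
          exact ((h e).2 h1 h2).symm
      · rw [LEX_bot _ _ h1]
        exact ((h e).1 h1).symm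
    rw [e]
  · rintro ⟨d, k⟩ ⟨d', k'⟩
    show (d ≤ d' ∧ LEX_f d k ≤ LEX_f d' k') ↔ (toLex (⟨d, k⟩ : Sigma K)) ≤ toLex ⟨d', k'⟩
    rw [Sigma.Lex.le_def]
    show (d ≤ d' ∧ LEX_f d k ≤ LEX_f d' k') ↔ (d < d' ∨ ∃ h : d = d', h.rec k ≤ k')
    constructor
    · rintro ⟨h1, h2⟩
      rcases h1.lt_or_eq with h3 | h3
      · exact Or.inl h3
      · subst h3
        refine Or.inr ⟨rfl, ?_⟩
        have h4 := h2 d
        rw [LEX_self, LEX_self] at h4
        exact h4
    · rintro (h | ⟨rfl, h⟩)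
      · refine ⟨h.le, fun e => ?_⟩
        by_cases h1 : e ≤ d
        · rw [LEX_top d' k' (lt_of_le_of_lt h1 h)]
          exact le_top
        · rw [LEX_bot d k h1]
          exact bot_le
      · refine ⟨le_rfl, fun e => ?_⟩
        by_cases h1 : e ≤ d
        · rcases h1.lt_or_eq with h2 | h2
          · rw [LEX_top _ _ h2, LEX_top _ _ h2]
          · subst h2
            rw [LEX_self, LEX_self]
            exact h
        · rw [LEX_bot _ _ h1, LEX_bot _ _ h1]

end Vale.Agent.P183
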