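import Vale.Agent.P183.Defs

namespace Vale.Agent.P183

universe u

/-- (PR1) `σ` is the join of all `x` with `¬ i ≤ x` (finite join, `SupPrime.finset_sup_le` or
`Finset.sup`), `L` finite. -/
theorem supPrime_pair {L : Type u} [Lattice L] [Finite L] {i : L} (hi : SupPrime i) :
    ∃ σ : L, ∀ x, ¬ i ≤ x ↔ x ≤ σ := by
  classical
  cases nonempty_fintype L
  obtain ⟨x0, hx0⟩ : ∃ x0 : L, ¬ i ≤ x0 := by
    by_contra hcon
    push Not at hcon
    exact hi.1 (fun b _ => hcon b)
  have hne : (Finset.univ.filter (fun x : L => ¬ i ≤ x)).Nonempty :=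
    ⟨x0, Finset.mem_filter.2 ⟨Finset.mem_univ _, hx0⟩⟩
  refine ⟨(Finset.univ.filter (fun x : L => ¬ i ≤ x)).sup' hne id, fun x => ⟨fun hx => ?_, fun hx hix => ?_⟩⟩
  · have hmem : x ∈ Finset.univ.filter (fun x : L => ¬ i ≤ x) :=
      Finset.mem_filter.2 ⟨Finset.mem_univ _, hx⟩
    exact Finset.le_sup' (id : L → L) hmem
  · have h1 : ¬ i ≤ (Finset.univ.filter (fun x : L => ¬ i ≤ x)).sup' hne id := by
      refine Finset.sup'_induction hne id (p := fun y => ¬ i ≤ y) ?_ ?_
      · intro a ha b hb hab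
        rcases hi.2 hab with h | h
        · exact ha h
        · exact hb h
      · intro b hb
        exact (Finset.mem_filter.1 hb).2
    exact h1 (hix.trans hx)

/-- (PR2) `j` is the meet of all `x` with `¬ x ≤ τ`. -/
theorem infPrime_pair {L : Type u} [Lattice L] [Finite L] {τ : L} (hτ : InfPrime τ) :
    ∃ j : L, ∀ x, ¬ j ≤ x ↔ x ≤ τ := by
  classical
  cases nonempty_fintype L
  obtain ⟨x0, hx0⟩ : ∃ x0 : L, ¬ x0 ≤ τ := by
    by_contra hcon
    push Not at hcon
    exact hτ.1 (fun b _ => hcon b)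
  have hne : (Finset.univ.filter (fun x : L => ¬ x ≤ τ)).Nonempty :=
    ⟨x0, Finset.mem_filter.2 ⟨Finset.mem_univ _, hx0⟩⟩
  have h1 : ¬ (Finset.univ.filter (fun x : L => ¬ x ≤ τ)).inf' hne id ≤ τ := by
    refine Finset.inf'_induction hne id (p := fun y => ¬ y ≤ τ) ?_ ?_
    · intro a ha b hb hab
      rcases hτ.2 hab with h | h
      · exact ha h
      · exact hb h
    · intro b hb
      exact (Finset.mem_filter.1 hb).2
  refine ⟨(Finset.univ.filter (fun x : L => ¬ x ≤ τ)).inf' hne id, fun x => ⟨fun hx => ?_, fun hx hjx => ?_⟩⟩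
  · by_contra hxt
    have hmem : x ∈ Finset.univ.filter (fun x : L => ¬ x ≤ τ) :=
      Finset.mem_filter.2 ⟨Finset.mem_univ _, hxt⟩
    exact hx (Finset.inf'_le (id : L → L) hmem)
  · exact h1 (hjx.trans hx)

/-- (PR3) In a finite distributive lattice every element is a join of join primes: sup irreducible
elements (`exists_supIrred_decomposition`) are sup prime (`SupIrred.supPrime`, distributive). -/
theorem join_primes {D : Type u} [DistribLattice D] [Finite D] [OrderBot D] (a : D) :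
    ∃ s : Finset D, (∀ i ∈ s, SupPrime i) ∧ s.sup id = a := by
  obtain ⟨s, h1, h2⟩ := exists_supIrred_decomposition a
  exact ⟨s, fun i hi => (h2 hi).supPrime, h1⟩

/-- (PR4) dual. -/
theorem meet_primes {D : Type u} [DistribLattice D] [Finite D] [OrderTop D] (a : D) :
    ∃ s : Finset D, (∀ i ∈ s, InfPrime i) ∧ s.inf id = a := by
  obtain ⟨s, h1, h2⟩ := exists_infIrred_decomposition a
  exact ⟨s, fun i hi => (h2 hi).infPrime, h1⟩

end Vale.Agent.P183
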