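import Vale.Agent.P183.Defs

namespace Vale.Agent.P183

universe u

/-- (REP1) `X, ι := {f : X → X // ∀ p, Pres f (Φ p)}`, all arities `1`, `op f u = f (u 0)`; the
isomorphism sends `p` to `Φ p`. -/
theorem rep_of_emb {P : Type u} [PartialOrder P] {X : Type} [Finite X] [Nonempty X]
    (Φ : P → Setoid X) (h : ClosedEmb Φ) : Representable P := by
  have hc : ∀ r : Setoid X, IsCong (X := X) (ι := {f : X → X // ∀ p, Pres f (Φ p)})
      (fun _ => 1) (fun f u => f.1 (u 0)) r ↔ ∀ f : X → X, (∀ p, Pres f (Φ p)) → Pres f r := by
    intro r
    constructor
    · intro hr f hf x y hxy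
      exact hr ⟨f, hf⟩ (fun _ => x) (fun _ => y) fun _ => hxy
    · intro hr f u v huv
      exact hr f.1 f.2 (u 0) (v 0) (huv 0)
  have hP : ∀ p, IsCong (X := X) (ι := {f : X → X // ∀ p, Pres f (Φ p)})
      (fun _ => 1) (fun f u => f.1 (u 0)) (Φ p) := fun p => (hc (Φ p)).mpr fun f hf => hf p
  refine ⟨X, {f : X → X // ∀ p, Pres f (Φ p)}, inferInstance, inferInstance, inferInstance,
    fun _ => 1, fun f u => f.1 (u 0), ⟨?_⟩⟩
  refine RelIso.ofSurjective (OrderEmbedding.ofMapLEIff (fun p => ⟨Φ p, hP p⟩) ?_) ?_
  · intro a b
    exact h.le_iff a b
  · rintro ⟨θ, hθ⟩
    obtain ⟨p, hp⟩ := h.closed θ ((hc θ).mp hθ)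
    exact ⟨p, Subtype.ext hp.symm⟩

/-- (REP2) `Φ` is the isomorphism.  Closedness: if `θ` is preserved by all maps preserving all
congruences then it is preserved by the translations `x ↦ op i (Function.update u k x)`; changing the
arguments one at a time (`Finset` induction or induction on the set of coordinates already changed)
`θ` is a congruence, so `θ = Φ (e.symm ⟨θ, _⟩)`. -/
theorem emb_of_rep {P : Type u} [PartialOrder P] (h : Representable P) :
    ∃ (X : Type) (_ : Finite X) (_ : Nonempty X) (Φ : P → Setoid X), ClosedEmb Φ := by
  classical
  obtain ⟨X, ι, hX, hXne, hι, ar, op, ⟨e⟩⟩ := h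
  refine ⟨X, hX, hXne, fun p => (e p).1, ?_, ?_⟩
  · intro p q
    exact (Subtype.coe_le_coe).trans e.le_iff_le
  · intro θ hθ
    have hcong : IsCong ar op θ := by
      intro i u v huv
      set w : ℕ → Fin (ar i) → X := fun j k => if k.val < j then v k else u k with hw
      have key : ∀ j : ℕ, j ≤ ar i → θ (op i u) (op i (w j)) := by
        intro j
        induction j with
        | zero =>
          intro _
          have : w 0 = u := by
            funext k; simp [hw]
          rw [this]
        | succ j ih =>
          intro hj
          have h1 := ih (by omega)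
          set f : X → X := fun x => op i (Function.update (w j) ⟨j, by omega⟩ x) with hf
          have hfp : ∀ p, Pres f (e p).1 := by
            intro p x y hxy
            refine (e p).2 i _ _ ?_
            intro k
            by_cases hk : k = ⟨j, by omega⟩
            · subst hk
              rw [Function.update_self, Function.update_self]
              exact hxy
            · rw [Function.update_of_ne hk, Function.update_of_ne hk]
          have h2 := hθ f hfp (u ⟨j, by omega⟩) (v ⟨j, by omega⟩) (huv _)
          have e1 : f (u ⟨j, by omega⟩) = op i (w j) := by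
            simp only [hf]
            congr 1
            funext k
            by_cases hk : k = ⟨j, by omega⟩
            · subst hk
              rw [Function.update_self]
              simp [hw]
            · rw [Function.update_of_ne hk]
          have e2 : f (v ⟨j, by omega⟩) = op i (w (j + 1)) := by
            simp only [hf]
            congr 1
            funext k
            by_cases hk : k = ⟨j, by omega⟩
            · subst hk
              rw [Function.update_self]
              simp [hw]
            · rw [Function.update_of_ne hk]
              have hkv : k.val ≠ j := fun hh => hk (Fin.ext hh)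
              simp only [hw]
              by_cases hlt : k.val < j
              · rw [if_pos hlt, if_pos (by omega)]
              · rw [if_neg hlt, if_neg (by omega)]
          rw [e1, e2] at h2
          exact θ.trans' h1 h2
      have := key (ar i) le_rfl
      have e3 : w (ar i) = v := by
        funext k
        simp only [hw]
        rw [if_pos k.2]
      rwa [e3] at this
    refine ⟨e.symm ⟨θ, hcong⟩, ?_⟩
    show θ = (e (e.symm ⟨θ, hcong⟩)).1
    rw [OrderIso.apply_symm_apply]

end Vale.Agent.P183
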