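import Vale.Agent.P183.Core
import Vale.Agent.P183.Rep
import Vale.Agent.P183.Prime
import Vale.Agent.P183.LexIso

namespace Vale.Agent.P183

universe u v

/-- the closure theorem -/
theorem representable_infl (L : Type u) [Lattice L] [Finite L] (I : Type) [Finite I]
    (K : I → Type v) [∀ k, PartialOrder (K k)] [∀ k, BoundedOrder (K k)] (a b : I → L)
    (hL : Representable L) (hK : ∀ k, Representable (K k))
    (ha : ∀ k, ∃ s : Finset L, (∀ i ∈ s, SupPrime i) ∧ IsLUB (s : Set L) (a k))
    (hb : ∀ k, ∃ s : Finset L, (∀ i ∈ s, InfPrime i) ∧ IsGLB (s : Set L) (b k)) :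
    Representable (Infl L K a b) := by
  obtain ⟨X, _, _, ΦL, hΦL⟩ := emb_of_rep hL
  choose Y hY1 hY2 ΦK hΦK using fun k => emb_of_rep (hK k)
  choose sa hsa1 hsa2 using ha
  choose sb hsb1 hsb2 using hb
  have hpa : ∀ k (t : Fin (sa k).card), ∃ σ : L, ∀ x, ¬ (((sa k).equivFin.symm t : sa k) : L) ≤ x ↔
      x ≤ σ := fun k t => supPrime_pair (hsa1 k _ ((sa k).equivFin.symm t).2)
  have hpb : ∀ k (t : Fin (sb k).card), ∃ j : L, ∀ x, ¬ j ≤ x ↔
      x ≤ (((sb k).equivFin.symm t : sb k) : L) :=
    fun k t => infPrime_pair (hsb1 k _ ((sb k).equivFin.symm t).2)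
  choose j hj using hpb
  have hA : ∀ k x, a k ≤ x ↔ ∀ t : Fin (sa k).card, (((sa k).equivFin.symm t : sa k) : L) ≤ x := by
    intro k x
    rw [isLUB_le_iff (hsa2 k)]
    constructor
    · intro h t
      exact h ((sa k).equivFin.symm t).2
    · intro h y hy
      have := h ((sa k).equivFin ⟨y, hy⟩)
      rwa [Equiv.symm_apply_apply] at this
  have hB : ∀ k x, x ≤ b k ↔ ∀ t : Fin (sb k).card, ¬ j k t ≤ x := by
    intro k x
    rw [le_isGLB_iff (hsb2 k)]
    constructor
    · intro h t
      rw [hj]
      exact h ((sb k).equivFin.symm t).2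
    · intro h y hy
      have := (hj k _ x).1 (h ((sb k).equivFin ⟨y, hy⟩))
      rwa [Equiv.symm_apply_apply] at this
  have key := core (a := a) (b := b) ΦL ΦK
    (fun k (t : Fin (sa k).card) => (((sa k).equivFin.symm t : sa k) : L)) j hΦL hΦK hA hpa hB
    (fun k t => ⟨_, hj k t⟩)
  have : Nonempty (∀ k, Gad (sa k).card (Fin (sb k).card) (Y k)) :=
    ⟨fun k => Sum.inl (hY2 k).some⟩
  exact rep_of_emb _ key

/-- finite distributive lattices -/
theorem representable_distrib (D : Type u) [DistribLattice D] [Finite D] [Nonempty D] :
    Representable D := by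
  classical
  have := Fintype.ofFinite D
  let : BoundedOrder D := Fintype.toBoundedOrder D
  let J : Type u := {j : D // SupPrime j}
  obtain ⟨n, ⟨eJ⟩⟩ := Finite.exists_equiv_fin J
  let X : Type := Option (Fin n)
  let j : Fin n → D := fun t => (eJ.symm t).1
  have hj : ∀ t, SupPrime (j t) := fun t => (eJ.symm t).2
  have hjs : ∀ i : D, SupPrime i → ∃ t, j t = i := fun i hi => ⟨eJ ⟨i, hi⟩, by simp [j]⟩
  let act : D → X → Prop := fun d x => ∀ t, x = some t → j t ≤ d
  let Φ : D → Setoid X := fun d =>
    { r := fun x y => x = y ∨ (act d x ∧ act d y)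
      iseqv := ⟨fun _ => Or.inl rfl, fun h => h.elim (fun h => Or.inl h.symm) (fun h => Or.inr h.symm),
        fun {x y z} h h' => by
          rcases h with rfl | h
          · exact h'
          · rcases h' with rfl | h'
            · exact Or.inr h
            · exact Or.inr ⟨h.1, h'.2⟩⟩ }
  have hnone : ∀ d, act d none := fun d t h => by cases h
  have hsome : ∀ d t, act d (some t) ↔ j t ≤ d := fun d t =>
    ⟨fun h => h t rfl, fun h t' ht => by cases ht; exact h⟩
  have hΦ : ClosedEmb Φ := by
    refine ⟨?_, ?_⟩
    · intro d e
      constructor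
      · intro h
        obtain ⟨s, hs1, hs2⟩ := join_primes d
        rw [← hs2]
        refine Finset.sup_le fun i hi => ?_
        obtain ⟨t, rfl⟩ := hjs i (hs1 i hi)
        have hid : j t ≤ d := by
          rw [← hs2]
          exact Finset.le_sup (f := id) hi
        have h1 := @h none (some t) (Or.inr ⟨hnone d, (hsome d t).2 hid⟩)
        rcases h1 with h1 | h1
        · cases h1
        · exact (hsome e t).1 h1.2
      · rintro h x y (rfl | hxy)
        · exact Or.inl rfl
        · exact Or.inr ⟨fun t ht => (hxy.1 t ht).trans h, fun t ht => (hxy.2 t ht).trans h⟩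
    · intro θ hθ
      have h1 : ∀ t y, θ (some t) y → y ≠ some t → ∀ t', j t' ≤ j t → θ none (some t') := by
        intro t y hty hne t' ht'
        have h2 := hθ (fun z => if z = some t then some t' else none) (by
          rintro d z z' (rfl | ⟨hz, hz'⟩)
          · exact Or.inl rfl
          · refine Or.inr ⟨?_, ?_⟩
            · show act d (if z = some t then some t' else none)
              split_ifs with h
              · exact (hsome d t').2 (ht'.trans (hz t h))
              · exact hnone d
            · show act d (if z' = some t then some t' else none)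
              split_ifs with h
              · exact (hsome d t').2 (ht'.trans (hz' t h))
              · exact hnone d) _ _ hty
        simp only [if_true, if_neg hne] at h2
        exact Setoid.symm' _ h2
      let s : Finset (Fin n) := Finset.univ.filter fun t => θ none (some t)
      have hs : ∀ t, j t ≤ s.sup j ↔ θ none (some t) := by
        intro t
        constructor
        · intro h
          obtain ⟨t', ht', h'⟩ := ((hj t).le_finset_sup).1 h
          have h2 : θ none (some t') := (Finset.mem_filter.1 ht').2
          exact h1 t' none (Setoid.symm' _ h2) (by simp) t h'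
        · intro h
          exact Finset.le_sup (f := j) (Finset.mem_filter.2 ⟨Finset.mem_univ _, h⟩)
      have hact : ∀ x, act (s.sup j) x ↔ θ none x := by
        intro x
        cases x with
        | none => exact ⟨fun _ => Setoid.refl' _ _, fun _ => hnone _⟩
        | some t => rw [hsome, hs]
      refine ⟨s.sup j, ?_⟩
      ext x y
      constructor
      · intro hxy
        by_cases hne : x = y
        · exact Or.inl hne
        · have hx : θ none x := by
            cases x with
            | none => exact Setoid.refl' _ _
            | some t => exact h1 t y hxy (fun h => hne h.symm) t le_rfl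
          exact Or.inr ⟨(hact x).2 hx, (hact y).2 (Setoid.trans' _ hx hxy)⟩
      · rintro (rfl | ⟨hx, hy⟩)
        · exact Setoid.refl' _ _
        · exact Setoid.trans' _ (Setoid.symm' _ ((hact x).1 hx)) ((hact y).1 hy)
  exact rep_of_emb Φ hΦ

theorem representable_congr {P : Type u} {Q : Type v} [PartialOrder P] [PartialOrder Q]
    (e : P ≃o Q) (h : Representable Q) : Representable P := by
  obtain ⟨X, ι, h1, h2, h3, ar, op, ⟨f⟩⟩ := h
  exact ⟨X, ι, h1, h2, h3, ar, op, ⟨e.trans f⟩⟩

/-- lexicographic sums over distributive lattices -/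
theorem representable_lex (D : Type) [DistribLattice D] [Finite D] [Nonempty D]
    (K : D → Type) [∀ d, PartialOrder (K d)] [∀ d, BoundedOrder (K d)]
    (hK : ∀ d, Representable (K d)) : Representable (Σₗ d, K d) := by
  classical
  have := Fintype.ofFinite D
  let : BoundedOrder D := Fintype.toBoundedOrder D
  obtain ⟨e⟩ := lex_iso D K
  refine representable_congr e ?_
  refine representable_infl D D K id id (representable_distrib D) hK (fun k => ?_) (fun k => ?_)
  · obtain ⟨s, hs1, hs2⟩ := join_primes k
    refine ⟨s, hs1, ?_⟩
    rw [show id k = s.sup id from hs2.symm]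
    exact Finset.isLUB_sup_id
  · obtain ⟨s, hs1, hs2⟩ := meet_primes k
    refine ⟨s, hs1, ?_⟩
    rw [show id k = s.inf id from hs2.symm]
    exact Finset.isGLB_inf_id

end Vale.Agent.P183
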