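import Vale.Agent.P183.Defs2

namespace Vale.Agent.P183

universe u v

variable {L : Type u} [PartialOrder L] {K : Type v} [PartialOrder K] {X Y S : Type} {N : ℕ}
  {Φ : L → Setoid X} {ΦK : K → Setoid Y} {x0 : X} {y0 : Y} {e : Fin N → X × X} {l : S → X × X}
  {E : Set (X × X)} {a b : L}

/-- maps on the copies of a path from colour `u` to colour `v` -/
structure GCpath (Φ : L → Setoid X) (e : Fin N → X × X) (l0 : X × X) (u v : X)
    (g : Fin (2 * N + 2) → X → X) : Prop where
  cop : ∀ k (p : L) z z', Φ p z z' → Φ p (g k z) (g k z')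
  left : ∀ k : Fin (2 * N + 2), k.val = 0 → u = g k (pr l0 e k.val).1
  right : ∀ k : Fin (2 * N + 2), k.val = 2 * N + 1 → v = g k (pr l0 e k.val).2
  glue : ∀ k k' : Fin (2 * N + 2), k'.val = k.val + 1 →
    g k (pr l0 e k.val).2 = g k' (pr l0 e k'.val).1

theorem GC_const (l0 : X × X) (u : X) :
    GCpath Φ e l0 u u (fun _ _ => u) :=
  ⟨fun _ p _ _ _ => (Φ p).refl u, fun _ _ => rfl, fun _ _ => rfl, fun _ _ _ => rfl⟩

/-- constant, identity, constant -/
def GCstp {X : Type} {N : ℕ} (k1 : Fin (2 * N + 2)) (u v : X) (k : Fin (2 * N + 2)) (z : X) : X :=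
  if k.val < k1.val then u else if k.val = k1.val then z else v

theorem GC_step (l0 : X × X) (k1 : Fin (2 * N + 2)) (u v : X) (h : pr l0 e k1.val = (u, v)) :
    GCpath Φ e l0 u v (GCstp k1 u v) := by
  refine ⟨?_, ?_, ?_, ?_⟩
  · intro k p z z' hz
    unfold GCstp
    split_ifs
    · exact (Φ p).refl u
    · exact hz
    · exact (Φ p).refl v
  · intro k hk
    unfold GCstp
    split_ifs with h1 h2
    · rfl
    · rw [h2, h]
    · omega
  · intro k hk
    have h3 := k1.isLt
    unfold GCstp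
    split_ifs with h1 h2
    · omega
    · rw [h2, h]
    · rfl
  · intro k k' hk
    unfold GCstp
    by_cases h1 : k'.val < k1.val
    · rw [if_pos h1, if_pos (by omega)]
    · rw [if_neg h1]
      by_cases h2 : k'.val = k1.val
      · rw [if_pos h2, if_pos (by omega), h2, h]
      · rw [if_neg h2, if_neg (by omega)]
        by_cases h3 : k.val = k1.val
        · rw [if_pos h3, h3, h]
        · rw [if_neg h3]

/-- the map with colours `c` on `Y`, constant base copy, `G` on the paths -/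
def GCmk (y0 : Y) (c : Y → X) (G : S → Off Y → Fin (2 * N + 2) → X → X) :
    Wt X Y S N → X
  | Sum.inl y => c y
  | Sum.inr (none, _) => c y0
  | Sum.inr (some (s, o, k), z) => G s o k z

theorem GC_good (c : Y → X) (G : S → Off Y → Fin (2 * N + 2) → X → X)
    (hG : ∀ s o, GCpath Φ e (l s) (c o.1.1) (c o.1.2) (G s o))
    (hc : ∀ y y', Φ a (c y) (c y')) : Good Φ x0 y0 e l a (GCmk y0 c G) := by
  refine ⟨?_, rfl, ?_, ?_, ?_, hc⟩
  · rintro (_ | ⟨s, o, k⟩) p z z' hz
    · exact (Φ p).refl _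
    · exact (hG s o).cop k p z z' hz
  · exact fun s o k hk => (hG s o).left k hk
  · exact fun s o k hk => (hG s o).right k hk
  · exact fun s o k k' hk => (hG s o).glue k k' hk

theorem GC_pr (l0 : X × X) (e : Fin N → X × X) (j : Fin N) (hj : 1 + j.val < 2 * N + 2) :
    pr l0 e (⟨1 + j.val, hj⟩ : Fin (2 * N + 2)).val = e j := by
  have h1 : ¬ (1 + j.val = 0) := by omega
  have h2 : 1 + j.val - 1 < N := by have := j.isLt; omega
  unfold pr
  simp only [h1, if_false, h2, dif_pos]
  congr 1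
  ext
  simp

theorem GC_pr' (l0 : X × X) (e : Fin N → X × X) (k : ℕ) (hk : 0 < k) (hk' : k < 2 * N + 1) :
    ∃ j, pr l0 e k = e j := by
  unfold pr
  rw [if_neg (by omega)]
  by_cases h : k - 1 < N
  · rw [dif_pos h]; exact ⟨_, rfl⟩
  · rw [dif_neg h, dif_pos (by omega)]; exact ⟨_, rfl⟩

/-- a path between two colours of an edge -/
theorem GC_exists (l0 : X × X) {j j' : Fin N} (hj : e j' = (e j).swap) (u v : X)
    (hu : u = (e j).1 ∨ u = (e j).2) (hv : v = (e j).1 ∨ v = (e j).2) :
    ∃ g, GCpath Φ e l0 u v g := by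
  have hlt : ∀ i : Fin N, 1 + i.val < 2 * N + 2 := fun i => by have := i.isLt; omega
  rcases hu with rfl | rfl <;> rcases hv with rfl | rfl
  · exact ⟨_, GC_const l0 _⟩
  · exact ⟨_, GC_step l0 ⟨1 + j.val, hlt j⟩ _ _ (GC_pr l0 e j (hlt j))⟩
  · refine ⟨_, GC_step l0 ⟨1 + j'.val, hlt j'⟩ _ _ ?_⟩
    rw [GC_pr l0 e j' (hlt j'), hj]
    rfl
  · exact ⟨_, GC_const l0 _⟩

/-- (GC) `pr (l s0) e k0 = e j =: (u, v)` for some `j` and `e j' = (v, u)` for some `j'` (`h.hL.symm`,
`h.he'`).  Colour `Y`: `F (inl o0.1.1) = u`, all other points of `Y` get `v`; the base copy gets the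
colour of `y0`.  A path `(s, o)` with equal colours at its ends is constant; from `u` to `v`: identity
on the copy `1 + j`, `u` before, `v` after; from `v` to `u`: identity on the copy `1 + j'`; the path
`(s0, o0)` (from `u` to `v`): identity on `k0`, `u` before, `v` after.  `ys`: `Φ a u v`. -/
theorem good_col (h : Cfg Φ ΦK e l E a b) (s0 : S) (o0 : Off Y) (k0 : Fin (2 * N + 2))
    (hk0 : 0 < k0.val) (hk0' : k0.val < 2 * N + 1) :
    ∃ F : Wt X Y S N → X, Good Φ x0 y0 e l a F ∧
      (∀ z, F (Sum.inr (some (s0, o0, k0), z)) = z) ∧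
      (∀ (k : Fin (2 * N + 2)) z, k.val < k0.val →
        F (Sum.inr (some (s0, o0, k), z)) = (pr (l s0) e k0.val).1) ∧
      (∀ (k : Fin (2 * N + 2)) z, k0.val < k.val →
        F (Sum.inr (some (s0, o0, k), z)) = (pr (l s0) e k0.val).2) := by
  classical
  obtain ⟨j, hj⟩ := GC_pr' (l s0) e k0.val hk0 hk0'
  obtain ⟨hjE, hja⟩ := h.he j
  obtain ⟨j', hj'⟩ := h.he' (e j).2 (e j).1 (h.hL.symm _ _ hjE) ((Φ a).symm hja)
  let c : Y → X := fun y => if y = o0.1.1 then (e j).1 else (e j).2
  have hc0 : ∀ y, c y = (e j).1 ∨ c y = (e j).2 := by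
    intro y
    by_cases hy : y = o0.1.1
    · exact Or.inl (if_pos hy)
    · exact Or.inr (if_neg hy)
  have hc : ∀ y y', Φ a (c y) (c y') := by
    intro y y'
    rcases hc0 y with h1 | h1 <;> rcases hc0 y' with h2 | h2 <;> rw [h1, h2]
    · exact hja
    · exact (Φ a).symm hja
  have hex : ∀ s (o : Off Y), ∃ g, GCpath Φ e (l s) (c o.1.1) (c o.1.2) g := fun s o =>
    GC_exists (l s) (j := j) (j' := j') hj' _ _ (hc0 _) (hc0 _)
  choose G hG using hex
  have h1 : c o0.1.1 = (e j).1 := if_pos rfl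
  have h2 : c o0.1.2 = (e j).2 := if_neg fun hh => o0.2 hh.symm
  let G' : S → Off Y → Fin (2 * N + 2) → X → X := fun s o =>
    if s = s0 ∧ o = o0 then GCstp k0 (e j).1 (e j).2 else G s o
  have hG' : ∀ s o, GCpath Φ e (l s) (c o.1.1) (c o.1.2) (G' s o) := by
    intro s o
    by_cases hso : s = s0 ∧ o = o0
    · have : G' s o = GCstp k0 (e j).1 (e j).2 := if_pos hso
      rw [this]
      obtain ⟨rfl, rfl⟩ := hso
      rw [h1, h2]
      exact GC_step (l s) k0 _ _ hj
    · have : G' s o = G s o := if_neg hso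
      rw [this]
      exact hG s o
  have hG0 : G' s0 o0 = GCstp k0 (e j).1 (e j).2 := if_pos ⟨rfl, rfl⟩
  refine ⟨GCmk y0 c G', GC_good c G' hG' hc, ?_, ?_, ?_⟩
  · intro z
    change G' s0 o0 k0 z = z
    rw [hG0]
    unfold GCstp
    rw [if_neg (lt_irrefl _), if_pos rfl]
  · intro k z hk
    change G' s0 o0 k z = _
    rw [hG0, hj]
    unfold GCstp
    rw [if_pos hk]
  · intro k z hk
    change G' s0 o0 k z = _
    rw [hG0, hj]
    unfold GCstp
    rw [if_neg (by omega), if_neg (by omega)]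

theorem WGE_pr1 (p : X × X) (e : Fin N → X × X) (j : Fin N) (k : ℕ) (hk : k = 1 + j.val) : pr p e k = e j := by
  unfold pr
  rw [if_neg (by omega), dif_pos (by omega)]
  congr 1
  ext
  simp only
  omega

theorem WGE_pr2 (p : X × X) (e : Fin N → X × X) (j : Fin N) (k : ℕ) (hk : k = 1 + N + j.val) : pr p e k = e j := by
  unfold pr
  rw [if_neg (by omega), dif_neg (by omega), dif_pos (by omega)]
  congr 1
  ext
  simp only
  omega

open Classical in
noncomputable def WGE_F (s0 : S) (o0 : Off Y) (e : Fin N → X × X) (j j' : Fin N) : Wt X Y S N → X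
  | Sum.inl _ => (e j).1
  | Sum.inr (none, _) => (e j).1
  | Sum.inr (some (s, o, k), z) => if s = s0 ∧ o = o0 then
      (if k.val = 1 + j.val then z else if k.val = 1 + N + j'.val then z else
        if 1 + j.val < k.val ∧ k.val < 1 + N + j'.val then (e j).2 else (e j).1) else (e j).1

/-- value at the start of the copy `k` -/
theorem WGE_start (l : S → X × X) (s0 : S) (o0 : Off Y) (e : Fin N → X × X) (j j' : Fin N)
    (hj : e j' = (e j).swap) (k : Fin (2 * N + 2)) :
    WGE_F s0 o0 e j j' (Sum.inr (some (s0, o0, k), (pr (l s0) e k.val).1)) =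
      if 1 + j.val < k.val ∧ k.val ≤ 1 + N + j'.val then (e j).2 else (e j).1 := by
  have hj1 := j.isLt
  have hj2 := j'.isLt
  unfold WGE_F
  dsimp only
  rw [if_pos ⟨rfl, rfl⟩]
  by_cases h1 : k.val = 1 + j.val
  · rw [if_pos h1, WGE_pr1 _ e j _ h1, if_neg (by omega)]
  · rw [if_neg h1]
    by_cases h2 : k.val = 1 + N + j'.val
    · rw [if_pos h2, WGE_pr2 _ e j' _ h2, hj, if_pos (by omega)]
      rfl
    · rw [if_neg h2]
      by_cases h3 : 1 + j.val < k.val ∧ k.val < 1 + N + j'.val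
      · rw [if_pos h3, if_pos (by omega)]
      · rw [if_neg h3, if_neg (by omega)]

/-- value at the end of the copy `k` -/
theorem WGE_end (l : S → X × X) (s0 : S) (o0 : Off Y) (e : Fin N → X × X) (j j' : Fin N)
    (hj : e j' = (e j).swap) (k : Fin (2 * N + 2)) :
    WGE_F s0 o0 e j j' (Sum.inr (some (s0, o0, k), (pr (l s0) e k.val).2)) =
      if 1 + j.val ≤ k.val ∧ k.val < 1 + N + j'.val then (e j).2 else (e j).1 := by
  have hj1 := j.isLt
  have hj2 := j'.isLt
  unfold WGE_F
  dsimp only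
  rw [if_pos ⟨rfl, rfl⟩]
  by_cases h1 : k.val = 1 + j.val
  · rw [if_pos h1, WGE_pr1 _ e j _ h1, if_pos (by omega)]
  · rw [if_neg h1]
    by_cases h2 : k.val = 1 + N + j'.val
    · rw [if_pos h2, WGE_pr2 _ e j' _ h2, hj, if_neg (by omega)]
      rfl
    · rw [if_neg h2]
      by_cases h3 : 1 + j.val < k.val ∧ k.val < 1 + N + j'.val
      · rw [if_pos h3, if_pos (by omega)]
      · rw [if_neg h3, if_neg (by omega)]

theorem WGE_off (s0 : S) (o0 : Off Y) (e : Fin N → X × X) (j j' : Fin N) (s : S) (o : Off Y)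
    (k : Fin (2 * N + 2)) (z : X) (h : ¬ (s = s0 ∧ o = o0)) :
    WGE_F s0 o0 e j j' (Sum.inr (some (s, o, k), z)) = (e j).1 := by
  unfold WGE_F
  dsimp only
  rw [if_neg h]

/-- (GE) Excursion: on the path `(s0, o0)`: identity on the copies `1 + j` (from `(e j).1` to `(e j).2`)
and `1 + N + j'` (back), `(e j).2` between them, `(e j).1` everywhere else. -/
theorem good_exc (h : Cfg Φ ΦK e l E a b) (s0 : S) (o0 : Off Y) (j j' : Fin N)
    (hj : e j' = (e j).swap) :
    ∃ F : Wt X Y S N → X, Good Φ x0 y0 e l a F ∧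
      (∀ k : Fin (2 * N + 2), 1 + j.val < k.val → k.val ≤ 1 + N + j'.val →
        F (Sum.inr (some (s0, o0, k), (pr (l s0) e k.val).1)) = (e j).2) ∧
      ∀ w, ¬ InPath s0 o0 w → F w = (e j).1 := by
  have hj1 := j.isLt
  have hj2 := j'.isLt
  refine ⟨WGE_F s0 o0 e j j', ⟨?_, ?_, ?_, ?_, ?_, ?_⟩, ?_, ?_⟩
  · intro c p z z' hz
    rcases c with _ | ⟨s, o, k⟩
    · exact (Φ p).refl _
    · unfold WGE_F
      simp only
      split_ifs
      · exact hz
      · exact hz
      · exact (Φ p).refl _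
      · exact (Φ p).refl _
      · exact (Φ p).refl _
  · rfl
  · intro s o k hk
    by_cases hs : s = s0 ∧ o = o0
    · obtain ⟨rfl, rfl⟩ := hs
      rw [WGE_start l s o e j j' hj k, if_neg (by omega)]
      rfl
    · rw [WGE_off _ _ _ _ _ _ _ _ _ hs]
      rfl
  · intro s o k hk
    by_cases hs : s = s0 ∧ o = o0
    · obtain ⟨rfl, rfl⟩ := hs
      rw [WGE_end l s o e j j' hj k, if_neg (by omega)]
      rfl
    · rw [WGE_off _ _ _ _ _ _ _ _ _ hs]
      rfl
  · intro s o k k' hk
    by_cases hs : s = s0 ∧ o = o0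
    · obtain ⟨rfl, rfl⟩ := hs
      rw [WGE_end l s o e j j' hj k, WGE_start l s o e j j' hj k']
      by_cases h1 : 1 + j.val ≤ k.val ∧ k.val < 1 + N + j'.val
      · rw [if_pos h1, if_pos (by omega)]
      · rw [if_neg h1, if_neg (by omega)]
    · rw [WGE_off _ _ _ _ _ _ _ _ _ hs, WGE_off _ _ _ _ _ _ _ _ _ hs]
  · intro y y'
    exact (Φ a).refl _
  · intro k h1 h2
    rw [WGE_start l s0 o0 e j j' hj k, if_pos ⟨h1, h2⟩]
  · intro w hw
    rcases w with y | ⟨_ | ⟨s, o, k⟩, z⟩
    · rfl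
    · rfl
    · apply WGE_off
      rintro ⟨rfl, rfl⟩
      exact hw ⟨k, z, rfl⟩

/-- identity on the copy `1 + i`, constant before and after -/
def GYG (e : Fin N → X × X) (i : Fin N) (k : ℕ) (z : X) : X :=
  if k < 1 + i.val then (e i).1 else if k = 1 + i.val then z else (e i).2

theorem GYG_pr (l : X × X) (e : Fin N → X × X) (i : Fin N) : pr l e (1 + i.val) = e i := by
  unfold pr
  rw [if_neg (by omega)]
  have h : 1 + i.val - 1 < N := by have := i.2; omega
  rw [dif_pos h]
  congr 1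
  apply Fin.ext
  show 1 + i.val - 1 = i.val
  omega

theorem GYG_glue (l : X × X) (e : Fin N → X × X) (i : Fin N) (k k' : ℕ) (hk : k' = k + 1) :
    GYG e i k (pr l e k).2 = GYG e i k' (pr l e k').1 := by
  subst hk
  unfold GYG
  rcases lt_trichotomy (k + 1) (1 + i.val) with h | h | h
  · rw [if_pos (by omega), if_pos h]
  · rw [if_pos (by omega), if_neg (by omega), if_pos h, h, GYG_pr]
  · rw [if_neg (by omega), if_neg (show ¬ k + 1 < 1 + i.val by omega),
      if_neg (show ¬ k + 1 = 1 + i.val by omega)]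
    by_cases h2 : k = 1 + i.val
    · rw [if_pos h2, h2, GYG_pr]
    · rw [if_neg h2]

theorem GYG_cop (e : Fin N → X × X) (i : Fin N) (k : ℕ) (θ : Setoid X) (z z' : X) (h : θ z z') :
    θ (GYG e i k z) (GYG e i k z') := by
  unfold GYG
  split_ifs
  · exact θ.refl' _
  · exact h
  · exact θ.refl' _

theorem GYG_left (e : Fin N → X × X) (i : Fin N) (k : ℕ) (hk : k = 0) (z : X) :
    GYG e i k z = (e i).1 := by
  unfold GYG
  rw [if_pos (by omega)]

theorem GYG_right (e : Fin N → X × X) (i : Fin N) (k : ℕ) (hk : k = 2 * N + 1) (z : X) :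
    GYG e i k z = (e i).2 := by
  unfold GYG
  have := i.2
  rw [if_neg (by omega), if_neg (by omega)]

open Classical in
/-- the map of `good_coly` -/
noncomputable def GYF (e : Fin N → X × X) (j j' : Fin N) (y1 y0 : Y) : Wt X Y S N → X
  | Sum.inl y => if y = y1 then (e j).1 else (e j).2
  | Sum.inr (none, _) => if y0 = y1 then (e j).1 else (e j).2
  | Sum.inr (some (_, o, k), z) =>
      if o.1.1 = y1 then GYG e j k.val z
      else if o.1.2 = y1 then GYG e j' k.val z else (e j).2

/-- (GY) Colour `Y`: `F (inl y1) = (e j).1 =: u`, all other points of `Y` get `(e j).2 =: v`; base copy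
constant.  A path with equal colours at its ends is constant; from `u` to `v`: identity on the copy
`1 + j`, `u` before, `v` after; from `v` to `u`: identity on the copy `1 + j'`, `e j' = (v, u)`. -/
theorem good_coly (h : Cfg Φ ΦK e l E a b) (j : Fin N) (y1 : Y) :
    ∃ F : Wt X Y S N → X, Good Φ x0 y0 e l a F ∧ F (Sum.inl y1) = (e j).1 ∧
      ∀ y, y ≠ y1 → F (Sum.inl y) = (e j).2 := by
  classical
  obtain ⟨j', hj'⟩ := h.he' (e j).2 (e j).1 (h.hL.symm _ _ (h.he j).1) ((Φ a).symm' (h.he j).2)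
  have h1 : (e j').1 = (e j).2 := by rw [hj']
  have h2 : (e j').2 = (e j).1 := by rw [hj']
  refine ⟨GYF e j j' y1 y0, ⟨?_, ?_, ?_, ?_, ?_, ?_⟩, ?_, ?_⟩
  · rintro (_ | ⟨s, o, k⟩) p z z' hz
    · exact (Φ p).refl' _
    · show (Φ p) (if o.1.1 = y1 then GYG e j k.val z
        else if o.1.2 = y1 then GYG e j' k.val z else (e j).2) (if o.1.1 = y1 then GYG e j k.val z'
        else if o.1.2 = y1 then GYG e j' k.val z' else (e j).2)
      split_ifs
      · exact GYG_cop e j _ _ _ _ hz
      · exact GYG_cop e j' _ _ _ _ hz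
      · exact (Φ p).refl' _
  · rfl
  · intro s o k hk
    show (if o.1.1 = y1 then (e j).1 else (e j).2) = (if o.1.1 = y1 then GYG e j k.val _
        else if o.1.2 = y1 then GYG e j' k.val _ else (e j).2)
    rw [GYG_left e j _ hk, GYG_left e j' _ hk, h1]
    split_ifs <;> rfl
  · intro s o k hk
    show (if o.1.2 = y1 then (e j).1 else (e j).2) = (if o.1.1 = y1 then GYG e j k.val _
        else if o.1.2 = y1 then GYG e j' k.val _ else (e j).2)
    rw [GYG_right e j _ hk, GYG_right e j' _ hk, h2]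
    by_cases h3 : o.1.1 = y1
    · have h4 : ¬ o.1.2 = y1 := fun h4 => o.2 (h3.trans h4.symm)
      rw [if_pos h3, if_neg h4]
    · rw [if_neg h3]
  · intro s o k k' hk
    show (if o.1.1 = y1 then GYG e j k.val _
        else if o.1.2 = y1 then GYG e j' k.val _ else (e j).2) =
      (if o.1.1 = y1 then GYG e j k'.val _
        else if o.1.2 = y1 then GYG e j' k'.val _ else (e j).2)
    rw [GYG_glue (l s) e j k.val k'.val hk, GYG_glue (l s) e j' k.val k'.val hk]
  · intro y y'
    show (Φ a) (if y = y1 then (e j).1 else (e j).2) (if y' = y1 then (e j).1 else (e j).2)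
    split_ifs
    · exact (Φ a).refl' _
    · exact (h.he j).2
    · exact (Φ a).symm' (h.he j).2
    · exact (Φ a).refl' _
  · show (if y1 = y1 then (e j).1 else (e j).2) = (e j).1
    rw [if_pos rfl]
  · intro y hy
    show (if y = y1 then (e j).1 else (e j).2) = (e j).2
    rw [if_neg hy]

end Vale.Agent.P183
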