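import Vale.Agent.P183.Defs2

namespace Vale.Agent.P183

universe u v

variable {L : Type u} [PartialOrder L] {K : Type v} [PartialOrder K] {X Y S : Type} {N : ℕ}
  {Φ : L → Setoid X} {ΦK : K → Setoid Y} {x0 : X} {y0 : Y} {e : Fin N → X × X} {l : S → X × X}
  {E : Set (X × X)} {a b : L}

/-- (TC) consecutive starting points are connected over active copies. -/
theorem tie_conn {x : L} {κ : K} (s : S) (o : Off Y) (k k' : Fin (2 * N + 2))
    (hkk : k.val ≤ k'.val)
    (h : ∀ m, k.val ≤ m → m < k'.val → Φ x (pr (l s) e m).1 (pr (l s) e m).2) :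
    PsiW Φ ΦK x0 y0 e l x κ (Sum.inr (some (s, o, k), (pr (l s) e k.val).1))
      (Sum.inr (some (s, o, k'), (pr (l s) e k'.val).1)) := by
  have key : ∀ d : ℕ, ∀ k' : Fin (2 * N + 2), k'.val = k.val + d →
      (∀ m, k.val ≤ m → m < k'.val → Φ x (pr (l s) e m).1 (pr (l s) e m).2) →
      PsiW Φ ΦK x0 y0 e l x κ (Sum.inr (some (s, o, k), (pr (l s) e k.val).1))
        (Sum.inr (some (s, o, k'), (pr (l s) e k'.val).1)) := by
    intro d
    induction d with
    | zero =>
      intro k' hk' _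
      have : k' = k := Fin.ext (by omega)
      rw [this]
    | succ d ih =>
      intro k' hk' hm
      have hlt : k.val + d < 2 * N + 2 := by
        have := k'.isLt
        omega
      have h1 := ih ⟨k.val + d, hlt⟩ rfl fun m h2 h3 => hm m h2 (by
        have : m < k.val + d := h3
        omega)
      have h2 : PsiW Φ ΦK x0 y0 e l x κ
          (Sum.inr (some (s, o, (⟨k.val + d, hlt⟩ : Fin (2 * N + 2))),
            (pr (l s) e (k.val + d)).1))
          (Sum.inr (some (s, o, (⟨k.val + d, hlt⟩ : Fin (2 * N + 2))),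
            (pr (l s) e (k.val + d)).2)) :=
        Relation.EqvGen.rel _ _ (GenW.copy _ _ _ (hm _ (by omega) (by omega)))
      have h3 : PsiW Φ ΦK x0 y0 e l x κ
          (Sum.inr (some (s, o, (⟨k.val + d, hlt⟩ : Fin (2 * N + 2))),
            (pr (l s) e (k.val + d)).2))
          (Sum.inr (some (s, o, k'), (pr (l s) e k'.val).1)) :=
        Relation.EqvGen.rel _ _ (GenW.glue s o ⟨k.val + d, hlt⟩ k' (by
          change k'.val = k.val + d + 1
          omega))
      exact (PsiW Φ ΦK x0 y0 e l x κ).trans' ((PsiW Φ ΦK x0 y0 e l x κ).trans' h1 h2) h3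
  exact key (k'.val - k.val) k' (by omega) h

/-- (TL) -/
theorem tie_left {x : L} {κ : K} (s : S) (o : Off Y) (k : Fin (2 * N + 2))
    (h : ∀ m, m < k.val → Φ x (pr (l s) e m).1 (pr (l s) e m).2) :
    PsiW Φ ΦK x0 y0 e l x κ (Sum.inr (some (s, o, k), (pr (l s) e k.val).1))
      (Sum.inl o.1.1) := by
  have h1 := tie_conn (x := x) (κ := κ) (Φ := Φ) (ΦK := ΦK) (x0 := x0) (y0 := y0) (e := e)
    (l := l) s o ⟨0, by omega⟩ k (Nat.zero_le _) (fun m _ hm => h m hm)
  have h2 : PsiW Φ ΦK x0 y0 e l x κ (Sum.inl o.1.1)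
      (Sum.inr (some (s, o, (⟨0, by omega⟩ : Fin (2 * N + 2))),
        (pr (l s) e (⟨0, by omega⟩ : Fin (2 * N + 2)).val).1)) :=
    Relation.EqvGen.rel _ _ (GenW.left s o ⟨0, by omega⟩ rfl)
  exact Setoid.trans' _ (Setoid.symm' _ h1) (Setoid.symm' _ h2)

/-- (TR) -/
theorem tie_right {x : L} {κ : K} (s : S) (o : Off Y) (k : Fin (2 * N + 2))
    (h : ∀ m, k.val ≤ m → m < 2 * N + 2 → Φ x (pr (l s) e m).1 (pr (l s) e m).2) :
    PsiW Φ ΦK x0 y0 e l x κ (Sum.inr (some (s, o, k), (pr (l s) e k.val).1))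
      (Sum.inl o.1.2) := by
  have hk := k.isLt
  have hQ : 2 * N + 1 < 2 * N + 2 := by omega
  have h1 := tie_conn (Φ := Φ) (ΦK := ΦK) (x0 := x0) (y0 := y0) (e := e) (l := l) (x := x) (κ := κ)
    s o k ⟨2 * N + 1, hQ⟩ (by simp only; omega)
    (fun m h1 h2 => h m h1 (by simp only at h2; omega))
  have h2 : PsiW Φ ΦK x0 y0 e l x κ
      (Sum.inr (some (s, o, ⟨2 * N + 1, hQ⟩), (pr (l s) e (2 * N + 1)).1))
      (Sum.inr (some (s, o, ⟨2 * N + 1, hQ⟩), (pr (l s) e (2 * N + 1)).2)) :=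
    Relation.EqvGen.rel _ _ (GenW.copy _ _ _ (h _ (by omega) (by omega)))
  have h3 : PsiW Φ ΦK x0 y0 e l x κ (Sum.inl o.1.2)
      (Sum.inr (some (s, o, ⟨2 * N + 1, hQ⟩), (pr (l s) e (2 * N + 1)).2)) :=
    Relation.EqvGen.rel _ _ (GenW.right s o ⟨2 * N + 1, hQ⟩ rfl)
  exact Setoid.trans' _ h1 (Setoid.trans' _ h2 (Setoid.symm' _ h3))

/-- (YF) if all `e j` and one `l s` are in `Φ x` then `Y` is one class: `tie_left` for `k = 2N+1`, the
copy `2N+1` and `right`. -/
theorem y_full {x : L} {κ : K} (hA : ∀ j, Φ x (e j).1 (e j).2) (s : S)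
    (hs : Φ x (l s).1 (l s).2) (y y' : Y) :
    PsiW Φ ΦK x0 y0 e l x κ (Sum.inl y) (Sum.inl y' : Wt X Y S N) := by
  by_cases hyy : y = y'
  · subst hyy
    exact (PsiW Φ ΦK x0 y0 e l x κ).refl _
  · have hact : ∀ m, Φ x (pr (l s) e m).1 (pr (l s) e m).2 := by
      intro m
      unfold pr
      split_ifs with h1 h2 h3
      · exact hs
      · exact hA _
      · exact hA _
      · exact (Φ x).symm hs
    obtain ⟨k, hk⟩ : ∃ k : Fin (2 * N + 2), k.val = 2 * N + 1 := ⟨⟨2 * N + 1, by omega⟩, rfl⟩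
    obtain ⟨o, ho1, ho2⟩ : ∃ o : Off Y, o.1.1 = y ∧ o.1.2 = y' := ⟨⟨(y, y'), hyy⟩, rfl, rfl⟩
    have h1 := tie_left (Φ := Φ) (ΦK := ΦK) (x0 := x0) (y0 := y0) (e := e) (l := l) (x := x)
      (κ := κ) s o k (fun m _ => hact m)
    have h2 : PsiW Φ ΦK x0 y0 e l x κ (Sum.inr (some (s, o, k), (pr (l s) e k.val).1))
        (Sum.inr (some (s, o, k), (pr (l s) e k.val).2)) :=
      Relation.EqvGen.rel _ _ (GenW.copy _ _ _ (hact k.val))
    have h3 : PsiW Φ ΦK x0 y0 e l x κ (Sum.inl o.1.2)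
        (Sum.inr (some (s, o, k), (pr (l s) e k.val).2)) :=
      Relation.EqvGen.rel _ _ (GenW.right s o k hk)
    rw [ho1] at h1
    rw [ho2] at h3
    exact (PsiW Φ ΦK x0 y0 e l x κ).trans ((PsiW Φ ΦK x0 y0 e l x κ).symm h1)
      ((PsiW Φ ΦK x0 y0 e l x κ).trans h2 ((PsiW Φ ΦK x0 y0 e l x κ).symm h3))

theorem YT_pr_zero (q : X × X) (e : Fin N → X × X) : pr q e 0 = q := by
  unfold pr
  rw [if_pos rfl]

theorem YT_pr_last (q : X × X) (e : Fin N → X × X) : pr q e (2 * N + 1) = q.swap := by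
  unfold pr
  rw [if_neg (by omega), dif_neg (by omega), dif_neg (by omega)]

open Classical in
/-- the trace map of YT -/
noncomputable def YT_c (r : Setoid X) (l : S → X × X) (y0 : Y) : Wt X Y S N → Y ⊕ (S × Off Y)
  | Sum.inl y => Sum.inl y
  | Sum.inr (none, _) => Sum.inl y0
  | Sum.inr (some (s, o, k), z) =>
      if r (l s).1 z then
        (if k.val = 0 then Sum.inl o.1.1
          else if k.val = 2 * N + 1 then Sum.inl o.1.2 else Sum.inr (s, o))
      else Sum.inr (s, o)

/-- (YT) If all `l s` are inactive: `c : Wt → Y ⊕ (S × Off Y)`: `inl y ↦ inl y`; base copy `↦ inl y0`;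
the point `z` of the copy `0` of a path `↦ inl o.1.1` if `Φ x (l s).1 z`, otherwise `inr (s, o)`; of the
copy `2N+1` `↦ inl o.1.2` if `Φ x (l s).1 z`, otherwise `inr (s, o)`; other copies `↦ inr (s, o)`.
All generators preserve `c w = c w' ∨ ∃ y y', c w = inl y ∧ c w' = inl y' ∧ ΦK κ y y'`. -/
theorem y_trace {x : L} {κ : K} (hl : ∀ s, ¬ Φ x (l s).1 (l s).2) {y y' : Y}
    (h : PsiW Φ ΦK x0 y0 e l x κ (Sum.inl y) (Sum.inl y' : Wt X Y S N)) : ΦK κ y y' := by
  classical
  have key : ∀ w w' : Wt X Y S N, Relation.EqvGen (GenW Φ ΦK x0 y0 e l x κ) w w' →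
      Sum.map (Quotient.mk (ΦK κ)) (id : S × Off Y → S × Off Y) (YT_c (Φ x) l y0 w) =
        Sum.map (Quotient.mk (ΦK κ)) (id : S × Off Y → S × Off Y) (YT_c (Φ x) l y0 w') := by
    intro w w' h
    induction h with
    | refl => rfl
    | symm _ _ _ ih => exact ih.symm
    | trans _ _ _ _ _ ih1 ih2 => exact ih1.trans ih2
    | rel w w' h =>
      cases h with
      | ky y y' h => exact congrArg Sum.inl (Quotient.sound h)
      | copy c z z' h =>
        rcases c with _ | ⟨s, o, k⟩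
        · rfl
        · have hi : Φ x (l s).1 z ↔ Φ x (l s).1 z' :=
            ⟨fun h1 => (Φ x).trans' h1 h, fun h1 => (Φ x).trans' h1 ((Φ x).symm' h)⟩
          simp only [YT_c, hi]
      | base => rfl
      | left s o k hk =>
        have h1 : Φ x (l s).1 (pr (l s) e k.val).1 := by
          rw [hk, YT_pr_zero]
        simp only [YT_c, if_pos h1, if_pos hk]
      | right s o k hk =>
        have h1 : Φ x (l s).1 (pr (l s) e k.val).2 := by
          rw [hk, YT_pr_last]
          exact (Φ x).refl' _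
        have h2 : ¬ k.val = 0 := by omega
        simp only [YT_c, if_pos h1, if_neg h2, if_pos hk]
      | glue s o k k' hk =>
        have hk1 : ¬ k.val = 2 * N + 1 := by
          have := k'.isLt
          omega
        have hk2 : ¬ k'.val = 0 := by omega
        have h1 : YT_c (Φ x) l y0 (Sum.inr (some (s, o, k), (pr (l s) e k.val).2) : Wt X Y S N) =
            Sum.inr (s, o) := by
          by_cases h0 : k.val = 0
          · have h3 : ¬ Φ x (l s).1 (pr (l s) e k.val).2 := by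
              rw [h0, YT_pr_zero]
              exact hl s
            simp only [YT_c, if_neg h3]
          · simp only [YT_c, if_neg h0, if_neg hk1, ite_self]
        have h2 : YT_c (Φ x) l y0 (Sum.inr (some (s, o, k'), (pr (l s) e k'.val).1) : Wt X Y S N) =
            Sum.inr (s, o) := by
          by_cases h0 : k'.val = 2 * N + 1
          · have h3 : ¬ Φ x (l s).1 (pr (l s) e k'.val).1 := by
              rw [h0, YT_pr_last]
              exact hl s
            simp only [YT_c, if_neg h3]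
          · simp only [YT_c, if_neg h0, if_neg hk2, ite_self]
        rw [h1, h2]
  have h1 := key _ _ h
  have h2 : Quotient.mk (ΦK κ) y = Quotient.mk (ΦK κ) y' := Sum.inl.inj h1
  exact Quotient.exact h2

end Vale.Agent.P183
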