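import Vale.Agent.P183.WGood
import Vale.Agent.P183.WCol
import Vale.Agent.P183.WConn

namespace Vale.Agent.P183

universe u v

variable {L : Type u} [PartialOrder L] {K : Type v} [PartialOrder K] {X Y S : Type} {N : ℕ}
  {Φ : L → Setoid X} {ΦK : K → Setoid Y} {x0 : X} {y0 : Y} {e : Fin N → X × X} {l : S → X × X}
  {E : Set (X × X)} {a b : L}

theorem sp_pr0 (l : X × X) (e : Fin N → X × X) : pr l e 0 = l := by
  unfold pr
  rw [if_pos rfl]

theorem sp_pr1 (l : X × X) (e : Fin N → X × X) : pr l e (2 * N + 1) = l.swap := by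
  unfold pr
  rw [if_neg (by omega), dif_neg (by omega), dif_neg (by omega)]

theorem sp_copy {x : L} {κ : K} (c : Option (S × Off Y × Fin (2 * N + 2))) {z z' : X}
    (hz : Φ x z z') : PsiW Φ ΦK x0 y0 e l x κ (Sum.inr (c, z)) (Sum.inr (c, z')) :=
  Relation.EqvGen.rel _ _ (GenW.copy c z z' hz)

/-- two starts -/
theorem sp_starts (h : Cfg Φ ΦK e l E a b) {x : L} {κ : K} (θ : Setoid (Wt X Y S N))
    (hG : ∀ F, Good Φ x0 y0 e l a F → ∀ w w', θ w w' → Φ x (F w) (F w')) (s : S) (o : Off Y)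
    (k k' : Fin (2 * N + 2)) (hk : 0 < k.val) (hkk : k.val ≤ k'.val)
    (hw : θ (Sum.inr (some (s, o, k), (pr (l s) e k.val).1))
      (Sum.inr (some (s, o, k'), (pr (l s) e k'.val).1))) :
    PsiW Φ ΦK x0 y0 e l x κ (Sum.inr (some (s, o, k), (pr (l s) e k.val).1))
      (Sum.inr (some (s, o, k'), (pr (l s) e k'.val).1)) := by
  refine tie_conn s o k k' hkk fun m hm hm' => ?_
  have hk'2 := k'.2
  obtain ⟨F, hF, h1, h2, h3⟩ := good_col (x0 := x0) (y0 := y0) h s o ⟨m, by omega⟩
    (by show 0 < m; omega) (by show m < 2 * N + 1; omega)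
  have h4 := hG F hF _ _ hw
  rw [h3 k' _ hm'] at h4
  rcases hm.eq_or_lt with h5 | h5
  · have h6 : k = ⟨m, by omega⟩ := Fin.ext h5
    have h7 := h1 (pr (l s) e k.val).1
    rw [← h6] at h7
    rw [h7] at h4
    have h8 : k.val = m := h5
    rw [h8] at h4
    exact h4
  · rw [h2 k _ h5] at h4
    exact h4

theorem sp_aux (h : Cfg Φ ΦK e l E a b) {x : L} {κ : K} (θ : Setoid (Wt X Y S N))
    (hle : PsiW Φ ΦK x0 y0 e l x κ ≤ θ)
    (hG : ∀ F, Good Φ x0 y0 e l a F → ∀ w w', θ w w' → Φ x (F w) (F w'))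
    (s : S) (o : Off Y)
    (k k' : Fin (2 * N + 2)) (z z' : X) (hkk : k.val < k'.val)
    (hz : Φ x z (pr (l s) e k.val).2) (hz' : Φ x (pr (l s) e k'.val).1 z')
    (hw : θ (Sum.inr (some (s, o, k), z)) (Sum.inr (some (s, o, k'), z'))) :
    PsiW Φ ΦK x0 y0 e l x κ (Sum.inr (some (s, o, k), z)) (Sum.inr (some (s, o, k'), z')) := by
  have hk'2 := k'.2
  obtain ⟨k1, hk1⟩ : ∃ k1 : Fin (2 * N + 2), k1.val = k.val + 1 := ⟨⟨k.val + 1, by omega⟩, rfl⟩
  have e1 : PsiW Φ ΦK x0 y0 e l x κ (Sum.inr (some (s, o, k), z))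
      (Sum.inr (some (s, o, k1), (pr (l s) e k1.val).1)) :=
    Setoid.trans' _ (sp_copy _ hz) (Relation.EqvGen.rel _ _ (GenW.glue s o k k1 hk1))
  have e2 : PsiW Φ ΦK x0 y0 e l x κ (Sum.inr (some (s, o, k'), (pr (l s) e k'.val).1))
      (Sum.inr (some (s, o, k'), z')) := sp_copy _ hz'
  have e3 : θ (Sum.inr (some (s, o, k1), (pr (l s) e k1.val).1))
      (Sum.inr (some (s, o, k'), (pr (l s) e k'.val).1)) :=
    Setoid.trans' _ (Setoid.symm' _ (hle e1)) (Setoid.trans' _ hw (Setoid.symm' _ (hle e2)))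
  exact Setoid.trans' _ e1 (Setoid.trans' _
    (sp_starts h θ hG s o k1 k' (by omega) (by omega) e3) e2)

theorem sp_lt (h : Cfg Φ ΦK e l E a b) {x : L} {κ : K} (θ : Setoid (Wt X Y S N))
    (hle : PsiW Φ ΦK x0 y0 e l x κ ≤ θ)
    (hG : ∀ F, Good Φ x0 y0 e l a F → ∀ w w', θ w w' → Φ x (F w) (F w'))
    (hY : ∀ y y', θ (Sum.inl y) (Sum.inl y') → ΦK κ y y') (s : S) (o : Off Y)
    (k k' : Fin (2 * N + 2)) (z z' : X) (hkk : k.val < k'.val)
    (hw : θ (Sum.inr (some (s, o, k), z)) (Sum.inr (some (s, o, k'), z'))) :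
    PsiW Φ ΦK x0 y0 e l x κ (Sum.inr (some (s, o, k), z)) (Sum.inr (some (s, o, k'), z')) := by
  have hk'2 := k'.2
  by_cases hk0 : k.val = 0
  · by_cases hk1 : k'.val = 2 * N + 1
    · obtain ⟨F, hF, h1, h2, h3⟩ := good_link (x0 := x0) (y0 := y0) h s o
      have h4 := hG F hF _ _ hw
      rw [h1 k z (Or.inl hk0), h1 k' z' (Or.inr hk1)] at h4
      by_cases h5 : Φ x z (l s).2
      · refine sp_aux h θ hle hG s o k k' z z' hkk ?_ ?_ hw
        · rw [hk0, sp_pr0]
          exact h5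
        · rw [hk1, sp_pr1]
          exact Setoid.trans' _ (Setoid.symm' _ h5) h4
      · by_cases h6 : Φ x z (l s).1
        · have e1 : PsiW Φ ΦK x0 y0 e l x κ (Sum.inr (some (s, o, k), z)) (Sum.inl o.1.1) := by
            refine Setoid.trans' _ (sp_copy _ (z' := (pr (l s) e k.val).1) ?_)
              (Setoid.symm' _ (Relation.EqvGen.rel _ _ (GenW.left s o k hk0)))
            rw [hk0, sp_pr0]
            exact h6
          have e2 : PsiW Φ ΦK x0 y0 e l x κ (Sum.inl o.1.2) (Sum.inr (some (s, o, k'), z')) := by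
            refine Setoid.trans' _ (Relation.EqvGen.rel _ _ (GenW.right s o k' hk1))
              (sp_copy _ ?_)
            rw [hk1, sp_pr1]
            exact Setoid.trans' _ (Setoid.symm' _ h6) h4
          have e3 : θ (Sum.inl o.1.1) (Sum.inl o.1.2) :=
            Setoid.trans' _ (Setoid.symm' _ (hle e1)) (Setoid.trans' _ hw
              (Setoid.symm' _ (hle e2)))
          exact Setoid.trans' _ e1 (Setoid.trans' _
            (Relation.EqvGen.rel _ _ (GenW.ky _ _ (hY _ _ e3))) e2)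
        · exfalso
          obtain ⟨f, hf, hf1, hf2⟩ := h.hL.sep x (l s).1 (l s).2 (h.hl s).1 z
            (fun h7 => h6 (Setoid.symm' _ h7)) (fun h7 => h5 (Setoid.symm' _ h7))
          have hff : f (pr (l s) e k.val).1 = f (pr (l s) e k.val).2 := by
            rw [hk0, sp_pr0]
            exact hf1
          obtain ⟨F', hF', g1, g2⟩ := good_sep (x0 := x0) (y0 := y0) h s o k f hf hff
          have g3 := hG F' hF' _ _ hw
          rw [g1 z, g2 _ (fun z'' h7 => by
            have h8 := congrArg (fun t => Sum.elim (fun _ => 0) (fun q => Option.elim q.1 0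
              (fun r => r.2.2.val)) t) h7
            simp only [Sum.elim_inr, Option.elim_some] at h8
            omega), hk0, sp_pr0] at g3
          exact hf2 (Setoid.symm' _ g3)
    · obtain ⟨F, hF, h1, h2, h3⟩ := good_link (x0 := x0) (y0 := y0) h s o
      have h4 := hG F hF _ _ hw
      rw [h1 k z (Or.inl hk0), h2 k' z' (by omega) (by omega)] at h4
      obtain ⟨F', hF', g1, g2, g3⟩ := good_col (x0 := x0) (y0 := y0) h s o k'
        (by omega) (by omega)
      have g4 := hG F' hF' _ _ hw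
      rw [g1 z', g2 k z hkk] at g4
      refine sp_aux h θ hle hG s o k k' z z' hkk ?_ g4 hw
      rw [hk0, sp_pr0]
      exact h4
  · obtain ⟨F, hF, h1, h2, h3⟩ := good_col (x0 := x0) (y0 := y0) h s o k
        (by omega) (by omega)
    have h4 := hG F hF _ _ hw
    rw [h1 z, h3 k' z' hkk] at h4
    refine sp_aux h θ hle hG s o k k' z z' hkk h4 ?_ hw
    by_cases hk1 : k'.val = 2 * N + 1
    · obtain ⟨F', hF', g1, g2, g3⟩ := good_link (x0 := x0) (y0 := y0) h s o
      have g4 := hG F' hF' _ _ hw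
      rw [g2 k z (by omega) (by omega), g1 k' z' (Or.inr hk1)] at g4
      rw [hk1, sp_pr1]
      exact g4
    · obtain ⟨F', hF', g1, g2, g3⟩ := good_col (x0 := x0) (y0 := y0) h s o k'
        (by omega) (by omega)
      have g4 := hG F' hF' _ _ hw
      rw [g1 z', g2 k z hkk] at g4
      exact g4

/-- (SP) Two points of the same path.  By symmetry `k ≤ k'`.  `k = k'`: `good_col` or `good_link` give
`Φ x z z'`.  `k < k'`.  First move `z` to the end of the copy `k` (start of `k + 1`) and `z'` to the start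
of the copy `k'`: for `0 < k`: `good_col k` gives `Φ x z (pr k).2`; for `k = 0`, `k' < 2N+1`: `good_link`
gives `Φ x z (l s).2`; same for `k'`.  For `k = 0`, `k' = 2N+1`: `good_link` gives `Φ x z z'`; if `z` is
related neither to `(l s).1` nor to `(l s).2` then `h.hL.sep` and `good_sep` for the copy `0` give a
contradiction; if `Φ x z (l s).1` then both points are connected to the ends `o.1.1`, `o.1.2` of the
path, use `hY`; if `Φ x z (l s).2` they are connected to the starts of the copies `1` and `2N+1`.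
Finally two starts `1 ≤ k < k' ≤ 2N+1`: every copy `m`, `k ≤ m < k'`, is active by `good_col m`, use
`tie_conn`. -/
theorem same_path (h : Cfg Φ ΦK e l E a b) {x : L} {κ : K} (θ : Setoid (Wt X Y S N))
    (hle : PsiW Φ ΦK x0 y0 e l x κ ≤ θ)
    (hG : ∀ F, Good Φ x0 y0 e l a F → ∀ w w', θ w w' → Φ x (F w) (F w'))
    (hY : ∀ y y', θ (Sum.inl y) (Sum.inl y') → ΦK κ y y') (s : S) (o : Off Y)
    (k k' : Fin (2 * N + 2)) (z z' : X)
    (hw : θ (Sum.inr (some (s, o, k), z)) (Sum.inr (some (s, o, k'), z'))) :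
    PsiW Φ ΦK x0 y0 e l x κ (Sum.inr (some (s, o, k), z)) (Sum.inr (some (s, o, k'), z')) := by
  rcases lt_trichotomy k.val k'.val with h1 | h1 | h1
  · exact sp_lt h θ hle hG hY s o k k' z z' h1 hw
  · have h2 : k = k' := Fin.ext h1
    subst h2
    refine sp_copy _ ?_
    have hk2 := k.2
    by_cases hk0 : k.val = 0 ∨ k.val = 2 * N + 1
    · obtain ⟨F, hF, g1, g2, g3⟩ := good_link (x0 := x0) (y0 := y0) h s o
      have h4 := hG F hF _ _ hw
      rw [g1 k z hk0, g1 k z' hk0] at h4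
      exact h4
    · obtain ⟨F, hF, g1, g2, g3⟩ := good_col (x0 := x0) (y0 := y0) h s o k
        (by omega) (by omega)
      have h4 := hG F hF _ _ hw
      rw [g1 z, g1 z'] at h4
      exact h4
  · exact Setoid.symm' _ (sp_lt h θ hle hG hY s o k' k z' z h1 (Setoid.symm' _ hw))

end Vale.Agent.P183
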