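import Vale.Agent.P183.WDich
import Vale.Agent.P183.WSame

namespace Vale.Agent.P183

universe u v

variable {L : Type u} [PartialOrder L] {K : Type v} [PartialOrder K] {X Y S : Type} {N : ℕ}
  {Φ : L → Setoid X} {ΦK : K → Setoid Y} {x0 : X} {y0 : Y} {e : Fin N → X × X} {l : S → X × X}
  {E : Set (X × X)} {a b : L}

private theorem exact_w_aux (h : Cfg Φ ΦK e l E a b) {x : L} {κ : K} (θ : Setoid (Wt X Y S N))
    (hle : PsiW Φ ΦK x0 y0 e l x κ ≤ θ)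
    (hG : ∀ F, Good Φ x0 y0 e l a F → ∀ w w', θ w w' → Φ x (F w) (F w'))
    (hY : ∀ y y', θ (Sum.inl y) (Sum.inl y') → ΦK κ y y')
    (w w' : Wt X Y S N) (hww : θ w w') (F : Wt X Y S N → X) (u : X)
    (hF : Good Φ x0 y0 e l a F) (hu : ¬ Φ x u (F w))
    (hloc : (∃ s o, InPath s o w ∧ ∀ w', ¬ InPath s o w' → F w' = u) ∨
        ((∃ z, w = Sum.inr (none, z)) ∧ ∀ w', (∀ z, w' ≠ Sum.inr (none, z)) → F w' = u)) :
    PsiW Φ ΦK x0 y0 e l x κ w w' := by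
  rcases hloc with ⟨s, o, ⟨k, z, rfl⟩, hout⟩ | ⟨⟨z, rfl⟩, hout⟩
  · by_cases hin : InPath s o w'
    · obtain ⟨k', z', rfl⟩ := hin
      exact same_path h θ hle hG hY s o k k' z z' hww
    · exfalso
      have h1 := hG F hF _ _ hww
      rw [hout w' hin] at h1
      exact hu ((Φ x).symm' h1)
  · by_cases hin : ∃ z', w' = Sum.inr (none, z')
    · obtain ⟨z', rfl⟩ := hin
      obtain ⟨F', hF', hid, _⟩ := good_base (x0 := x0) (y0 := y0) h
      have h1 := hG F' hF' _ _ hww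
      rw [hid, hid] at h1
      exact Relation.EqvGen.rel _ _ (GenW.copy none z z' h1)
    · exfalso
      have h1 := hG F hF _ _ hww
      rw [hout w' (fun z' hz' => hin ⟨z', hz'⟩)] at h1
      exact hu ((Φ x).symm' h1)

/-- (EW) from `pt_dich` and `same_path`. -/
theorem exact_w (h : Cfg Φ ΦK e l E a b) {x : L} {κ : K} (θ : Setoid (Wt X Y S N))
    (hle : PsiW Φ ΦK x0 y0 e l x κ ≤ θ)
    (hG : ∀ F, Good Φ x0 y0 e l a F → ∀ w w', θ w w' → Φ x (F w) (F w'))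
    (hY : ∀ y y', θ (Sum.inl y) (Sum.inl y') → ΦK κ y y') :
    θ ≤ PsiW Φ ΦK x0 y0 e l x κ := by
  have hψ : ∀ {w w'}, PsiW Φ ΦK x0 y0 e l x κ w w' → θ w w' := fun hw => hle hw
  intro w w' hww
  rcases pt_dich (x0 := x0) (y0 := y0) h x w with ⟨y, hy⟩ | ⟨F, u, hF, hu, hloc⟩
  · rcases pt_dich (x0 := x0) (y0 := y0) h x w' with ⟨y', hy'⟩ | ⟨F, u, hF, hu, hloc⟩
    · have h1 : θ (Sum.inl y) (Sum.inl y') :=
        θ.trans' (θ.symm' (hψ (hy κ))) (θ.trans' hww (hψ (hy' κ)))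
      have h2 : PsiW Φ ΦK x0 y0 e l x κ (Sum.inl y) (Sum.inl y') :=
        Relation.EqvGen.rel _ _ (GenW.ky y y' (hY y y' h1))
      exact (PsiW Φ ΦK x0 y0 e l x κ).trans' (hy κ)
        ((PsiW Φ ΦK x0 y0 e l x κ).trans' h2 ((PsiW Φ ΦK x0 y0 e l x κ).symm' (hy' κ)))
    · exact (PsiW Φ ΦK x0 y0 e l x κ).symm'
        (exact_w_aux h θ hle hG hY w' w (θ.symm' hww) F u hF hu hloc)
  · exact exact_w_aux h θ hle hG hY w w' hww F u hF hu hloc

end Vale.Agent.P183
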