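import Vale.Agent.P183.Defs2

namespace Vale.Agent.P183

universe u v

variable {L : Type u} [PartialOrder L] {K : Type v} [PartialOrder K] {X Y S : Type} {N : ℕ}
  {Φ : L → Setoid X} {ΦK : K → Setoid Y} {x0 : X} {y0 : Y} {e : Fin N → X × X} {l : S → X × X}
  {E : Set (X × X)} {a b : L}

open Classical in
/-- the map of XM -/
noncomputable def XM_map (y0 : Y) (h : Y → Y) : Wt X Y S N → Wt X Y S N
  | Sum.inl y => Sum.inl (h y)
  | Sum.inr (none, _) => Sum.inl (h y0)
  | Sum.inr (some (s, o, k), z) =>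
      if hne : h o.1.1 ≠ h o.1.2 then Sum.inr (some (s, ⟨(h o.1.1, h o.1.2), hne⟩, k), z)
      else Sum.inl (h o.1.1)

/-- (XM) paths `(s, o, k)` go to `(s, (h o.1.1, h o.1.2), k)` if `h o.1.1 ≠ h o.1.2`, otherwise to the
point `h o.1.1`; base copy to `h y0`. -/
theorem ext_map (h : Y → Y) (hh : ∀ q, Pres h (ΦK q)) :
    ∃ H : Wt X Y S N → Wt X Y S N, (∀ (x : L) (κ : K), Pres H (PsiW Φ ΦK x0 y0 e l x κ)) ∧
      (∀ y, H (Sum.inl y) = Sum.inl (h y)) ∧ ∀ z, H (Sum.inr (none, z)) = Sum.inl (h y0) := by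
  classical
  refine ⟨XM_map y0 h, fun x κ w w' hw => ?_, fun _ => rfl, fun _ => rfl⟩
  have hw' : Relation.EqvGen (GenW Φ ΦK x0 y0 e l x κ) w w' := hw
  show Relation.EqvGen (GenW Φ ΦK x0 y0 e l x κ) (XM_map y0 h w) (XM_map y0 h w')
  induction hw' with
  | refl => exact Relation.EqvGen.refl _
  | symm _ _ h1 ih => exact (ih h1).symm
  | trans _ _ _ h1 h2 ih1 ih2 => exact (ih1 h1).trans _ _ _ (ih2 h2)
  | rel w w' h1 =>
    cases h1 with
    | ky y y' h1 => exact Relation.EqvGen.rel _ _ (GenW.ky _ _ (hh κ _ _ h1))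
    | copy c z z' h1 =>
      rcases c with _ | ⟨s, o, k⟩
      · exact Relation.EqvGen.refl _
      · by_cases hne : h o.1.1 ≠ h o.1.2
        · simp only [XM_map, dif_pos hne]
          exact Relation.EqvGen.rel _ _ (GenW.copy _ _ _ h1)
        · simp only [XM_map, dif_neg hne]
          exact Relation.EqvGen.refl _
    | base => exact Relation.EqvGen.refl _
    | left s o k hk =>
      by_cases hne : h o.1.1 ≠ h o.1.2
      · simp only [XM_map, dif_pos hne]
        exact Relation.EqvGen.rel _ _ (GenW.left s ⟨(h o.1.1, h o.1.2), hne⟩ k hk)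
      · simp only [XM_map, dif_neg hne]
        exact Relation.EqvGen.refl _
    | right s o k hk =>
      by_cases hne : h o.1.1 ≠ h o.1.2
      · simp only [XM_map, dif_pos hne]
        exact Relation.EqvGen.rel _ _ (GenW.right s ⟨(h o.1.1, h o.1.2), hne⟩ k hk)
      · simp only [XM_map, dif_neg hne]
        rw [not_not] at hne
        rw [hne]
        exact Relation.EqvGen.refl _
    | glue s o k k' hk =>
      by_cases hne : h o.1.1 ≠ h o.1.2
      · simp only [XM_map, dif_pos hne]
        exact Relation.EqvGen.rel _ _ (GenW.glue s ⟨(h o.1.1, h o.1.2), hne⟩ k k' hk)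
      · simp only [XM_map, dif_neg hne]
        exact Relation.EqvGen.refl _

/-- the map of CM -/
def CM_map (y0 : Y) : Wt X Y S N → Wt X Y S N
  | Sum.inl y => Sum.inl y
  | Sum.inr (none, _) => Sum.inl y0
  | Sum.inr (some c, z) => Sum.inr (some c, z)

/-- (CM) collapse the base copy to `y0`, identity elsewhere. -/
theorem coll_map :
    ∃ H : Wt X Y S N → Wt X Y S N, (∀ (x : L) (κ : K), Pres H (PsiW Φ ΦK x0 y0 e l x κ)) ∧
      (∀ z, H (Sum.inr (none, z)) = Sum.inl y0) ∧
      ∀ w, (∀ z, w ≠ Sum.inr (none, z)) → H w = w := by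
  refine ⟨CM_map y0, fun x κ w w' hw => ?_, fun _ => rfl, ?_⟩
  · have hw' : Relation.EqvGen (GenW Φ ΦK x0 y0 e l x κ) w w' := hw
    show Relation.EqvGen (GenW Φ ΦK x0 y0 e l x κ) (CM_map y0 w) (CM_map y0 w')
    induction hw' with
    | refl => exact Relation.EqvGen.refl _
    | symm _ _ h1 ih => exact (ih h1).symm
    | trans _ _ _ h1 h2 ih1 ih2 => exact (ih1 h1).trans _ _ _ (ih2 h2)
    | rel w w' h1 =>
      cases h1 with
      | ky y y' h1 => exact Relation.EqvGen.rel _ _ (GenW.ky _ _ h1)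
      | copy c z z' h1 =>
        rcases c with _ | c
        · exact Relation.EqvGen.refl _
        · exact Relation.EqvGen.rel _ _ (GenW.copy (some c) _ _ h1)
      | base => exact Relation.EqvGen.refl _
      | left s o k hk => exact Relation.EqvGen.rel _ _ (GenW.left s o k hk)
      | right s o k hk => exact Relation.EqvGen.rel _ _ (GenW.right s o k hk)
      | glue s o k k' hk => exact Relation.EqvGen.rel _ _ (GenW.glue s o k k' hk)
  · intro w hw
    rcases w with y | ⟨_ | c, z⟩
    · rfl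
    · exact absurd rfl (hw z)
    · rfl

end Vale.Agent.P183
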