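import Vale.Agent.P183.Defs2

namespace Vale.Agent.P183

universe u

theorem WQE_out {W : Type} (r : Setoid W) (w : W) : r (Quotient.out (Quotient.mk r w)) w :=
  Quotient.mk_out w

/-- (QE) pass to the quotient by the least relation `Ψ p0`.  A map on the quotient preserving all
`Φ p` lifts to `W` (`Quotient.out`), a map on `W` preserving all `Ψ p` descends. -/
theorem quot_emb {P : Type u} [PartialOrder P] (p0 : P) (hp0 : ∀ p, p0 ≤ p) {W : Type}
    (Ψ : P → Setoid W) (hle : ∀ p q, Ψ p ≤ Ψ q ↔ p ≤ q)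
    (hcl : ∀ θ : Setoid W, Ψ p0 ≤ θ → (∀ f : W → W, (∀ p, Pres f (Ψ p)) → Pres f θ) →
      ∃ p, θ = Ψ p) :
    ∃ Φ : P → Setoid (Quotient (Ψ p0)), ClosedEmb Φ ∧
      ∀ p w w', Φ p (Quotient.mk _ w) (Quotient.mk _ w') ↔ Ψ p w w' := by
  have h0 : ∀ p, Ψ p0 ≤ Ψ p := fun p => (hle p0 p).2 (hp0 p)
  have ho : ∀ p w, Ψ p (Quotient.out (Quotient.mk (Ψ p0) w)) w := fun p w =>
    h0 p (WQE_out (Ψ p0) w)
  have key : ∀ p w w', Setoid.comap (Quotient.out : Quotient (Ψ p0) → W) (Ψ p)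
      (Quotient.mk _ w) (Quotient.mk _ w') ↔ Ψ p w w' := by
    intro p w w'
    rw [Setoid.comap_rel]
    constructor
    · intro h
      exact (Ψ p).trans ((Ψ p).symm (ho p w)) ((Ψ p).trans h (ho p w'))
    · intro h
      exact (Ψ p).trans (ho p w) ((Ψ p).trans h ((Ψ p).symm (ho p w')))
  refine ⟨fun p => Setoid.comap (Quotient.out : Quotient (Ψ p0) → W) (Ψ p), ⟨?_, ?_⟩, key⟩
  · intro p q
    rw [← hle p q]
    constructor
    · intro h w w' hw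
      exact (key q w w').1 (h ((key p w w').2 hw))
    · intro h a b hab
      exact h hab
  · intro θ hθ
    obtain ⟨p, hp⟩ := hcl (Setoid.comap (Quotient.mk (Ψ p0)) θ) (by
      intro w w' hw
      rw [Setoid.comap_rel, Quotient.sound (s := Ψ p0) hw]) (by
      intro F hF w w' hw
      rw [Setoid.comap_rel] at hw ⊢
      have hf : ∀ p, Pres (fun a : Quotient (Ψ p0) => Quotient.mk (Ψ p0) (F (Quotient.out a)))
          (Setoid.comap (Quotient.out : Quotient (Ψ p0) → W) (Ψ p)) := by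
        intro p a b hab
        exact (key p _ _).2 (hF p _ _ hab)
      have h1 := hθ _ hf _ _ hw
      have h2 : ∀ v, Quotient.mk (Ψ p0) (F (Quotient.out (Quotient.mk (Ψ p0) v))) =
          Quotient.mk (Ψ p0) (F v) := fun v =>
        Quotient.sound (s := Ψ p0) (hF p0 _ _ (WQE_out (Ψ p0) v))
      simp only [h2] at h1
      exact h1)
    refine ⟨p, ?_⟩
    ext a b
    have h3 : θ a b ↔ θ (Quotient.mk (Ψ p0) (Quotient.out a))
        (Quotient.mk (Ψ p0) (Quotient.out b)) := by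
      rw [Quotient.out_eq, Quotient.out_eq]
    have h4 : (Setoid.comap (Quotient.mk (Ψ p0)) θ) (Quotient.out a) (Quotient.out b) ↔
        Ψ p (Quotient.out a) (Quotient.out b) := by
      rw [hp]
    exact h3.trans h4

/-- (QS) the same with separated pairs. -/
theorem quot_semb {P : Type u} [PartialOrder P] (p0 : P) (hp0 : ∀ p, p0 ≤ p) {W : Type}
    (Ψ : P → Setoid W) (hle : ∀ p q, Ψ p ≤ Ψ q ↔ p ≤ q)
    (hcl : ∀ θ : Setoid W, Ψ p0 ≤ θ → (∀ f : W → W, (∀ p, Pres f (Ψ p)) → Pres f θ) →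
      ∃ p, θ = Ψ p) (E : Set (W × W)) (hs : ∀ u v, (u, v) ∈ E → (v, u) ∈ E)
    (hg : ∀ p q, (∀ u v, (u, v) ∈ E → Ψ p u v → Ψ q u v) → p ≤ q)
    (hsep : ∀ p u v, (u, v) ∈ E → ∀ z, ¬ Ψ p u z → ¬ Ψ p v z →
      ∃ f : W → W, (∀ q, Pres f (Ψ q)) ∧ Ψ p0 (f u) (f v) ∧ ¬ Ψ p (f u) (f z)) :
    ∃ (Φ : P → Setoid (Quotient (Ψ p0))) (E' : Set (Quotient (Ψ p0) × Quotient (Ψ p0))),
      SEmb Φ E' := by
  obtain ⟨Φ, hΦ, hiff⟩ := quot_emb p0 hp0 Ψ hle hcl
  refine ⟨Φ, {q | ∃ u v, (u, v) ∈ E ∧ q = (Quotient.mk _ u, Quotient.mk _ v)}, hΦ, ?_, ?_, ?_⟩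
  · rintro u v ⟨u', v', h, h'⟩
    rw [Prod.mk.injEq] at h'
    exact ⟨v', u', hs u' v' h, by rw [h'.1, h'.2]⟩
  · intro p q H
    refine hg p q fun u v huv h => (hiff q u v).1 (H _ _ ⟨u, v, huv, rfl⟩ ((hiff p u v).2 h))
  · rintro p ub vb ⟨u, v, huv, h'⟩ zb h1 h2
    rw [Prod.mk.injEq] at h'
    obtain ⟨rfl, rfl⟩ := h'
    obtain ⟨z, rfl⟩ := Quotient.exists_rep zb
    obtain ⟨f, hf, hf1, hf2⟩ := hsep p u v huv z (fun h => h1 ((hiff p u z).2 h))
      (fun h => h2 ((hiff p v z).2 h))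
    refine ⟨Quotient.map f (fun x y h => hf p0 x y h), ?_, ?_, ?_⟩
    · intro q xb yb hxy
      obtain ⟨x, rfl⟩ := Quotient.exists_rep xb
      obtain ⟨y, rfl⟩ := Quotient.exists_rep yb
      exact (hiff q (f x) (f y)).2 (hf q x y ((hiff q x y).1 hxy))
    · exact Quotient.sound hf1
    · exact fun h => hf2 ((hiff p (f u) (f z)).1 h)

end Vale.Agent.P183
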