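import Vale.Agent.P183.AsmDefs
import Vale.Agent.P183.WExact
import Vale.Agent.P183.WMap
import Vale.Agent.P183.WQuot
import Vale.Agent.P183.Main

namespace Vale.Agent.P183

universe u v

section

variable {L : Type u} [PartialOrder L] {K : Type v} [PartialOrder K] [BoundedOrder K]
  {X Y S : Type} {N : ℕ}
  {Φ : L → Setoid X} {ΦK : K → Setoid Y} {x0 : X} {y0 : Y} {e : Fin N → X × X} {l : S → X × X}
  {E : Set (X × X)} {a b : L}

theorem AS_base (h : Cfg Φ ΦK e l E a b) (p : Infl1 L K a b) {z z' : X}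
    (hw : PsiW Φ ΦK x0 y0 e l p.1.1 p.1.2 (Sum.inr (none, z)) (Sum.inr (none, z'))) :
    Φ p.1.1 z z' := by
  obtain ⟨F, hF, hid, _⟩ := good_base (x0 := x0) (y0 := y0) h
  have h1 := good_pres h hF p hw
  rwa [hid, hid] at h1

theorem AS_mapF (h : Cfg Φ ΦK e l E a b) {F : Wt X Y S N → X} (hF : Good Φ x0 y0 e l a F)
    (c : Option (S × Off Y × Fin (2 * N + 2))) (p : Infl1 L K a b) :
    Pres (fun w => Sum.inr (c, F w)) (PsiW Φ ΦK x0 y0 e l p.1.1 p.1.2) :=
  fun _ _ hw => Relation.EqvGen.rel _ _ (GenW.copy c _ _ (good_pres h hF p hw))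

omit [PartialOrder L] [PartialOrder K] [BoundedOrder K] in
theorem AS_mono {x x' : L} {κ κ' : K} (hx : Φ x ≤ Φ x') (hκ : ΦK κ ≤ ΦK κ') :
    PsiW (S := S) Φ ΦK x0 y0 e l x κ ≤ PsiW Φ ΦK x0 y0 e l x' κ' := by
  refine Setoid.eqvGen_le (r := GenW Φ ΦK x0 y0 e l x κ)
    (s := PsiW (S := S) Φ ΦK x0 y0 e l x' κ') ?_
  intro w w' hg
  refine Relation.EqvGen.rel _ _ ?_
  cases hg with
  | ky y y' h => exact GenW.ky y y' (hκ h)
  | copy c z z' h => exact GenW.copy c z z' (hx h)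
  | base => exact GenW.base
  | left s o k hk => exact GenW.left s o k hk
  | right s o k hk => exact GenW.right s o k hk
  | glue s o k k' hk => exact GenW.glue s o k k' hk

theorem AS_le (h : Cfg Φ ΦK e l E a b) (p q : Infl1 L K a b) :
    PsiW Φ ΦK x0 y0 e l p.1.1 p.1.2 ≤ PsiW Φ ΦK x0 y0 e l q.1.1 q.1.2 ↔ p ≤ q := by
  constructor
  · intro hle
    have h1 : p.1.1 ≤ q.1.1 := by
      rw [← h.hL.emb.le_iff]
      intro z z' hz
      exact AS_base h q (hle (Relation.EqvGen.rel _ _ (GenW.copy none z z' hz)))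
    refine ⟨h1, ?_⟩
    by_cases ha : a ≤ p.1.1
    · by_cases hb : q.1.1 ≤ b
      · show p.1.2 ≤ q.1.2
        rw [← h.hK.le_iff]
        intro y y' hy
        refine y_trace (Φ := Φ) (x0 := x0) (y0 := y0) (e := e) (l := l) (x := q.1.1) ?_
          (hle (Relation.EqvGen.rel _ _ (GenW.ky y y' hy)))
        intro s hs
        exact (h.hl s).2 ((h.hL.emb.le_iff _ _).2 hb hs)
      · show p.1.2 ≤ q.1.2
        rw [(q.2.2 (ha.trans h1) hb)]
        exact le_top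
    · show p.1.2 ≤ q.1.2
      rw [p.2.1 ha]
      exact bot_le
  · intro hpq
    exact AS_mono ((h.hL.emb.le_iff _ _).2 hpq.1) ((h.hK.le_iff _ _).2 hpq.2)

theorem AS_closed (h : Cfg Φ ΦK e l E a b) (p0 : Infl1 L K a b) (θ : Setoid (Wt X Y S N))
    (h0 : PsiW Φ ΦK x0 y0 e l p0.1.1 p0.1.2 ≤ θ)
    (hθ : ∀ f : Wt X Y S N → Wt X Y S N,
      (∀ p : Infl1 L K a b, Pres f (PsiW Φ ΦK x0 y0 e l p.1.1 p.1.2)) → Pres f θ) :
    ∃ p : Infl1 L K a b, θ = PsiW Φ ΦK x0 y0 e l p.1.1 p.1.2 := by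
  obtain ⟨B, hB, hBid, _⟩ := good_base (x0 := x0) (y0 := y0) h
  -- the component in `L`
  obtain ⟨x, hx⟩ := h.hL.emb.closed (Setoid.comap (fun z : X => (Sum.inr (none, z) : Wt X Y S N)) θ) (by
    intro f hf z z' hz
    have h1 := hθ (fun w => Sum.inr (none, f (B w))) (fun p w w' hw =>
      Relation.EqvGen.rel _ _ (GenW.copy none _ _ (hf _ _ _ (good_pres h hB p hw)))) _ _ hz
    simp only [hBid] at h1
    exact h1)
  obtain ⟨κ, hκ⟩ := h.hK.closed (Setoid.comap (fun y : Y => (Sum.inl y : Wt X Y S N)) θ) (by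
    intro f hf y y' hy
    obtain ⟨H, hH, hHy, _⟩ := ext_map (Φ := Φ) (ΦK := ΦK) (x0 := x0) (y0 := y0) (e := e) (l := l) f hf
    have h1 := hθ H (fun p => hH _ _) _ _ hy
    simp only [hHy] at h1
    exact h1)
  have hx' : ∀ z z', θ (Sum.inr (none, z)) (Sum.inr (none, z')) ↔ Φ x z z' := fun z z' => by
    rw [← hx]; rfl
  have hκ' : ∀ y y', θ (Sum.inl y) (Sum.inl y') ↔ ΦK κ y y' := fun y y' => by
    rw [← hκ]; rfl
  have hG : ∀ F, Good Φ x0 y0 e l a F → ∀ w w', θ w w' → Φ x (F w) (F w') := fun F hF w w' hw =>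
    (hx' _ _).1 (hθ (fun w => Sum.inr (none, F w)) (fun p => AS_mapF h hF none p) w w' hw)
  have hle : PsiW Φ ΦK x0 y0 e l x κ ≤ θ := by
    intro w w' hw
    have hg : ∀ w w', GenW Φ ΦK x0 y0 e l p0.1.1 p0.1.2 w w' → θ w w' := fun w w' hg =>
      h0 (Relation.EqvGen.rel _ _ hg)
    refine (Setoid.eqvGen_le (r := GenW Φ ΦK x0 y0 e l x κ) (s := θ) ?_) hw
    intro w w' hg'
    cases hg' with
    | ky y y' h => exact (hκ' _ _).2 h
    | copy c z z' hz =>
      have h1 := hθ (fun w => Sum.inr (c, B w)) (fun p => AS_mapF h hB c p) _ _ ((hx' z z').2 hz)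
      simp only [hBid] at h1
      exact h1
    | base => exact hg _ _ GenW.base
    | left s o k hk => exact hg _ _ (GenW.left s o k hk)
    | right s o k hk => exact hg _ _ (GenW.right s o k hk)
    | glue s o k k' hk => exact hg _ _ (GenW.glue s o k k' hk)
  have hP : (¬ a ≤ x → κ = ⊥) ∧ (a ≤ x → ¬ x ≤ b → κ = ⊤) := by
    constructor
    · intro ha
      have h1 : ∃ u v, (u, v) ∈ E ∧ Φ a u v ∧ ¬ Φ x u v := by
        by_contra hcon
        refine ha (h.hL.gen _ _ fun u v huv hu => ?_)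
        by_contra hc
        exact hcon ⟨u, v, huv, hu, hc⟩
      obtain ⟨u, v, huv, hu, hc⟩ := h1
      obtain ⟨j, hj⟩ := h.he' u v huv hu
      have h2 : ΦK κ ≤ ΦK ⊥ := by
        intro y y' hy
        by_cases hyy : y' = y
        · rw [hyy]
        · exfalso
          obtain ⟨F, hF, h3, h4⟩ := good_coly (x0 := x0) (y0 := y0) h j y
          have h5 := hG F hF _ _ ((hκ' _ _).2 hy)
          rw [h3, h4 y' hyy, hj] at h5
          exact hc h5
      exact le_bot_iff.1 ((h.hK.le_iff _ _).1 h2)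
    · intro ha hb
      have h1 : ∃ u v, (u, v) ∈ E ∧ Φ x u v ∧ ¬ Φ b u v := by
        by_contra hcon
        refine hb (h.hL.gen _ _ fun u v huv hu => ?_)
        by_contra hc
        exact hcon ⟨u, v, huv, hu, hc⟩
      obtain ⟨u, v, huv, hu, hc⟩ := h1
      obtain ⟨s, hs⟩ := h.hl' u v huv hc
      have h2 : ΦK ⊤ ≤ ΦK κ := by
        intro y y' _
        refine (hκ' _ _).1 (hle (y_full ?_ s ?_ y y'))
        · intro j
          exact (h.hL.emb.le_iff _ _).2 ha (h.he j).2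
        · rw [hs]; exact hu
      exact top_le_iff.1 ((h.hK.le_iff _ _).1 h2)
  exact ⟨⟨(x, κ), hP⟩, le_antisymm (exact_w h θ hle hG (fun y y' hy => (hκ' _ _).1 hy)) hle⟩

/-- separated pairs of the new set -/
def EW (E : Set (X × X)) (EK : Set (Y × Y)) : Set (Wt X Y S N × Wt X Y S N) :=
  {q | (∃ u v, (u, v) ∈ E ∧ q = (Sum.inr (none, u), Sum.inr (none, v))) ∨
    ∃ y y', (y, y') ∈ EK ∧ q = (Sum.inl y, Sum.inl y')}

theorem AS_gen {EK : Set (Y × Y)} (h : Cfg Φ ΦK e l E a b) (hK : SEmb ΦK EK)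
    (p q : Infl1 L K a b)
    (hpq : ∀ u v, (u, v) ∈ (EW E EK : Set (Wt X Y S N × Wt X Y S N)) →
      PsiW Φ ΦK x0 y0 e l p.1.1 p.1.2 u v → PsiW Φ ΦK x0 y0 e l q.1.1 q.1.2 u v) : p ≤ q := by
  have h1 : p.1.1 ≤ q.1.1 := by
    refine h.hL.gen _ _ fun u v huv hu => ?_
    exact AS_base h q (hpq _ _ (Or.inl ⟨u, v, huv, rfl⟩)
      (Relation.EqvGen.rel _ _ (GenW.copy none u v hu)))
  refine ⟨h1, ?_⟩
  by_cases ha : a ≤ p.1.1
  · by_cases hb : q.1.1 ≤ b
    · show p.1.2 ≤ q.1.2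
      refine hK.gen _ _ fun y y' hyy hy => ?_
      refine y_trace (Φ := Φ) (x0 := x0) (y0 := y0) (e := e) (l := l) (x := q.1.1) ?_
        (hpq _ _ (Or.inr ⟨y, y', hyy, rfl⟩) (Relation.EqvGen.rel _ _ (GenW.ky y y' hy)))
      intro s hs
      exact (h.hl s).2 ((h.hL.emb.le_iff _ _).2 hb hs)
    · show p.1.2 ≤ q.1.2
      rw [(q.2.2 (ha.trans h1) hb)]
      exact le_top
  · show p.1.2 ≤ q.1.2
    rw [p.2.1 ha]
    exact bot_le

theorem AS_sep {EK : Set (Y × Y)} (h : Cfg Φ ΦK e l E a b) (hK : SEmb ΦK EK)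
    (p0 p : Infl1 L K a b) (u v : Wt X Y S N) (huv : (u, v) ∈ (EW E EK : Set (Wt X Y S N × Wt X Y S N)))
    (z : Wt X Y S N) (hu : ¬ PsiW Φ ΦK x0 y0 e l p.1.1 p.1.2 u z)
    (hv : ¬ PsiW Φ ΦK x0 y0 e l p.1.1 p.1.2 v z) :
    ∃ f : Wt X Y S N → Wt X Y S N,
      (∀ q : Infl1 L K a b, Pres f (PsiW Φ ΦK x0 y0 e l q.1.1 q.1.2)) ∧
      PsiW Φ ΦK x0 y0 e l p0.1.1 p0.1.2 (f u) (f v) ∧
      ¬ PsiW Φ ΦK x0 y0 e l p.1.1 p.1.2 (f u) (f z) := by
  obtain ⟨B, hB, hBid, hBout⟩ := good_base (x0 := x0) (y0 := y0) h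
  rcases huv with ⟨u', v', huv, heq⟩ | ⟨y1, y2, hyy, heq⟩
  · obtain ⟨rfl, rfl⟩ := Prod.mk.inj heq
    have key : ∀ f0 : X → X, (∀ q, Pres f0 (Φ q)) → f0 u' = f0 v' →
        ¬ Φ p.1.1 (f0 u') (f0 (B z)) → ∃ f : Wt X Y S N → Wt X Y S N,
        (∀ q : Infl1 L K a b, Pres f (PsiW Φ ΦK x0 y0 e l q.1.1 q.1.2)) ∧
        PsiW Φ ΦK x0 y0 e l p0.1.1 p0.1.2 (f (Sum.inr (none, u'))) (f (Sum.inr (none, v'))) ∧
        ¬ PsiW Φ ΦK x0 y0 e l p.1.1 p.1.2 (f (Sum.inr (none, u'))) (f z) := by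
      intro f0 hf0 hf1 hf2
      refine ⟨fun w => Sum.inr (none, f0 (B w)), fun q w w' hw =>
        Relation.EqvGen.rel _ _ (GenW.copy none _ _ (hf0 _ _ _ (good_pres h hB q hw))), ?_, ?_⟩
      · simp only [hBid, hf1]
        exact Setoid.refl' _ _
      · intro hc
        simp only [hBid] at hc
        exact hf2 (AS_base h p hc)
    by_cases hb : ∃ z', z = Sum.inr (none, z')
    · obtain ⟨z', rfl⟩ := hb
      obtain ⟨f0, hf0, hf1, hf2⟩ := h.hL.sep p.1.1 u' v' huv z'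
        (fun hc => hu (Relation.EqvGen.rel _ _ (GenW.copy none _ _ hc)))
        (fun hc => hv (Relation.EqvGen.rel _ _ (GenW.copy none _ _ hc)))
      exact key f0 hf0 hf1 (by rw [hBid]; exact hf2)
    · have hz : B z = x0 := hBout z fun z' hz' => hb ⟨z', hz'⟩
      by_cases hx : Φ p.1.1 u' x0 ∨ Φ p.1.1 v' x0
      · obtain ⟨H, hH, hH1, hH2⟩ := coll_map (Φ := Φ) (ΦK := ΦK) (x0 := x0) (y0 := y0) (e := e)
          (l := l)
        refine ⟨H, fun q => hH _ _, ?_, ?_⟩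
        · rw [hH1, hH1]
        · rw [hH1, hH2 z fun z' hz' => hb ⟨z', hz'⟩]
          intro hc
          have hbase : PsiW Φ ΦK x0 y0 e l p.1.1 p.1.2 (Sum.inr (none, x0)) z :=
            Setoid.trans' _ (Setoid.symm' _ (Relation.EqvGen.rel _ _ GenW.base)) hc
          rcases hx with hx | hx
          · exact hu (Setoid.trans' _ (Relation.EqvGen.rel _ _ (GenW.copy none _ _ hx)) hbase)
          · exact hv (Setoid.trans' _ (Relation.EqvGen.rel _ _ (GenW.copy none _ _ hx)) hbase)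
      · obtain ⟨f0, hf0, hf1, hf2⟩ := h.hL.sep p.1.1 u' v' huv x0
          (fun hc => hx (Or.inl hc)) (fun hc => hx (Or.inr hc))
        exact key f0 hf0 hf1 (by rw [hz]; exact hf2)
  · obtain ⟨rfl, rfl⟩ := Prod.mk.inj heq
    rcases pt_dich (x0 := x0) (y0 := y0) h p.1.1 z with ⟨y3, hy3⟩ | ⟨F, u0, hF, hu0, hloc⟩
    · have hn1 : ¬ PsiW Φ ΦK x0 y0 e l p.1.1 p.1.2 (Sum.inl y1) (Sum.inl y3 : Wt X Y S N) :=
        fun hc => hu (Setoid.trans' _ hc (Setoid.symm' _ (hy3 _)))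
      have hn2 : ¬ PsiW Φ ΦK x0 y0 e l p.1.1 p.1.2 (Sum.inl y2) (Sum.inl y3 : Wt X Y S N) :=
        fun hc => hv (Setoid.trans' _ hc (Setoid.symm' _ (hy3 _)))
      obtain ⟨f0, hf0, hf1, hf2⟩ := hK.sep p.1.2 y1 y2 hyy y3
        (fun hc => hn1 (Relation.EqvGen.rel _ _ (GenW.ky _ _ hc)))
        (fun hc => hn2 (Relation.EqvGen.rel _ _ (GenW.ky _ _ hc)))
      obtain ⟨H, hH, hHy, _⟩ := ext_map (Φ := Φ) (ΦK := ΦK) (x0 := x0) (y0 := y0) (e := e) (l := l)
        f0 hf0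
      refine ⟨H, fun q => hH _ _, ?_, ?_⟩
      · rw [hHy, hHy, hf1]
      · intro hc
        have h1 : PsiW Φ ΦK x0 y0 e l p.1.1 p.1.2 (Sum.inl (f0 y1)) (Sum.inl (f0 y3) : Wt X Y S N) := by
          have h2 := hH p.1.1 p.1.2 _ _ (hy3 p.1.2)
          rw [hHy] at h2 hc
          exact Setoid.trans' _ hc h2
        by_cases ha : a ≤ p.1.1
        · by_cases hb : p.1.1 ≤ b
          · refine hf2 (y_trace (Φ := Φ) (x0 := x0) (y0 := y0) (e := e) (l := l) (x := p.1.1) ?_ h1)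
            intro s hs
            exact (h.hl s).2 ((h.hL.emb.le_iff _ _).2 hb hs)
          · have h3 : ∃ u v, (u, v) ∈ E ∧ Φ p.1.1 u v ∧ ¬ Φ b u v := by
              by_contra hcon
              refine hb (h.hL.gen _ _ fun u v huv hu => ?_)
              by_contra hc
              exact hcon ⟨u, v, huv, hu, hc⟩
            obtain ⟨u, v, huv, hu', hc'⟩ := h3
            obtain ⟨s, hs⟩ := h.hl' u v huv hc'
            refine hn1 (y_full ?_ s ?_ y1 y3)
            · intro j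
              exact (h.hL.emb.le_iff _ _).2 ha (h.he j).2
            · rw [hs]; exact hu'
        · have h3 : ∃ u v, (u, v) ∈ E ∧ Φ a u v ∧ ¬ Φ p.1.1 u v := by
            by_contra hcon
            refine ha (h.hL.gen _ _ fun u v huv hu => ?_)
            by_contra hc
            exact hcon ⟨u, v, huv, hu, hc⟩
          obtain ⟨u, v, huv, hu', hc'⟩ := h3
          obtain ⟨j, hj⟩ := h.he' u v huv hu'
          have hne : f0 y3 ≠ f0 y1 := fun hh => hf2 (by rw [hh])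
          obtain ⟨F, hF, h4, h5⟩ := good_coly (x0 := x0) (y0 := y0) h j (f0 y1)
          have h6 := good_pres h hF p h1
          rw [h4, h5 _ hne, hj] at h6
          exact hc' h6
    · have hFy : ∀ y : Y, F (Sum.inl y) = u0 := by
        intro y
        rcases hloc with ⟨s, o, _, ho⟩ | ⟨_, ho⟩
        · exact ho _ (by rintro ⟨k, z, hh⟩; cases hh)
        · exact ho _ (by intro z hh; cases hh)
      refine ⟨fun w => Sum.inr (none, F w), fun q => AS_mapF h hF none q, ?_, ?_⟩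
      · simp only [hFy]
        exact Setoid.refl' _ _
      · intro hc
        simp only [hFy] at hc
        exact hu0 (AS_base h p hc)

end

/-- separated closed embedding into the equivalence relations on a finite set -/
def SRep (P : Type u) [PartialOrder P] : Prop :=
  ∃ (X : Type) (_ : Finite X) (_ : Nonempty X) (Φ : P → Setoid X) (E : Set (X × X)), SEmb Φ E

theorem SRep.rep {P : Type u} [PartialOrder P] (h : SRep P) : Representable P := by
  obtain ⟨X, _, _, Φ, E, hE⟩ := h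
  exact rep_of_emb Φ hE.emb

theorem AS_cfg {L : Type u} [PartialOrder L] {K : Type v} [PartialOrder K] {X Y : Type} [Finite X]
    {Φ : L → Setoid X} {E : Set (X × X)} {ΦK : K → Setoid Y} (hL : SEmb Φ E) (hK : ClosedEmb ΦK)
    (a b : L) : ∃ (S : Type) (_ : Finite S) (N : ℕ) (e : Fin N → X × X) (l : S → X × X),
      Cfg Φ ΦK e l E a b := by
  obtain ⟨N, ⟨eN⟩⟩ := Finite.exists_equiv_fin {q : X × X // q ∈ E ∧ Φ a q.1 q.2}
  refine ⟨{q : X × X // q ∈ E ∧ ¬ Φ b q.1 q.2}, inferInstance, N, fun j => (eN.symm j).1,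
    Subtype.val, hL, hK, fun j => (eN.symm j).2, ?_, fun s => s.2, ?_⟩
  · intro u v huv hu
    exact ⟨eN ⟨(u, v), huv, hu⟩, by simp⟩
  · intro u v huv hu
    exact ⟨⟨(u, v), huv, hu⟩, rfl⟩

/-- inflation of an arbitrary interval by a representable lattice -/
theorem infl1_rep {L : Type u} [PartialOrder L] [OrderBot L] {K : Type v} [PartialOrder K]
    [BoundedOrder K] (hL : SRep L) (hK : Representable K) (a b : L) :
    Representable (Infl1 L K a b) := by
  obtain ⟨X, _, _, Φ, E, hE⟩ := hL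
  obtain ⟨Y, _, _, ΦK, hΦK⟩ := emb_of_rep hK
  obtain ⟨S, _, N, e, l, h⟩ := AS_cfg hE hΦK a b
  obtain ⟨x0⟩ := ‹Nonempty X›
  obtain ⟨y0⟩ := ‹Nonempty Y›
  let p0 : Infl1 L K a b := ⟨(⊥, ⊥), fun _ => rfl, fun _ hb => (hb bot_le).elim⟩
  obtain ⟨Ψ, hΨ, _⟩ := quot_emb p0 (fun p => (⟨bot_le, bot_le⟩ : p0.1.1 ≤ p.1.1 ∧ p0.1.2 ≤ p.1.2))
    (fun p : Infl1 L K a b => PsiW Φ ΦK x0 y0 e l p.1.1 p.1.2) (AS_le h)
    (fun θ h0 hθ => AS_closed h p0 θ h0 hθ)
  have : Nonempty (Quotient (PsiW Φ ΦK x0 y0 e l p0.1.1 p0.1.2)) := ⟨Quotient.mk _ (Sum.inl y0)⟩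
  exact rep_of_emb Ψ hΨ

theorem infl1_srep {L : Type u} [PartialOrder L] [OrderBot L] {K : Type v} [PartialOrder K]
    [BoundedOrder K] (hL : SRep L) (hK : SRep K) (a b : L) : SRep (Infl1 L K a b) := by
  obtain ⟨X, _, _, Φ, E, hE⟩ := hL
  obtain ⟨Y, _, _, ΦK, EK, hΦK⟩ := hK
  obtain ⟨S, _, N, e, l, h⟩ := AS_cfg hE hΦK.emb a b
  obtain ⟨x0⟩ := ‹Nonempty X›
  obtain ⟨y0⟩ := ‹Nonempty Y›
  let p0 : Infl1 L K a b := ⟨(⊥, ⊥), fun _ => rfl, fun _ hb => (hb bot_le).elim⟩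
  obtain ⟨Ψ, E', hΨ⟩ := quot_semb p0 (fun p => (⟨bot_le, bot_le⟩ : p0.1.1 ≤ p.1.1 ∧ p0.1.2 ≤ p.1.2))
    (fun p : Infl1 L K a b => PsiW Φ ΦK x0 y0 e l p.1.1 p.1.2) (AS_le h)
    (fun θ h0 hθ => AS_closed h p0 θ h0 hθ) (EW E EK)
    (by
      rintro u v (⟨u', v', huv, heq⟩ | ⟨y1, y2, hyy, heq⟩)
      · obtain ⟨rfl, rfl⟩ := Prod.mk.inj heq
        exact Or.inl ⟨v', u', hE.symm _ _ huv, rfl⟩
      · obtain ⟨rfl, rfl⟩ := Prod.mk.inj heq
        exact Or.inr ⟨y2, y1, hΦK.symm _ _ hyy, rfl⟩)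
    (fun p q hpq => AS_gen h hΦK p q hpq)
    (fun p u v huv z hu hv => AS_sep h hΦK p0 p u v huv z hu hv)
  exact ⟨_, inferInstance, ⟨Quotient.mk _ (Sum.inl y0)⟩, Ψ, E', hΨ⟩

theorem srep_one (P : Type u) [PartialOrder P] [Subsingleton P] [Nonempty P] : SRep P := by
  refine ⟨Unit, inferInstance, inferInstance, fun _ => ⊤, ∅, ⟨⟨?_, ?_⟩, ?_, ?_, ?_⟩⟩
  · intro p q
    exact ⟨fun _ => (Subsingleton.elim p q).le, fun _ => le_rfl⟩
  · intro θ _
    refine ⟨Classical.arbitrary P, ?_⟩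
    ext x y
    exact ⟨fun _ => trivial, fun _ => θ.refl' x⟩
  · intro u v h
    exact h.elim
  · intro p q _
    exact (Subsingleton.elim p q).le
  · intro p u v h
    exact h.elim

theorem srep_bool : SRep Bool := by
  refine ⟨Bool, inferInstance, inferInstance, fun b => if b then ⊤ else ⊥, {q | q.1 ≠ q.2},
    ⟨⟨?_, ?_⟩, ?_, ?_, ?_⟩⟩
  · intro p q
    cases p <;> cases q
    · exact ⟨fun _ => le_rfl, fun _ => le_rfl⟩
    · exact ⟨fun _ => Bool.false_le _, fun _ => bot_le⟩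
    · constructor
      · intro h
        have h1 : true = false := h (x := true) (y := false) trivial
        exact absurd h1 (by decide)
      · intro h
        exact absurd h (by decide)
    · exact ⟨fun _ => le_rfl, fun _ => le_rfl⟩
  · intro θ _
    by_cases h : θ true false
    · refine ⟨true, ?_⟩
      ext x y
      constructor
      · intro _; trivial
      · intro _
        cases x <;> cases y
        · exact θ.refl' _
        · exact θ.symm' h
        · exact h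
        · exact θ.refl' _
    · refine ⟨false, ?_⟩
      ext x y
      constructor
      · intro hxy
        cases x <;> cases y
        · exact rfl
        · exact (h (θ.symm' hxy)).elim
        · exact (h hxy).elim
        · exact rfl
      · intro hxy
        have : x = y := hxy
        rw [this]
  · intro u v h
    exact fun hh => h hh.symm
  · intro p q h
    cases p <;> cases q <;> simp at h ⊢
  · intro p u v huv z hu hv
    exfalso
    have huv' : u ≠ v := huv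
    cases u <;> cases v <;> cases z
    all_goals first
      | exact huv' rfl
      | exact hu (Setoid.refl' _ _)
      | exact hv (Setoid.refl' _ _)

theorem SRep.iso {P Q : Type u} [PartialOrder P] [PartialOrder Q] (e : P ≃o Q) (h : SRep P) :
    SRep Q := by
  obtain ⟨X, i1, i2, Φ, E, hE⟩ := h
  refine ⟨X, i1, i2, fun q => Φ (e.symm q), E, ⟨⟨?_, ?_⟩, hE.symm, ?_, ?_⟩⟩
  · intro p q
    rw [hE.emb.le_iff, e.symm.le_iff_le]
  · intro θ hθ
    obtain ⟨p, hp⟩ := hE.emb.closed θ fun f hf => hθ f fun q => hf _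
    exact ⟨e p, by rw [e.symm_apply_apply]; exact hp⟩
  · intro p q hpq
    have := hE.gen (e.symm p) (e.symm q) hpq
    rwa [e.symm.le_iff_le] at this
  · intro p u v huv z hu hv
    obtain ⟨f, hf, hf1, hf2⟩ := hE.sep (e.symm p) u v huv z hu hv
    exact ⟨f, fun q => hf _, hf1, hf2⟩

theorem srep_dbl {L : Type} {i : PartialOrder L} (h : Dbl L i) : SRep L := by
  induction h with
  | one P => exact srep_one P
  | two => exact srep_bool
  | infl L K a b _ _ hL hK => exact infl1_srep hL hK a b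
  | iso P Q e _ hP => exact SRep.iso e hP

end Vale.Agent.P183
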