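import Vale.Agent.P183.Stmt

/-!
# P183, second stage: definitions for the final statement
-/

namespace Vale.Agent.P183

universe u v

/-- `L` with the interval `[a, b]` inflated by `K`: the pairs `(x, κ)` with `κ = ⊥` unless `a ≤ x`,
and `κ = ⊤` if `a ≤ x` and not `x ≤ b`; ordered coordinatewise.  For `K = Bool` this is Day's doubling
of the interval `[a, b]`. -/
abbrev Inflate (L : Type u) [PartialOrder L] (K : Type v) [PartialOrder K] [BoundedOrder K]
    (a b : L) : Type (max u v) :=
  {p : L × K // (¬ a ≤ p.1 → p.2 = ⊥) ∧ (a ≤ p.1 → ¬ p.1 ≤ b → p.2 = ⊤)}

/-- The lattices obtained from the one-element and the two-element lattice by successively inflating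
arbitrary intervals by lattices obtained before.  Doubling of intervals is the case `K = Bool`, so all
finite bounded lattices (McKenzie, Day) are in the class. -/
inductive Dbl : (P : Type) → PartialOrder P → Prop
  | one (P : Type) [PartialOrder P] [Subsingleton P] [Nonempty P] : Dbl P inferInstance
  | two : Dbl Bool inferInstance
  | infl (L K : Type) [PartialOrder L] [BoundedOrder L] [PartialOrder K] [BoundedOrder K]
      (a b : L) (hL : Dbl L inferInstance) (hK : Dbl K inferInstance) :
      Dbl (Inflate L K a b) inferInstance
  | iso (P Q : Type) [PartialOrder P] [PartialOrder Q] (e : P ≃o Q) (hP : Dbl P inferInstance) :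
      Dbl Q inferInstance

end Vale.Agent.P183
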