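import Vale.Agent.P183.Defs

namespace Vale.Agent.P183

open Classical in
/-- (PROD) An equivalence relation on a finite product preserved by the maps
`z ↦ Function.update w i (z i)` is the product of its coordinates.  `→`: apply the map with
`w = w₀`.  `←`: from `θ (update w₀ i (z i)) (update w₀ i (z' i))` the map with `w` gives
`θ (update w i (z i)) (update w i (z' i))` for every `w`; change the coordinates of `z` to those of `z'`
one at a time (`Finset` induction on the set of changed coordinates). -/
theorem prod_setoid {I : Type} [Finite I] {Z : I → Type} (θ : Setoid (∀ i, Z i)) (w₀ : ∀ i, Z i)
    (hθ : ∀ (i : I) (w z z' : ∀ i, Z i), θ z z' →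
      θ (Function.update w i (z i)) (Function.update w i (z' i))) (z z' : ∀ i, Z i) :
    θ z z' ↔ ∀ i, θ (Function.update w₀ i (z i)) (Function.update w₀ i (z' i)) := by
  refine ⟨fun h i => hθ i w₀ z z' h, fun h => ?_⟩
  have H : ∀ (i : I) (w : ∀ i, Z i), θ (Function.update w i (z i)) (Function.update w i (z' i)) := by
    intro i w
    have := hθ i w _ _ (h i)
    rw [Function.update_self, Function.update_self] at this
    exact this
  have := Fintype.ofFinite I
  have key : ∀ s : Finset I, θ z (fun i => if i ∈ s then z' i else z i) := by
    intro s
    induction s using Finset.induction_on with
    | empty =>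
      have e : (fun i => if i ∈ (∅ : Finset I) then z' i else z i) = z := by
        funext i
        rw [if_neg (Finset.notMem_empty i)]
      rw [e]
    | insert i s hi ih =>
      refine θ.trans ih ?_
      have h1 := H i (fun j => if j ∈ s then z' j else z j)
      have e1 : Function.update (fun j => if j ∈ s then z' j else z j) i (z i) =
          fun j => if j ∈ s then z' j else z j := by
        funext j
        by_cases hj : j = i
        · subst hj
          rw [Function.update_self, if_neg hi]
        · rw [Function.update_of_ne hj]
      have e2 : Function.update (fun j => if j ∈ s then z' j else z j) i (z' i) =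
          fun j => if j ∈ insert i s then z' j else z j := by
        funext j
        by_cases hj : j = i
        · subst hj
          rw [Function.update_self, if_pos (Finset.mem_insert_self _ _)]
        · rw [Function.update_of_ne hj]
          by_cases hs : j ∈ s
          · rw [if_pos hs, if_pos (Finset.mem_insert_of_mem hs)]
          · rw [if_neg hs, if_neg fun h' => hs (Finset.mem_of_mem_insert_of_ne h' hj)]
      rw [e1, e2] at h1
      exact h1
  have h2 := key Finset.univ
  have e : (fun i => if i ∈ (Finset.univ : Finset I) then z' i else z i) = z' := by
    funext i
    rw [if_pos (Finset.mem_univ i)]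
  rw [e] at h2
  exact h2

end Vale.Agent.P183
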