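import Vale.Agent.P183.Exact
import Vale.Agent.P183.Prod

namespace Vale.Agent.P183

universe u v

theorem emb_bot {P : Type u} [PartialOrder P] [OrderBot P] {X : Type} {Φ : P → Setoid X}
    (h : ClosedEmb Φ) {x y : X} (hxy : Φ ⊥ x y) : x = y := by
  obtain ⟨p, hp⟩ := h.closed ⊥ (fun f _ x y hxy => by
    have : x = y := hxy
    subst this
    exact Setoid.refl' _ _)
  have h1 : Φ ⊥ ≤ (⊥ : Setoid X) := by
    rw [hp]
    exact (h.le_iff _ _).2 bot_le
  exact h1 hxy

theorem emb_top {P : Type u} [PartialOrder P] [OrderTop P] {X : Type} {Φ : P → Setoid X}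
    (h : ClosedEmb Φ) (x y : X) : Φ ⊤ x y := by
  obtain ⟨p, hp⟩ := h.closed ⊤ (fun f _ x y _ => trivial)
  have h1 : (⊤ : Setoid X) ≤ Φ ⊤ := by
    rw [hp]
    exact (h.le_iff _ _).2 le_top
  exact h1 trivial

theorem phiG_mono {L : Type u} [PartialOrder L] {K : Type v} {m : ℕ} {S Y : Type}
    {A : Fin m → L} {B : S → L} {ΦK : K → Setoid Y} {x x' : L} {κ κ' : K} (hx : x ≤ x')
    (hκ : ΦK κ ≤ ΦK κ') : (PhiG A B ΦK x κ : Setoid (Gad m S Y)) ≤ PhiG A B ΦK x' κ' := by
  intro g g' h
  have h' : Relation.EqvGen (Gen A B ΦK x κ) g g' := h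
  show Relation.EqvGen (Gen A B ΦK x' κ') g g'
  refine Relation.EqvGen.mono (p := Gen A B ΦK x' κ') ?_ _ _ h'
  rintro _ _ (⟨y, y', h⟩ | ⟨s, o, p, hp, h⟩ | ⟨s, o, p, hp, h⟩ | ⟨s, o, p, q, hq, t, ht, h⟩)
  · exact Gen.base y y' (hκ h)
  · exact Gen.left s o p hp (h.trans hx)
  · exact Gen.right s o p hp (h.trans hx)
  · exact Gen.mid s o p q hq t ht (h.trans hx)

section

variable {L : Type u} [PartialOrder L] {I : Type} {K : I → Type v} [∀ k, PartialOrder (K k)]
  [∀ k, BoundedOrder (K k)]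

variable {a b : I → L} {X : Type} (ΦL : L → Setoid X) {Y : I → Type}
  (ΦK : ∀ k, K k → Setoid (Y k)) {m : I → ℕ} (A : ∀ k, Fin (m k) → L) {S : I → Type}
  (B : ∀ k, S k → L)

/-- the embedding of the new poset -/
def PhiI (p : Infl L K a b) : Setoid (X × (∀ k, Gad (m k) (S k) (Y k))) where
  r z z' := ΦL p.1.1 z.1 z'.1 ∧
    ∀ k, PhiG (A k) (B k) (ΦK k) p.1.1 (p.1.2 k) (z.2 k) (z'.2 k)
  iseqv := ⟨fun _ => ⟨Setoid.refl' _ _, fun _ => Setoid.refl' _ _⟩,
    fun h => ⟨Setoid.symm' _ h.1, fun k => Setoid.symm' _ (h.2 k)⟩,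
    fun h h' => ⟨Setoid.trans' _ h.1 h'.1, fun k => Setoid.trans' _ (h.2 k) (h'.2 k)⟩⟩

open Classical in
theorem core [Nonempty X] [∀ k, Nonempty (Y k)] [Finite I] (hL : ClosedEmb ΦL)
    (hK : ∀ k, ClosedEmb (ΦK k))
    (hA : ∀ k x, a k ≤ x ↔ ∀ t, A k t ≤ x) (hσ : ∀ k t, ∃ σ, ∀ x, ¬ A k t ≤ x ↔ x ≤ σ)
    (hB : ∀ k x, x ≤ b k ↔ ∀ s, ¬ B k s ≤ x) (hτ : ∀ k s, ∃ τ, ∀ x, ¬ B k s ≤ x ↔ x ≤ τ) :
    ClosedEmb (PhiI (a := a) (b := b) ΦL ΦK A B) := by
  obtain ⟨x0⟩ := ‹Nonempty X›
  have y0 : ∀ k, Y k := fun k => (‹∀ k, Nonempty (Y k)› k).some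
  let w0 : ∀ k, Gad (m k) (S k) (Y k) := fun k => Sum.inl (y0 k)
  -- two points of the product differing in one coordinate
  have hupd : ∀ (p : Infl L K a b) (k : I) (w : ∀ k, Gad (m k) (S k) (Y k))
      (g g' : Gad (m k) (S k) (Y k)), PhiG (A k) (B k) (ΦK k) p.1.1 (p.1.2 k) g g' →
      ∀ j, PhiG (A j) (B j) (ΦK j) p.1.1 (p.1.2 j) (Function.update w k g j)
        (Function.update w k g' j) := by
    intro p k w g g' h j
    by_cases hj : j = k
    · subst hj
      simp only [Function.update_self]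
      exact h
    · simp only [Function.update_of_ne hj]
      exact Setoid.refl' _ _
  refine ⟨?_, ?_⟩
  · intro p q
    constructor
    · intro h
      refine ⟨?_, fun k => ?_⟩
      · refine (hL.le_iff _ _).1 fun {x x'} hx => ?_
        exact (@h (x, w0) (x', w0) ⟨hx, fun _ => Setoid.refl' _ _⟩).1
      · refine ((hK k).le_iff _ _).1 fun {y y'} hy => ?_
        have h1 := (@h (x0, Function.update w0 k (Sum.inl y)) (x0, Function.update w0 k (Sum.inl y'))
          ⟨Setoid.refl' _ _, hupd p k w0 _ _ (Relation.EqvGen.rel _ _ (Gen.base y y' hy))⟩).2 k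
        simp only [Function.update_self] at h1
        by_cases hak : a k ≤ q.1.1
        · by_cases hbk : q.1.1 ≤ b k
          · exact base_of_phiG ((hB k _).1 hbk) h1
          · have h2 : q.1.2 k = ⊤ := (q.2 k).2 hak hbk
            rw [h2]
            exact emb_top (hK k) _ _
        · have h2 : q.1.2 k = ⊥ := (q.2 k).1 hak
          rw [hA] at hak
          push Not at hak
          obtain ⟨t, ht⟩ := hak
          have h3 := cT_const ht (fun y y' hyy => by
            rw [h2] at hyy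
            exact emb_bot (hK k) hyy) h1
          have h4 : y = y' := Sum.inl.inj h3
          rw [h4]
    · intro h z z' hz
      exact ⟨(hL.le_iff _ _).2 h.1 hz.1, fun k =>
        phiG_mono h.1 (((hK k).le_iff _ _).2 (h.2 k)) (hz.2 k)⟩
  · intro θ hθ
    -- resets
    have F2 : ∀ w, Pres (fun z => (z.1, w)) θ := fun w => hθ _ fun p z z' h =>
      ⟨h.1, fun _ => Setoid.refl' _ _⟩
    have F3 : ∀ x, Pres (fun z => (x, z.2)) θ := fun x => hθ _ fun p z z' h =>
      ⟨Setoid.refl' _ _, h.2⟩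
    have F4 : ∀ (k : I) (w : ∀ k, Gad (m k) (S k) (Y k)),
        Pres (fun z => (z.1, Function.update w k (z.2 k))) θ := fun k w =>
      hθ _ fun p z z' h => ⟨h.1, hupd p k w _ _ (h.2 k)⟩
    have hsplit : ∀ z z', θ z z' ↔ θ (z.1, w0) (z'.1, w0) ∧ θ (x0, z.2) (x0, z'.2) := by
      intro z z'
      refine ⟨fun h => ⟨F2 w0 _ _ h, F3 x0 _ _ h⟩, fun h => ?_⟩
      exact Setoid.trans' _ (F2 z.2 (z.1, w0) (z'.1, w0) h.1) (F3 z'.1 (x0, z.2) (x0, z'.2) h.2)
    let θ2 : Setoid (∀ k, Gad (m k) (S k) (Y k)) := Setoid.comap (fun w => (x0, w)) θ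
    have hθ2 := prod_setoid θ2 w0 (fun i w z z' h => F4 i w _ _ h)
    -- the first coordinate
    obtain ⟨x, hx⟩ := hL.closed (Setoid.comap (fun x => (x, w0)) θ) (fun f hf p q h =>
      hθ (fun z => (f z.1, z.2)) (fun P z z' hz => ⟨hf _ _ _ hz.1, hz.2⟩) _ _ h)
    have hx' : ∀ p q, θ (p, w0) (q, w0) ↔ ΦL x p q := by
      intro p q
      rw [← hx]
      rfl
    -- the other coordinates
    let θG : ∀ k, Setoid (Gad (m k) (S k) (Y k)) := fun k =>
      Setoid.comap (fun g => (x0, Function.update w0 k g)) θ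
    have hκ : ∀ k, ∃ κ : K k, Setoid.comap (fun y => Sum.inl y) (θG k) = ΦK k κ := by
      intro k
      obtain ⟨κ, hκ⟩ := (hK k).closed (Setoid.comap (fun y => Sum.inl y) (θG k))
        (fun f hf p q h => by
          have h1 := hθ (fun z => (z.1, Function.update z.2 k (gmap f (z.2 k))))
            (fun P z z' hz => ⟨hz.1, fun j => by
              by_cases hj : j = k
              · subst hj
                simp only [Function.update_self]
                exact gmap_pres (hf _) _ _ (hz.2 j)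
              · simp only [Function.update_of_ne hj]
                exact hz.2 j⟩) _ _ h
          simp only [Function.update_self, Function.update_idem] at h1
          exact h1)
      exact ⟨κ, hκ⟩
    choose κ hκ using hκ
    have hκ' : ∀ k y y', θG k (Sum.inl y) (Sum.inl y') ↔ ΦK k (κ k) y y' := by
      intro k y y'
      rw [← hκ]
      rfl
    -- active edges
    have F6 : ∀ (k : I) (l : L), (∃ σ, ∀ x, ¬ l ≤ x ↔ x ≤ σ) → l ≤ x →
        ∀ u v : Gad (m k) (S k) (Y k),
        (∀ p : Infl L K a b, l ≤ p.1.1 → PhiG (A k) (B k) (ΦK k) p.1.1 (p.1.2 k) u v) →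
        θG k u v := by
      rintro k l ⟨σ, hσ⟩ hlx u v huv
      have h1 : ¬ ΦL x ≤ ΦL σ := by
        rw [hL.le_iff, ← hσ]
        exact not_not.2 hlx
      rw [Setoid.le_def] at h1
      push Not at h1
      obtain ⟨x2, x3, h2, h3⟩ := h1
      have h4 : θ (x2, w0) (x3, w0) := (hx' _ _).2 h2
      have h5 := hθ (fun z => (x0, Function.update w0 k (if ΦL σ z.1 x2 then u else v)))
        (fun p z z' hz => ⟨Setoid.refl' _ _, hupd p k w0 _ _ (by
          by_cases hlp : l ≤ p.1.1
          · have e := huv p hlp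
            split_ifs
            · exact Setoid.refl' _ _
            · exact e
            · exact Setoid.symm' _ e
            · exact Setoid.refl' _ _
          · have h6 : ΦL σ z.1 z'.1 := (hL.le_iff _ _).2 ((hσ _).1 hlp) hz.1
            have h7 : ΦL σ z.1 x2 ↔ ΦL σ z'.1 x2 :=
              ⟨fun h => Setoid.trans' _ (Setoid.symm' _ h6) h, fun h => Setoid.trans' _ h6 h⟩
            simp only [h7]
            exact Setoid.refl' _ _)⟩) _ _ h4
      simp only [] at h5
      rw [if_pos (Setoid.refl' _ _), if_neg (fun h => h3 (Setoid.symm' _ h))] at h5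
      exact h5
    have hle : ∀ k, PhiG (A k) (B k) (ΦK k) x (κ k) ≤ θG k := by
      intro k
      refine Setoid.eqvGen_le fun g g' hg => ?_
      rcases hg with ⟨y, y', h⟩ | ⟨s, o, p, hp, h⟩ | ⟨s, o, p, hp, h⟩ | ⟨s, o, p, q, hq, t, ht, h⟩
      · exact (hκ' k _ _).2 h
      · exact F6 k _ (hτ k s) h _ _ fun P hP => Relation.EqvGen.rel _ _ (Gen.left s o p hp hP)
      · exact F6 k _ (hτ k s) h _ _ fun P hP => Relation.EqvGen.rel _ _ (Gen.right s o p hp hP)
      · exact F6 k _ (hσ k t) h _ _ fun P hP => Relation.EqvGen.rel _ _ (Gen.mid s o p q hq t ht hP)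
    -- cuts
    have F7 : ∀ (k : I) (l : L) {C : Type} (c : Gad (m k) (S k) (Y k) → C),
        (∀ p : Infl L K a b, ¬ l ≤ p.1.1 → ∀ g g',
          PhiG (A k) (B k) (ΦK k) p.1.1 (p.1.2 k) g g' → c g = c g') → ¬ l ≤ x →
        ∀ g g', θG k g g' → c g = c g' := by
      intro k l C c hc hlx g g' hg
      by_contra hne
      apply hlx
      refine (hL.le_iff _ _).1 fun {x2 x3} h23 => ?_
      rw [← hx']
      have h5 := hθ (fun z => (if c (z.2 k) = c g then x2 else x3, w0))
        (fun p z z' hz => ⟨by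
          by_cases hlp : l ≤ p.1.1
          · have e : ΦL p.1.1 x2 x3 := (hL.le_iff _ _).2 hlp h23
            show ΦL p.1.1 (if c (z.2 k) = c g then x2 else x3) (if c (z'.2 k) = c g then x2 else x3)
            split_ifs
            · exact Setoid.refl' _ _
            · exact e
            · exact Setoid.symm' _ e
            · exact Setoid.refl' _ _
          · have e := hc p hlp _ _ (hz.2 k)
            show ΦL p.1.1 (if c (z.2 k) = c g then x2 else x3) (if c (z'.2 k) = c g then x2 else x3)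
            rw [e], fun _ => Setoid.refl' _ _⟩) _ _ hg
      have h6 : c (Function.update w0 k g k) = c g := by rw [Function.update_self]
      have h7 : ¬ c (Function.update w0 k g' k) = c g := by
        rw [Function.update_self]
        exact fun h => hne h.symm
      have h8 : θ ((if c (Function.update w0 k g k) = c g then x2 else x3), w0)
        ((if c (Function.update w0 k g' k) = c g then x2 else x3), w0) := h5
      rw [if_pos h6, if_neg h7] at h8
      exact h8
    have hcT : ∀ k t, ¬ A k t ≤ x → ∀ g g', θG k g g' → cT t g = cT t g' := by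
      intro k t
      refine F7 k (A k t) (cT t) fun p hp g g' h => ?_
      refine cT_const hp (fun y y' hyy => ?_) h
      have h1 : p.1.2 k = ⊥ := (p.2 k).1 (fun h2 => hp ((hA k _).1 h2 t))
      rw [h1] at hyy
      exact emb_bot (hK k) hyy
    have hcJ : ∀ k s, ¬ B k s ≤ x → ∀ g g', θG k g g' → cJ s g = cJ s g' := by
      intro k s
      exact F7 k (B k s) (cJ s) fun p hp g g' h => cJ_const hp h
    have hmem : ∀ k, (¬ a k ≤ x → κ k = ⊥) ∧ (a k ≤ x → ¬ x ≤ b k → κ k = ⊤) := by
      intro k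
      constructor
      · intro h
        rw [hA] at h
        push Not at h
        obtain ⟨t, ht⟩ := h
        refine le_bot_iff.1 (((hK k).le_iff _ _).1 fun {y y'} hy => ?_)
        have h1 := hcT k t ht _ _ ((hκ' k _ _).2 hy)
        have h4 : y = y' := Sum.inl.inj h1
        rw [h4]
      · intro h h'
        rw [hA] at h
        rw [hB] at h'
        push Not at h'
        obtain ⟨s, hs⟩ := h'
        refine top_le_iff.1 (((hK k).le_iff _ _).1 fun {y y'} _ => ?_)
        exact (hκ' k _ _).1 (hle k (base_full h s hs y y'))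
    refine ⟨⟨(x, κ), hmem⟩, ?_⟩
    ext z z'
    rw [hsplit z z', hx']
    show _ ↔ ΦL x z.1 z'.1 ∧ ∀ k, PhiG (A k) (B k) (ΦK k) x (κ k) (z.2 k) (z'.2 k)
    refine and_congr Iff.rfl ?_
    have h1 : θ (x0, z.2) (x0, z'.2) ↔ ∀ k, θG k (z.2 k) (z'.2 k) := hθ2 z.2 z'.2
    rw [h1]
    refine forall_congr' fun k => ⟨fun h => ?_, fun h => hle k h⟩
    by_cases hall : ∀ t, A k t ≤ x
    · exact exact_one (θG k) (hle k) (fun y y' h => (hκ' k _ _).1 h) hall (hcJ k) h
    · push Not at hall
      obtain ⟨t, ht⟩ := hall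
      exact exact_two (θG k) (hle k) t ht (hcT k) (hcJ k) h

end

end Vale.Agent.P183
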