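import Vale.Agent.P183.WExact
import Vale.Agent.P183.WMap
import Vale.Agent.P183.WQuot
import Vale.Agent.P183.Core
import Vale.Agent.P183.Main

namespace Vale.Agent.P183

universe u v

variable {L : Type u} [PartialOrder L] {K : Type v} [PartialOrder K] {X Y S : Type} {N : ℕ}
  {Φ : L → Setoid X} {ΦK : K → Setoid Y} {x0 : X} {y0 : Y} {e : Fin N → X × X} {l : S → X × X}
  {E : Set (X × X)} {a b : L}

theorem bk_mono (h : Cfg Φ ΦK e l E a b) {x x' : L} {κ κ' : K} (hx : x ≤ x') (hκ : κ ≤ κ') :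
    (PsiW Φ ΦK x0 y0 e l x κ : Setoid (Wt X Y S N)) ≤ PsiW Φ ΦK x0 y0 e l x' κ' := by
  intro w w' hw
  have hw' : Relation.EqvGen (GenW Φ ΦK x0 y0 e l x κ) w w' := hw
  show Relation.EqvGen (GenW Φ ΦK x0 y0 e l x' κ') w w'
  clear hw
  induction hw' with
  | rel w w' hg =>
    apply Relation.EqvGen.rel
    cases hg with
    | ky y y' hy => exact GenW.ky y y' ((h.hK.le_iff _ _).2 hκ hy)
    | copy c z z' hz => exact GenW.copy c z z' ((h.hL.emb.le_iff _ _).2 hx hz)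
    | base => exact GenW.base
    | left s o k hk => exact GenW.left s o k hk
    | right s o k hk => exact GenW.right s o k hk
    | glue s o k k' hk => exact GenW.glue s o k k' hk
  | refl w => exact Relation.EqvGen.refl _
  | symm w w' _ ih => exact Relation.EqvGen.symm _ _ ih
  | trans w1 w2 w3 _ _ ih1 ih2 => exact Relation.EqvGen.trans _ _ _ ih1 ih2

theorem bk_inact (h : Cfg Φ ΦK e l E a b) {x : L} (hx : ¬ a ≤ x) :
    ∃ j, ¬ Φ x (e j).1 (e j).2 := by
  by_contra hc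
  push Not at hc
  apply hx
  apply h.hL.gen
  intro u v huv hauv
  obtain ⟨j, hj⟩ := h.he' u v huv hauv
  have h1 := hc j
  rw [hj] at h1
  exact h1

variable [BoundedOrder K]

theorem bk_ytr (h : Cfg Φ ΦK e l E a b) (q : Infl1 L K a b) {y y' : Y}
    (hy : PsiW Φ ΦK x0 y0 e l q.1.1 q.1.2 (Sum.inl y) (Sum.inl y' : Wt X Y S N)) :
    ΦK q.1.2 y y' := by
  by_cases ha : a ≤ q.1.1
  · by_cases hb : q.1.1 ≤ b
    · refine y_trace (fun s hs => ?_) hy
      exact (h.hl s).2 ((h.hL.emb.le_iff _ _).2 hb hs)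
    · rw [q.2.2 ha hb]
      exact emb_top h.hK _ _
  · obtain ⟨j, hj⟩ := bk_inact h ha
    by_cases hyy : y' = y
    · rw [hyy]
    · exfalso
      obtain ⟨F, hF, h1, h2⟩ := good_coly (x0 := x0) (y0 := y0) h j y
      have h3 := good_pres h hF q hy
      rw [h1, h2 y' hyy] at h3
      exact hj h3

theorem bk_le (h : Cfg Φ ΦK e l E a b) (p q : Infl1 L K a b) :
    (PsiW Φ ΦK x0 y0 e l p.1.1 p.1.2 : Setoid (Wt X Y S N)) ≤ PsiW Φ ΦK x0 y0 e l q.1.1 q.1.2 ↔
      p ≤ q := by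
  constructor
  · intro hle
    refine ⟨?_, ?_⟩
    · refine (h.hL.emb.le_iff _ _).1 (fun z z' hz => ?_)
      obtain ⟨F, hF, h1, _⟩ := good_base (x0 := x0) (y0 := y0) h
      have h2 := good_pres h hF q (hle (Relation.EqvGen.rel _ _ (GenW.copy none z z' hz)))
      rw [h1, h1] at h2
      exact h2
    · refine (h.hK.le_iff _ _).1 (fun z z' hz => ?_)
      exact bk_ytr h q (hle (Relation.EqvGen.rel _ _ (GenW.ky z z' hz)))
  · intro hpq
    exact bk_mono h hpq.1 hpq.2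

/-- a good map into a copy preserves everything -/
theorem bk_lift (h : Cfg Φ ΦK e l E a b) {F : Wt X Y S N → X} (hF : Good Φ x0 y0 e l a F)
    (c : Option (S × Off Y × Fin (2 * N + 2))) (f : X → X) (hf : ∀ p, Pres f (Φ p))
    (p : Infl1 L K a b) :
    Pres (fun w => (Sum.inr (c, f (F w)) : Wt X Y S N)) (PsiW Φ ΦK x0 y0 e l p.1.1 p.1.2) := by
  intro w w' hw
  exact Relation.EqvGen.rel _ _ (GenW.copy c _ _ (hf _ _ _ (good_pres h hF p hw)))

theorem bk_closed (h : Cfg Φ ΦK e l E a b) (p0 : Infl1 L K a b) (θ : Setoid (Wt X Y S N))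
    (h0 : PsiW Φ ΦK x0 y0 e l p0.1.1 p0.1.2 ≤ θ)
    (hθ : ∀ f : Wt X Y S N → Wt X Y S N,
      (∀ p : Infl1 L K a b, Pres f (PsiW Φ ΦK x0 y0 e l p.1.1 p.1.2)) → Pres f θ) :
    ∃ p : Infl1 L K a b, θ = PsiW Φ ΦK x0 y0 e l p.1.1 p.1.2 := by
  obtain ⟨F0, hF0, hF01, hF02⟩ := good_base (x0 := x0) (y0 := y0) h
  obtain ⟨x, hx⟩ := h.hL.emb.closed (Setoid.comap (fun z => (Sum.inr (none, z) : Wt X Y S N)) θ)
    (fun f hf z z' hz => by
      have h1 := hθ _ (bk_lift h hF0 none f hf) _ _ hz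
      simp only [hF01] at h1
      exact h1)
  obtain ⟨κ, hκ⟩ := h.hK.closed (Setoid.comap (fun y => (Sum.inl y : Wt X Y S N)) θ)
    (fun f hf z z' hz => by
      obtain ⟨H, hH, hH1, _⟩ := ext_map (Φ := Φ) (ΦK := ΦK) (x0 := x0) (y0 := y0) (e := e)
        (l := l) f hf
      have h1 := hθ H (fun p => hH _ _) _ _ hz
      rw [hH1, hH1] at h1
      exact h1)
  have hX : ∀ z z', θ (Sum.inr (none, z)) (Sum.inr (none, z')) ↔ Φ x z z' := by
    intro z z'
    rw [← hx]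
    exact Iff.rfl
  have hYY : ∀ y y', θ (Sum.inl y) (Sum.inl y') ↔ ΦK κ y y' := by
    intro z z'
    rw [← hκ]
    exact Iff.rfl
  have hG : ∀ F, Good Φ x0 y0 e l a F → ∀ w w', θ w w' → Φ x (F w) (F w') := by
    intro F hF w w' hw
    exact (hX _ _).1 (hθ _ (bk_lift h hF none id (fun p z z' hz => hz)) _ _ hw)
  have hle : PsiW Φ ΦK x0 y0 e l x κ ≤ θ := by
    intro w w' hw
    have hw' : Relation.EqvGen (GenW Φ ΦK x0 y0 e l x κ) w w' := hw
    clear hw
    induction hw' with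
    | rel w w' hg =>
      cases hg with
      | ky y y' hy => exact (hYY _ _).2 hy
      | copy c z z' hz =>
        have h1 := hθ _ (bk_lift h hF0 c id (fun p z z' hz => hz)) _ _ ((hX _ _).2 hz)
        simp only [hF01] at h1
        exact h1
      | base => exact h0 (Relation.EqvGen.rel _ _ GenW.base)
      | left s o k hk => exact h0 (Relation.EqvGen.rel _ _ (GenW.left s o k hk))
      | right s o k hk => exact h0 (Relation.EqvGen.rel _ _ (GenW.right s o k hk))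
      | glue s o k k' hk => exact h0 (Relation.EqvGen.rel _ _ (GenW.glue s o k k' hk))
    | refl w => exact θ.refl' _
    | symm w w' _ ih => exact θ.symm' ih
    | trans w1 w2 w3 _ _ ih1 ih2 => exact θ.trans' ih1 ih2
  have heq : θ = PsiW Φ ΦK x0 y0 e l x κ :=
    le_antisymm (exact_w h θ hle hG (fun y y' => (hYY y y').1)) hle
  refine ⟨⟨(x, κ), ?_, ?_⟩, heq⟩
  · intro ha
    obtain ⟨j, hj⟩ := bk_inact h ha
    refine le_antisymm ((h.hK.le_iff _ _).1 (fun y y' hy => ?_)) bot_le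
    by_cases hyy : y' = y
    · rw [hyy]
    · exfalso
      obtain ⟨F, hF, h1, h2⟩ := good_coly (x0 := x0) (y0 := y0) h j y
      have h3 := hG F hF _ _ ((hYY _ _).2 hy)
      rw [h1, h2 y' hyy] at h3
      exact hj h3
  · intro ha hb
    refine le_antisymm le_top ((h.hK.le_iff _ _).1 (fun y y' _ => ?_))
    have h1 : ∃ s, Φ x (l s).1 (l s).2 := by
      by_contra hc
      push Not at hc
      apply hb
      apply h.hL.gen
      intro u v huv hxuv
      by_contra hbuv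
      obtain ⟨s, hs⟩ := h.hl' u v huv hbuv
      have h2 := hc s
      rw [hs] at h2
      exact h2 hxuv
    obtain ⟨s, hs⟩ := h1
    refine (hYY _ _).1 (hle (y_full (fun j => ?_) s hs y y'))
    exact (h.hL.emb.le_iff _ _).2 ha (h.he j).2

/-- separated pairs of the new set -/
theorem bk_sep (h : Cfg Φ ΦK e l E a b) {EK : Set (Y × Y)} (hK : SEmb ΦK EK)
    (p0 : Infl1 L K a b) (p : Infl1 L K a b) (u v : Wt X Y S N)
    (huv : (u, v) ∈ ({q | ∃ z z', (z, z') ∈ E ∧ q = (Sum.inr (none, z), Sum.inr (none, z'))} ∪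
      {q | ∃ y y', (y, y') ∈ EK ∧ q = (Sum.inl y, Sum.inl y')} : Set (Wt X Y S N × Wt X Y S N)))
    (z : Wt X Y S N) (hu : ¬ PsiW Φ ΦK x0 y0 e l p.1.1 p.1.2 u z)
    (hv : ¬ PsiW Φ ΦK x0 y0 e l p.1.1 p.1.2 v z) :
    ∃ f : Wt X Y S N → Wt X Y S N,
      (∀ q : Infl1 L K a b, Pres f (PsiW Φ ΦK x0 y0 e l q.1.1 q.1.2)) ∧
      PsiW Φ ΦK x0 y0 e l p0.1.1 p0.1.2 (f u) (f v) ∧
      ¬ PsiW Φ ΦK x0 y0 e l p.1.1 p.1.2 (f u) (f z) := by
  obtain ⟨F0, hF0, hF01, hF02⟩ := good_base (x0 := x0) (y0 := y0) h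
  have hnone : ∀ z z', PsiW Φ ΦK x0 y0 e l p.1.1 p.1.2
      (Sum.inr (none, z) : Wt X Y S N) (Sum.inr (none, z')) → Φ p.1.1 z z' := by
    intro z z' hz
    have h1 := good_pres h hF0 p hz
    rw [hF01, hF01] at h1
    exact h1
  have hcop : ∀ z z', Φ p.1.1 z z' → PsiW Φ ΦK x0 y0 e l p.1.1 p.1.2
      (Sum.inr (none, z) : Wt X Y S N) (Sum.inr (none, z')) :=
    fun z z' hz => Relation.EqvGen.rel _ _ (GenW.copy none z z' hz)
  rcases huv with ⟨z1, z2, hE, hq⟩ | ⟨y1, y2, hE, hq⟩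
  · rw [Prod.mk.injEq] at hq
    obtain ⟨rfl, rfl⟩ := hq
    by_cases hz : ∃ z', z = Sum.inr (none, z')
    · obtain ⟨z', rfl⟩ := hz
      obtain ⟨f, hf, hf1, hf2⟩ := h.hL.sep p.1.1 z1 z2 hE z' (fun h1 => hu (hcop _ _ h1))
        (fun h1 => hv (hcop _ _ h1))
      refine ⟨_, bk_lift h hF0 none f hf, ?_, ?_⟩
      · simp only [hF01]
        rw [hf1]
      · simp only [hF01]
        exact fun h1 => hf2 (hnone _ _ h1)
    · have hz' : ∀ z', z ≠ Sum.inr (none, z') := fun z' h1 => hz ⟨z', h1⟩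
      by_cases hyz : PsiW Φ ΦK x0 y0 e l p.1.1 p.1.2 (Sum.inl y0) z
      · have hb : PsiW Φ ΦK x0 y0 e l p.1.1 p.1.2 (Sum.inr (none, x0) : Wt X Y S N) z :=
          Setoid.trans' _ (Setoid.symm' _ (Relation.EqvGen.rel _ _ GenW.base)) hyz
        obtain ⟨f, hf, hf1, hf2⟩ := h.hL.sep p.1.1 z1 z2 hE x0
          (fun h1 => hu (Setoid.trans' _ (hcop _ _ h1) hb))
          (fun h1 => hv (Setoid.trans' _ (hcop _ _ h1) hb))
        refine ⟨_, bk_lift h hF0 none f hf, ?_, ?_⟩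
        · simp only [hF01]
          rw [hf1]
        · simp only [hF01, hF02 z hz']
          exact fun h1 => hf2 (hnone _ _ h1)
      · obtain ⟨H, hH, hH1, hH2⟩ := coll_map (Φ := Φ) (ΦK := ΦK) (x0 := x0) (y0 := y0) (e := e)
          (l := l) (N := N)
        refine ⟨H, fun q => hH _ _, ?_, ?_⟩
        · rw [hH1, hH1]
        · rw [hH1, hH2 z hz']
          exact hyz
  · rw [Prod.mk.injEq] at hq
    obtain ⟨rfl, rfl⟩ := hq
    rcases pt_dich (x0 := x0) (y0 := y0) h p.1.1 z with ⟨y3, hy3⟩ | ⟨F, c, hF, hc, hloc⟩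
    · obtain ⟨f, hf, hf1, hf2⟩ := hK.sep p.1.2 y1 y2 hE y3
        (fun h1 => hu (Setoid.trans' _ (Relation.EqvGen.rel _ _ (GenW.ky _ _ h1))
          (Setoid.symm' _ (hy3 _))))
        (fun h1 => hv (Setoid.trans' _ (Relation.EqvGen.rel _ _ (GenW.ky _ _ h1))
          (Setoid.symm' _ (hy3 _))))
      obtain ⟨H, hH, hH1, _⟩ := ext_map (Φ := Φ) (ΦK := ΦK) (x0 := x0) (y0 := y0) (e := e)
        (l := l) (N := N) f hf
      refine ⟨H, fun q => hH _ _, ?_, ?_⟩
      · rw [hH1, hH1, hf1]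
      · intro h1
        have h2 := hH p.1.1 p.1.2 _ _ (hy3 p.1.2)
        have h3 := Setoid.trans' _ h1 h2
        rw [hH1, hH1] at h3
        exact hf2 (bk_ytr h p h3)
    · have hFy : ∀ y, F (Sum.inl y) = c := by
        intro y
        rcases hloc with ⟨s, o, _, hout⟩ | ⟨_, hout⟩
        · exact hout _ (fun ⟨k, z, hk⟩ => by cases hk)
        · exact hout _ (fun z hz => by cases hz)
      refine ⟨_, bk_lift h hF none id (fun p z z' hz => hz), ?_, ?_⟩
      · simp only [hFy]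
        exact Setoid.refl' _ _
      · simp only [hFy]
        exact fun h1 => hc (hnone _ _ h1)

end Vale.Agent.P183
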