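import Vale.Agent.P183.Stmt

/-!
# P183 (finite lattice representation problem), helper81

THEOREM.  `L` representable finite lattice, finitely many intervals `[a k, b k]`, every `a k` a join of
join prime elements, every `b k` a meet of meet prime elements, `K k` representable.  Then the lattice
of all `(x, κ)`, `κ k ∈ K k`, `κ k = ⊥` if `x` is not above `a k`, `κ k = ⊤` if `x` is above `a k` but
not below `b k`, is representable.  (`K k` is inserted over the interval `[a k, b k]`: doubling of
intervals, lexicographic sums over distributive lattices, ordinal sums, horizontal sums, products.)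

CONSTRUCTION.  `Φ : P → Setoid X` is a closed embedding if it is an order embedding and every
equivalence relation preserved by all maps `f : X → X` that preserve all `Φ p` is some `Φ p`.
For one interval: `Y` carries `K`.  Gadget: `Y` and for every `s : S` (join primes `B s`, `x ≤ b` iff
no `B s ≤ x`) and every `y ≠ y'` a path `y, 0, 1, ..., 2m, y'`, the two end edges labelled `B s`, the
edge `t - (t+1)` and the edge `(m+t) - (m+t+1)` labelled `A t` (`t < m`), where `A t` are join primes
with join `a`.  `ΦG x κ` is generated by `κ` on `Y` and the edges with label `≤ x`.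
-/

namespace Vale.Agent.P183

universe u v

/-- `f` preserves `r` -/
def Pres {X : Type} (f : X → X) (r : Setoid X) : Prop := ∀ x y, r x y → r (f x) (f y)

/-- closed embedding of a poset into the equivalence relations on `X` -/
structure ClosedEmb {P : Type u} [PartialOrder P] {X : Type} (Φ : P → Setoid X) : Prop where
  le_iff : ∀ p q, Φ p ≤ Φ q ↔ p ≤ q
  closed : ∀ θ : Setoid X, (∀ f : X → X, (∀ p, Pres f (Φ p)) → Pres f θ) → ∃ p, θ = Φ p

/-- ordered pairs of distinct points -/
abbrev Off (Y : Type) : Type := {p : Y × Y // p.1 ≠ p.2}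

/-- the gadget: `Y` and the interior vertices `0, ..., 2m` of the paths -/
abbrev Gad (m : ℕ) (S Y : Type) : Type := Y ⊕ (S × Off Y × Fin (2 * m + 1))

section

variable {L : Type u} [PartialOrder L] {K : Type v} {m : ℕ} {S Y : Type} (A : Fin m → L)
  (B : S → L) (ΦK : K → Setoid Y)

/-- generators of `ΦG x κ` -/
inductive Gen (x : L) (κ : K) : Gad m S Y → Gad m S Y → Prop
  | base (y y' : Y) (h : ΦK κ y y') : Gen x κ (Sum.inl y) (Sum.inl y')
  | left (s : S) (o : Off Y) (p : Fin (2 * m + 1)) (hp : p.val = 0) (h : B s ≤ x) :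
      Gen x κ (Sum.inl o.1.1) (Sum.inr (s, o, p))
  | right (s : S) (o : Off Y) (p : Fin (2 * m + 1)) (hp : p.val = 2 * m) (h : B s ≤ x) :
      Gen x κ (Sum.inl o.1.2) (Sum.inr (s, o, p))
  | mid (s : S) (o : Off Y) (p q : Fin (2 * m + 1)) (hq : q.val = p.val + 1) (t : Fin m)
      (ht : p.val = t.val ∨ p.val = m + t.val) (h : A t ≤ x) :
      Gen x κ (Sum.inr (s, o, p)) (Sum.inr (s, o, q))

/-- the equivalence relation of the gadget -/
def PhiG (x : L) (κ : K) : Setoid (Gad m S Y) := Relation.EqvGen.setoid (Gen A B ΦK x κ)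

end

/-- the cut at the edges labelled `A t` -/
def cT {m : ℕ} {S Y : Type} (t : Fin m) : Gad m S Y → Y ⊕ (S × Off Y)
  | Sum.inl y => Sum.inl y
  | Sum.inr (s, o, p) =>
      if p.val ≤ t.val then Sum.inl o.1.1
      else if p.val ≤ m + t.val then Sum.inr (s, o) else Sum.inl o.1.2

open Classical in
/-- the cut at the edges labelled `B s₀` -/
noncomputable def cJ {m : ℕ} {S Y : Type} (s₀ : S) : Gad m S Y → Option (Off Y)
  | Sum.inl _ => none
  | Sum.inr (s, o, _) => if s = s₀ then some o else none

open Classical in
/-- a self map of `Y` extended to the gadget -/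
noncomputable def gmap {m : ℕ} {S Y : Type} (h : Y → Y) : Gad m S Y → Gad m S Y
  | Sum.inl y => Sum.inl (h y)
  | Sum.inr (s, o, p) =>
      if hne : h o.1.1 ≠ h o.1.2 then Sum.inr (s, ⟨(h o.1.1, h o.1.2), hne⟩, p)
      else Sum.inl (h o.1.1)

end Vale.Agent.P183
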