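import Vale.Agent.P183.Defs

/-!
# P183, second stage (helper81)

`SEmb Φ E`: closed embedding with a set `E` of pairs such that (gen) `E` determines the order and
(sep) for `(u, v) ∈ E` and `z` not related to `u`, `v` there is a map preserving everything with
`f u = f v` not related to `f z`.  THEOREM: if `L` has an `SEmb` and `K` a `ClosedEmb` then
`{(x, κ) : κ = ⊥ unless a ≤ x, κ = ⊤ if a ≤ x and not x ≤ b}` has a `ClosedEmb`, for ALL `a, b`; if
`K` has an `SEmb` so has the new lattice.  So all lattices obtained by successive doublings of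
intervals are representable.

CONSTRUCTION.  `Wt = Y ⊕ (Option (S × Off Y × Fin (2 N + 2)) × X)`: `Y`, a base copy (`none`) of `X`
glued to `Y` at `x0 = y0`, and for every `s : S` (all pairs `l s ∈ E` not in `b`) and `y ≠ y'` a path of
`2 N + 2` copies of `X` from `y` to `y'`; the copy `k` runs from `(pr l e k).1` to `(pr l e k).2`:
copy `0` is `l s`, copies `1..N` and `N+1..2N` are `e 0, ..., e (N-1)` (all pairs of `E` in `a`), copy
`2N+1` is `l s` reversed.  Consecutive copies are glued, the ends are glued to `y` and `y'`.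
`PsiW x κ` is generated by `x` in every copy, `κ` on `Y` and the gluing.
-/

namespace Vale.Agent.P183

universe u v

/-- closed embedding with separated pairs -/
structure SEmb {P : Type u} [PartialOrder P] {X : Type} (Φ : P → Setoid X) (E : Set (X × X)) :
    Prop where
  emb : ClosedEmb Φ
  symm : ∀ u v, (u, v) ∈ E → (v, u) ∈ E
  gen : ∀ p q, (∀ u v, (u, v) ∈ E → Φ p u v → Φ q u v) → p ≤ q
  sep : ∀ p u v, (u, v) ∈ E → ∀ z, ¬ Φ p u z → ¬ Φ p v z →
    ∃ f : X → X, (∀ q, Pres f (Φ q)) ∧ f u = f v ∧ ¬ Φ p (f u) (f z)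

/-- `L` with `K` inserted over `[a, b]` -/
abbrev Infl1 (L : Type u) [PartialOrder L] (K : Type v) [PartialOrder K] [BoundedOrder K]
    (a b : L) : Type (max u v) :=
  {p : L × K // (¬ a ≤ p.1 → p.2 = ⊥) ∧ (a ≤ p.1 → ¬ p.1 ≤ b → p.2 = ⊤)}

/-- the ends of the copy `k` of a path -/
def pr {X : Type} {N : ℕ} (l : X × X) (e : Fin N → X × X) (k : ℕ) : X × X :=
  if k = 0 then l
  else if h : k - 1 < N then e ⟨k - 1, h⟩
  else if h : k - 1 - N < N then e ⟨k - 1 - N, h⟩
  else l.swap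

/-- the set before gluing -/
abbrev Wt (X Y S : Type) (N : ℕ) : Type :=
  Y ⊕ (Option (S × Off Y × Fin (2 * N + 2)) × X)

section

variable {L : Type u} [PartialOrder L] {K : Type v} {X Y S : Type} {N : ℕ}
  (Φ : L → Setoid X) (ΦK : K → Setoid Y) (x0 : X) (y0 : Y) (e : Fin N → X × X) (l : S → X × X)

/-- generators -/
inductive GenW (x : L) (κ : K) : Wt X Y S N → Wt X Y S N → Prop
  | ky (y y' : Y) (h : ΦK κ y y') : GenW x κ (Sum.inl y) (Sum.inl y')
  | copy (c : Option (S × Off Y × Fin (2 * N + 2))) (z z' : X) (h : Φ x z z') :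
      GenW x κ (Sum.inr (c, z)) (Sum.inr (c, z'))
  | base : GenW x κ (Sum.inl y0) (Sum.inr (none, x0))
  | left (s : S) (o : Off Y) (k : Fin (2 * N + 2)) (hk : k.val = 0) :
      GenW x κ (Sum.inl o.1.1) (Sum.inr (some (s, o, k), (pr (l s) e k.val).1))
  | right (s : S) (o : Off Y) (k : Fin (2 * N + 2)) (hk : k.val = 2 * N + 1) :
      GenW x κ (Sum.inl o.1.2) (Sum.inr (some (s, o, k), (pr (l s) e k.val).2))
  | glue (s : S) (o : Off Y) (k k' : Fin (2 * N + 2)) (hk : k'.val = k.val + 1) :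
      GenW x κ (Sum.inr (some (s, o, k), (pr (l s) e k.val).2))
        (Sum.inr (some (s, o, k'), (pr (l s) e k'.val).1))

/-- the equivalence relation generated -/
def PsiW (x : L) (κ : K) : Setoid (Wt X Y S N) :=
  Relation.EqvGen.setoid (GenW Φ ΦK x0 y0 e l x κ)

/-- a map to `X` that preserves everything -/
structure Good (a : L) (F : Wt X Y S N → X) : Prop where
  cop : ∀ c (p : L) z z', Φ p z z' → Φ p (F (Sum.inr (c, z))) (F (Sum.inr (c, z')))
  base : F (Sum.inl y0) = F (Sum.inr (none, x0))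
  left : ∀ s (o : Off Y) (k : Fin (2 * N + 2)), k.val = 0 →
    F (Sum.inl o.1.1) = F (Sum.inr (some (s, o, k), (pr (l s) e k.val).1))
  right : ∀ s (o : Off Y) (k : Fin (2 * N + 2)), k.val = 2 * N + 1 →
    F (Sum.inl o.1.2) = F (Sum.inr (some (s, o, k), (pr (l s) e k.val).2))
  glue : ∀ s (o : Off Y) (k k' : Fin (2 * N + 2)), k'.val = k.val + 1 →
    F (Sum.inr (some (s, o, k), (pr (l s) e k.val).2)) =
      F (Sum.inr (some (s, o, k'), (pr (l s) e k'.val).1))
  ys : ∀ y y', Φ a (F (Sum.inl y)) (F (Sum.inl y'))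

/-- the situation -/
structure Cfg [PartialOrder K] (E : Set (X × X)) (a b : L) : Prop where
  hL : SEmb Φ E
  hK : ClosedEmb ΦK
  he : ∀ j, e j ∈ E ∧ Φ a (e j).1 (e j).2
  he' : ∀ u v, (u, v) ∈ E → Φ a u v → ∃ j, e j = (u, v)
  hl : ∀ s, l s ∈ E ∧ ¬ Φ b (l s).1 (l s).2
  hl' : ∀ u v, (u, v) ∈ E → ¬ Φ b u v → ∃ s, l s = (u, v)

end

/-- the point `w` lies in the path `(s, o)` -/
def InPath {X Y S : Type} {N : ℕ} (s : S) (o : Off Y) (w : Wt X Y S N) : Prop :=
  ∃ k z, w = Sum.inr (some (s, o, k), z)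

end Vale.Agent.P183
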