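import Vale.Agent.P183.Gad

namespace Vale.Agent.P183

universe u v

variable {L : Type u} [PartialOrder L] {K : Type v} {m : ℕ} {S Y : Type} {A : Fin m → L}
  {B : S → L} {ΦK : K → Setoid Y}

/-- (EX1) Case all `A t ≤ x`.  Interior vertices `v = (s, o, p)`: if `B s ≤ x` then `v` is related to
the point `o.1.1` of `Y` in `PhiG x κ` (`seg` and the left edge), so it can be replaced by it.  If not,
`cJ s v = some o`, so the other vertex is on the same path and `seg` applies. -/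
theorem exact_one {x : L} {κ : K} (θ : Setoid (Gad m S Y)) (hle : PhiG A B ΦK x κ ≤ θ)
    (hY : ∀ y y', θ (Sum.inl y) (Sum.inl y') → ΦK κ y y') (hA : ∀ t, A t ≤ x)
    (hJ : ∀ s, ¬ B s ≤ x → ∀ g g', θ g g' → cJ s g = cJ s g') : θ ≤ PhiG A B ΦK x κ := by
  have hgen : ∀ {g g' : Gad m S Y}, Gen A B ΦK x κ g g' → PhiG A B ΦK x κ g g' :=
    fun h => Relation.EqvGen.rel _ _ h
  have hseg : ∀ (s : S) (o : Off Y) (p q : Fin (2 * m + 1)),
      PhiG A B ΦK x κ (Sum.inr (s, o, p)) (Sum.inr (s, o, q)) := by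
    intro s o p q
    rcases le_total p.val q.val with h | h
    · exact seg s o p q h fun t _ => hA t
    · exact (PhiG A B ΦK x κ).symm (seg s o q p h fun t _ => hA t)
  have hred : ∀ (s : S) (o : Off Y) (p : Fin (2 * m + 1)), B s ≤ x →
      PhiG A B ΦK x κ (Sum.inr (s, o, p)) (Sum.inl o.1.1) := by
    intro s o p hs
    exact (PhiG A B ΦK x κ).trans (hseg s o p ⟨0, by omega⟩)
      ((PhiG A B ΦK x κ).symm (hgen (Gen.left s o ⟨0, by omega⟩ rfl hs)))
  have hcase : ∀ g : Gad m S Y, (∃ y, PhiG A B ΦK x κ g (Sum.inl y)) ∨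
      ∃ s o p, g = Sum.inr (s, o, p) ∧ ¬ B s ≤ x := by
    rintro (y | ⟨s, o, p⟩)
    · exact Or.inl ⟨y, (PhiG A B ΦK x κ).refl _⟩
    · by_cases hs : B s ≤ x
      · exact Or.inl ⟨_, hred s o p hs⟩
      · exact Or.inr ⟨s, o, p, rfl, hs⟩
  have hpath : ∀ (s : S) (o : Off Y) (p : Fin (2 * m + 1)) (g' : Gad m S Y), ¬ B s ≤ x →
      θ (Sum.inr (s, o, p)) g' → PhiG A B ΦK x κ (Sum.inr (s, o, p)) g' := by
    intro s o p g' hs h
    have h1 := hJ s hs _ _ h
    have h2 : cJ s (Sum.inr (s, o, p) : Gad m S Y) = some o := by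
      unfold cJ
      exact if_pos rfl
    rw [h2] at h1
    rcases g' with y | ⟨s', o', p'⟩
    · exact absurd h1 (Option.some_ne_none o)
    · unfold cJ at h1
      simp only at h1
      split_ifs at h1 with hs'
      · obtain rfl := Option.some.inj h1
        rw [hs']
        exact hseg s o p p'
  intro g g' h
  rcases hcase g with ⟨y, hy⟩ | ⟨s, o, p, rfl, hs⟩
  · rcases hcase g' with ⟨y', hy'⟩ | ⟨s', o', p', rfl, hs'⟩
    · have h1 : θ (Sum.inl y) (Sum.inl y') :=
        θ.trans (θ.symm (hle hy)) (θ.trans h (hle hy'))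
      exact (PhiG A B ΦK x κ).trans hy ((PhiG A B ΦK x κ).trans
        (hgen (Gen.base y y' (hY y y' h1))) ((PhiG A B ΦK x κ).symm hy'))
    · exact (PhiG A B ΦK x κ).symm (hpath s' o' p' g hs' (θ.symm h))
  · exact hpath s o p g' hs h

theorem EX2_path' {x : L} {κ : K} (θ : Setoid (Gad m S Y))
    (hT : ∀ t, ¬ A t ≤ x → ∀ g g', θ g g' → cT t g = cT t g') (s : S) (o : Off Y)
    (p q : Fin (2 * m + 1)) (hpq : p.val ≤ q.val)
    (h : θ (Sum.inr (s, o, p)) (Sum.inr (s, o, q))) :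
    PhiG A B ΦK x κ (Sum.inr (s, o, p)) (Sum.inr (s, o, q)) := by
  apply seg s o p q hpq
  intro t ht
  by_contra hA
  have e := hT t hA _ _ h
  have ho := o.2
  simp only [cT] at e
  rcases ht with ⟨h1, h2⟩ | ⟨h1, h2⟩
  · rw [if_pos h1, if_neg (show ¬ q.val ≤ t.val by omega)] at e
    by_cases h3 : q.val ≤ m + t.val
    · rw [if_pos h3] at e
      cases e
    · rw [if_neg h3] at e
      exact ho (Sum.inl.inj e)
  · rw [if_neg (show ¬ q.val ≤ t.val by omega), if_neg (show ¬ q.val ≤ m + t.val by omega)] at e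
    by_cases h3 : p.val ≤ t.val
    · rw [if_pos h3] at e
      exact ho (Sum.inl.inj e)
    · rw [if_neg h3, if_pos h1] at e
      cases e

theorem EX2_path {x : L} {κ : K} (θ : Setoid (Gad m S Y))
    (hT : ∀ t, ¬ A t ≤ x → ∀ g g', θ g g' → cT t g = cT t g') (s : S) (o : Off Y)
    (p q : Fin (2 * m + 1))
    (h : θ (Sum.inr (s, o, p)) (Sum.inr (s, o, q))) :
    PhiG A B ΦK x κ (Sum.inr (s, o, p)) (Sum.inr (s, o, q)) := by
  rcases le_total p.val q.val with hpq | hpq
  · exact EX2_path' θ hT s o p q hpq h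
  · exact (PhiG A B ΦK x κ).symm' (EX2_path' θ hT s o q p hpq (θ.symm' h))

/-- a vertex which is not in the middle part for any inactive `t` -/
def EX2N (A : Fin m → L) (x : L) (p : Fin (2 * m + 1)) : Prop :=
  ∀ t, ¬ A t ≤ x → ¬ (t.val < p.val ∧ p.val ≤ m + t.val)

theorem EX2_base {x : L} {κ : K} (t₀ : Fin m) (ht₀ : ¬ A t₀ ≤ x) (s : S) (hs : B s ≤ x)
    (o : Off Y) (p : Fin (2 * m + 1)) (hN : EX2N A x p) :
    ∃ y, cT t₀ (Sum.inr (s, o, p) : Gad m S Y) = Sum.inl y ∧
      PhiG A B ΦK x κ (Sum.inr (s, o, p)) (Sum.inl y) := by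
  have hm := t₀.2
  rcases le_or_gt p.val t₀.val with hp | hp
  · refine ⟨o.1.1, ?_, ?_⟩
    · simp only [cT]
      rw [if_pos hp]
    · have h0 : PhiG A B ΦK x κ (Sum.inl o.1.1 : Gad m S Y)
          (Sum.inr (s, o, ⟨0, by omega⟩)) :=
        Relation.EqvGen.rel _ _ (Gen.left s o ⟨0, by omega⟩ rfl hs)
      have h1 : PhiG A B ΦK x κ (Sum.inr (s, o, ⟨0, by omega⟩) : Gad m S Y)
          (Sum.inr (s, o, p)) := by
        apply seg s o _ _ (Nat.zero_le _)
        rintro t (⟨-, h3⟩ | ⟨-, h3⟩)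
        · by_contra hA
          have := hN t hA
          exact this ⟨h3, by omega⟩
        · omega
      exact (PhiG A B ΦK x κ).symm' ((PhiG A B ΦK x κ).trans' h0 h1)
  · have hp2 : m + t₀.val < p.val := by
      by_contra h
      exact hN t₀ ht₀ ⟨hp, by omega⟩
    refine ⟨o.1.2, ?_, ?_⟩
    · simp only [cT]
      rw [if_neg (by omega), if_neg (by omega)]
    · have h0 : PhiG A B ΦK x κ (Sum.inl o.1.2 : Gad m S Y)
          (Sum.inr (s, o, ⟨2 * m, by omega⟩)) :=
        Relation.EqvGen.rel _ _ (Gen.right s o ⟨2 * m, by omega⟩ rfl hs)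
      have h1 : PhiG A B ΦK x κ (Sum.inr (s, o, p) : Gad m S Y)
          (Sum.inr (s, o, ⟨2 * m, by omega⟩)) := by
        apply seg s o _ _ (by have := p.2; show p.val ≤ 2 * m; omega)
        rintro t (⟨h2, h3⟩ | ⟨h2, h3⟩)
        · exact absurd t.2 (by omega)
        · by_contra hA
          exact hN t hA ⟨by omega, h2⟩
      exact (PhiG A B ΦK x κ).trans' h1 ((PhiG A B ΦK x κ).symm' h0)

/-- one-sided part of the proof: `v` interior, in the middle or with `¬ B s ≤ x` -/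
theorem EX2_side {x : L} {κ : K} (θ : Setoid (Gad m S Y))
    (hT : ∀ t, ¬ A t ≤ x → ∀ g g', θ g g' → cT t g = cT t g')
    (hJ : ∀ s, ¬ B s ≤ x → ∀ g g', θ g g' → cJ s g = cJ s g') (s : S) (o : Off Y)
    (p : Fin (2 * m + 1)) (h : ¬ EX2N A x p ∨ ¬ B s ≤ x) (w : Gad m S Y)
    (hvw : θ (Sum.inr (s, o, p)) w) : PhiG A B ΦK x κ (Sum.inr (s, o, p)) w := by
  have key : ∃ q, w = Sum.inr (s, o, q) := by
    rcases h with h | h
    · unfold EX2N at h
      push Not at h
      obtain ⟨t, hA, h1, h2⟩ := h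
      have e := hT t hA _ _ hvw
      have e1 : cT t (Sum.inr (s, o, p) : Gad m S Y) = Sum.inr (s, o) := by
        simp only [cT]
        rw [if_neg (by omega), if_pos h2]
      rw [e1] at e
      rcases w with y | ⟨s', o', q⟩
      · cases e
      · simp only [cT] at e
        by_cases h3 : q.val ≤ t.val
        · rw [if_pos h3] at e
          cases e
        · by_cases h4 : q.val ≤ m + t.val
          · rw [if_neg h3, if_pos h4] at e
            have e2 := Sum.inr.inj e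
            rw [Prod.mk.injEq] at e2
            obtain ⟨rfl, rfl⟩ := e2
            exact ⟨q, rfl⟩
          · rw [if_neg h3, if_neg h4] at e
            cases e
    · have e := hJ s h _ _ hvw
      have e1 : cJ s (Sum.inr (s, o, p) : Gad m S Y) = some o := by
        simp [cJ]
      rw [e1] at e
      rcases w with y | ⟨s', o', q⟩
      · cases e
      · simp only [cJ] at e
        by_cases h3 : s' = s
        · rw [if_pos h3] at e
          have e2 := Option.some.inj e
          subst h3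
          subst e2
          exact ⟨q, rfl⟩
        · rw [if_neg h3] at e
          cases e
  obtain ⟨q, rfl⟩ := key
  exact EX2_path θ hT s o p q hvw

theorem EX2_good {x : L} {κ : K} (t₀ : Fin m) (ht₀ : ¬ A t₀ ≤ x) (v : Gad m S Y)
    (h : ∀ s o p, v = Sum.inr (s, o, p) → EX2N A x p ∧ B s ≤ x) :
    ∃ y, cT t₀ v = Sum.inl y ∧ PhiG A B ΦK x κ v (Sum.inl y) := by
  rcases v with y | ⟨s, o, p⟩
  · exact ⟨y, rfl, (PhiG A B ΦK x κ).refl' _⟩
  · obtain ⟨h1, h2⟩ := h s o p rfl
    exact EX2_base t₀ ht₀ s h2 o p h1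

/-- (EX2) Case `¬ A t₀ ≤ x`.  Let `N = {t : ¬ A t ≤ x}`, nonempty.  For `t ∈ N` a vertex `(s, o, p)` is
`L` if `p ≤ t`, `M` if `t < p ≤ m + t`, `R` if `m + t < p`.  As `p ≤ t` gives `p < m + t'` and so on: if a
vertex is not `M` for any `t ∈ N` then it is `L` for all `t ∈ N` or `R` for all `t ∈ N`.
Let `θ v w`.
- `v`, `w` in `Y`: `cT t₀` gives `v = w`.
- `v` is `M` for some `t ∈ N`: `cT t` shows that `w` is on the same path and `M` for `t`; there is no
  inactive edge between (`p ≤ t' < q` would give `cT t' v = inl o.1.1`, `cT t' w` is `inr`, as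
  `q ≤ m + t < m + t'`; same for `p ≤ m + t' < q`), so `seg`.
- otherwise both are in `Y` or `L` for all `t` or `R` for all `t`.  If `B s ≤ x` for the path of `v`
  then `v` is related to `o.1.1` (case `L`) or `o.1.2` (case `R`) in `PhiG x κ`, which is `cT t₀ v`.  If
  this holds for both `v` and `w` we are done, since `cT t₀ v = cT t₀ w`.  If not `B s ≤ x` then `cJ s`
  shows that `w` is on the same path `o` of the same `s`; both `L` or both `R`: `seg`; `L` and `R`: `cT t₀`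
  gives `o.1.1 = o.1.2`, contradiction. -/
theorem exact_two {x : L} {κ : K} (θ : Setoid (Gad m S Y)) (hle : PhiG A B ΦK x κ ≤ θ)
    (t₀ : Fin m) (ht₀ : ¬ A t₀ ≤ x)
    (hT : ∀ t, ¬ A t ≤ x → ∀ g g', θ g g' → cT t g = cT t g')
    (hJ : ∀ s, ¬ B s ≤ x → ∀ g g', θ g g' → cJ s g = cJ s g') : θ ≤ PhiG A B ΦK x κ := by
  intro v w hvw
  by_cases hv : ∀ s o p, v = Sum.inr (s, o, p) → EX2N A x p ∧ B s ≤ x
  · by_cases hw : ∀ s o p, w = Sum.inr (s, o, p) → EX2N A x p ∧ B s ≤ x
    · obtain ⟨y, h1, h2⟩ := EX2_good (ΦK := ΦK) (κ := κ) t₀ ht₀ v hv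
      obtain ⟨y', h3, h4⟩ := EX2_good (ΦK := ΦK) (κ := κ) t₀ ht₀ w hw
      have e := hT t₀ ht₀ _ _ hvw
      rw [h1, h3] at e
      have e2 := Sum.inl.inj e
      subst e2
      exact (PhiG A B ΦK x κ).trans' h2 ((PhiG A B ΦK x κ).symm' h4)
    · push Not at hw
      obtain ⟨s, o, p, rfl, h⟩ := hw
      refine (PhiG A B ΦK x κ).symm' (EX2_side θ hT hJ s o p ?_ v (θ.symm' hvw))
      by_cases h1 : EX2N A x p
      · exact Or.inr (h h1)
      · exact Or.inl h1
  · push Not at hv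
    obtain ⟨s, o, p, rfl, h⟩ := hv
    refine EX2_side θ hT hJ s o p ?_ w hvw
    by_cases h1 : EX2N A x p
    · exact Or.inr (h h1)
    · exact Or.inl h1

end Vale.Agent.P183
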