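import Vale.Agent.P183.Defs

namespace Vale.Agent.P183

universe u v

variable {L : Type u} [PartialOrder L] {K : Type v} {m : ℕ} {S Y : Type} {A : Fin m → L}
  {B : S → L} {ΦK : K → Setoid Y}

/-- (CUT1) induction on `EqvGen`, cases on the generator, `omega`. -/
theorem cT_const {x : L} {κ : K} {t : Fin m} (ht : ¬ A t ≤ x) (hκ : ∀ y y', ΦK κ y y' → y = y')
    {g g' : Gad m S Y} (h : PhiG A B ΦK x κ g g') : cT t g = cT t g' := by
  have key : ∀ g g' : Gad m S Y, Relation.EqvGen (Gen A B ΦK x κ) g g' → cT t g = cT t g' := by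
    intro g g' hg
    induction hg with
    | rel g g' hgen =>
      have htm := t.2
      cases hgen with
      | base z z' hz => rw [hκ z z' hz]
      | left s o p hp hs =>
        simp only [cT]
        rw [if_pos (by omega)]
      | right s o p hp hs =>
        simp only [cT]
        rw [if_neg (by omega), if_neg (by omega)]
      | mid s o p q hq t' ht' hA =>
        have hne : t'.val ≠ t.val := fun h => ht (Fin.ext h ▸ hA)
        have htm' := t'.2
        simp only [cT]
        by_cases h1 : p.val ≤ t.val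
        · rw [if_pos h1, if_pos (by omega)]
        · rw [if_neg h1, if_neg (c := q.val ≤ t.val) (by omega)]
          by_cases h2 : p.val ≤ m + t.val
          · rw [if_pos h2, if_pos (by omega)]
          · rw [if_neg h2, if_neg (by omega)]
    | refl g => rfl
    | symm g g' _ ih => exact ih.symm
    | trans g g' g'' _ _ ih1 ih2 => exact ih1.trans ih2
  exact key g g' h

/-- (CUT2) same for `cJ`. -/
theorem cJ_const {x : L} {κ : K} {s : S} (hs : ¬ B s ≤ x)
    {g g' : Gad m S Y} (h : PhiG A B ΦK x κ g g') : cJ s g = cJ s g' := by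
  have key : ∀ g g' : Gad m S Y, Relation.EqvGen (Gen A B ΦK x κ) g g' → cJ s g = cJ s g' := by
    intro g g' hg
    induction hg with
    | rel g g' hgen =>
      cases hgen with
      | base z z' hz => rfl
      | left s' o p hp hs' =>
        have hne : s' ≠ s := fun h => hs (h ▸ hs')
        simp only [cJ]
        rw [if_neg hne]
      | right s' o p hp hs' =>
        have hne : s' ≠ s := fun h => hs (h ▸ hs')
        simp only [cJ]
        rw [if_neg hne]
      | mid s' o p q hq t' ht' hA => rfl
    | refl g => rfl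
    | symm g g' _ ih => exact ih.symm
    | trans g g' g'' _ _ ih1 ih2 => exact ih1.trans ih2
  exact key g g' h

/-- (CUT3) the relation (both in `Y` and `ΦK κ` related) or (both interior) is an equivalence relation
that contains the generators. -/
theorem base_of_phiG {x : L} {κ : K} (hB : ∀ s, ¬ B s ≤ x) {y y' : Y}
    (h : PhiG A B ΦK x κ (Sum.inl y) (Sum.inl y')) : ΦK κ y y' := by
  have key : ∀ g g' : Gad m S Y, Relation.EqvGen (Gen A B ΦK x κ) g g' →
      (∀ z z', g = Sum.inl z → g' = Sum.inl z' → ΦK κ z z') ∧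
      (g.isLeft = g'.isLeft) := by
    intro g g' hg
    induction hg with
    | rel g g' hgen =>
      cases hgen with
      | base z z' hz =>
        refine ⟨?_, rfl⟩
        intro w w' hw hw'
        rw [← Sum.inl.inj hw, ← Sum.inl.inj hw']
        exact hz
      | left s o p hp hs => exact absurd hs (hB s)
      | right s o p hp hs => exact absurd hs (hB s)
      | mid s o p q hq t ht hA =>
        refine ⟨?_, rfl⟩
        intro w w' hw hw'
        exact absurd hw (by simp)
    | refl g =>
      refine ⟨?_, rfl⟩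
      intro z z' hz hz'
      have : z = z' := Sum.inl.inj (hz.symm.trans hz')
      rw [this]
    | symm g g' _ ih =>
      exact ⟨fun z z' hz hz' => (ΦK κ).symm (ih.1 z' z hz' hz), ih.2.symm⟩
    | trans g g' g'' _ _ ih1 ih2 =>
      refine ⟨fun z z'' hz hz'' => ?_, ih1.2.trans ih2.2⟩
      have h1 : g'.isLeft = true := by
        rw [← ih1.2, hz]
        rfl
      obtain ⟨z', hz'⟩ := Sum.isLeft_iff.1 h1
      exact (ΦK κ).trans (ih1.1 z z' hz hz') (ih2.1 z' z'' hz' hz'')
  exact (key _ _ h).1 y y' rfl rfl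

/-- (MAP) `gmap h` preserves `PhiG x κ` if `h` preserves `ΦK κ`: check the generators (a path is mapped
to a path with the same labels, or collapsed to `h y`). -/
theorem gmap_pres {x : L} {κ : K} {h : Y → Y} (hh : Pres h (ΦK κ)) :
    Pres (gmap h) (PhiG A B ΦK x κ : Setoid (Gad m S Y)) := by
  intro g g' hg
  have hg' : Relation.EqvGen (Gen A B ΦK x κ) g g' := hg
  show Relation.EqvGen (Gen A B ΦK x κ) (gmap h g) (gmap h g')
  induction hg' with
  | rel a b hab =>
    cases hab with
    | base y y' hy => exact Relation.EqvGen.rel _ _ (Gen.base (h y) (h y') (hh y y' hy))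
    | left s o p hp hB =>
      by_cases hne : h o.1.1 ≠ h o.1.2
      · have e : (gmap h (Sum.inr (s, o, p)) : Gad m S Y)
            = Sum.inr (s, ⟨(h o.1.1, h o.1.2), hne⟩, p) := dif_pos hne
        rw [e]
        exact Relation.EqvGen.rel _ _ (Gen.left s ⟨(h o.1.1, h o.1.2), hne⟩ p hp hB)
      · have e : (gmap h (Sum.inr (s, o, p)) : Gad m S Y) = Sum.inl (h o.1.1) := dif_neg hne
        rw [e]
        exact Relation.EqvGen.refl _
    | right s o p hp hB =>
      by_cases hne : h o.1.1 ≠ h o.1.2
      · have e : (gmap h (Sum.inr (s, o, p)) : Gad m S Y)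
            = Sum.inr (s, ⟨(h o.1.1, h o.1.2), hne⟩, p) := dif_pos hne
        rw [e]
        exact Relation.EqvGen.rel _ _ (Gen.right s ⟨(h o.1.1, h o.1.2), hne⟩ p hp hB)
      · have e : (gmap h (Sum.inr (s, o, p)) : Gad m S Y) = Sum.inl (h o.1.1) := dif_neg hne
        rw [e, not_not.1 hne]
        exact Relation.EqvGen.refl _
    | mid s o p q hq t ht hA =>
      by_cases hne : h o.1.1 ≠ h o.1.2
      · have e : ∀ p, (gmap h (Sum.inr (s, o, p)) : Gad m S Y)
            = Sum.inr (s, ⟨(h o.1.1, h o.1.2), hne⟩, p) := fun p => dif_pos hne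
        rw [e, e]
        exact Relation.EqvGen.rel _ _ (Gen.mid s ⟨(h o.1.1, h o.1.2), hne⟩ p q hq t ht hA)
      · have e : ∀ p, (gmap h (Sum.inr (s, o, p)) : Gad m S Y) = Sum.inl (h o.1.1) :=
          fun p => dif_neg hne
        rw [e, e]
        exact Relation.EqvGen.refl _
  | refl a => exact Relation.EqvGen.refl _
  | symm a b hab ih => exact Relation.EqvGen.symm _ _ (ih hab)
  | trans a b c hab hbc ih1 ih2 => exact Relation.EqvGen.trans _ _ _ (ih1 hab) (ih2 hbc)

theorem SEG_aux {x : L} {κ : K} (s : S) (o : Off Y) (p : Fin (2 * m + 1)) (k : ℕ) :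
    ∀ q : Fin (2 * m + 1), q.val = p.val + k →
      (∀ t : Fin m, ((p.val ≤ t.val ∧ t.val < q.val) ∨
        (p.val ≤ m + t.val ∧ m + t.val < q.val)) → A t ≤ x) →
      PhiG A B ΦK x κ (Sum.inr (s, o, p)) (Sum.inr (s, o, q)) := by
  induction k with
  | zero =>
    intro q hq _
    have h1 : p = q := Fin.ext (by omega)
    subst h1
    exact Relation.EqvGen.refl _
  | succ k ih =>
    intro q hq h
    have hq2 := q.isLt
    have hlt : p.val + k < 2 * m + 1 := by omega
    have h1 := ih ⟨p.val + k, hlt⟩ rfl (fun t ht => h t (by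
      rcases ht with ⟨h1, h2⟩ | ⟨h1, h2⟩
      · left
        change t.val < p.val + k at h2
        exact ⟨h1, by omega⟩
      · right
        change m + t.val < p.val + k at h2
        exact ⟨h1, by omega⟩))
    have h2 : Gen A B ΦK x κ (Sum.inr (s, o, (⟨p.val + k, hlt⟩ : Fin (2 * m + 1))))
        (Sum.inr (s, o, q)) := by
      by_cases hm : p.val + k < m
      · refine Gen.mid s o _ q (by change q.val = p.val + k + 1; omega) ⟨p.val + k, hm⟩ (Or.inl rfl)
          (h _ (Or.inl ⟨?_, ?_⟩))
        · change p.val ≤ p.val + k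
          omega
        · change p.val + k < q.val
          omega
      · have hm2 : p.val + k - m < m := by omega
        refine Gen.mid s o _ q (by change q.val = p.val + k + 1; omega) ⟨p.val + k - m, hm2⟩
          (Or.inr ?_) (h _ (Or.inr ⟨?_, ?_⟩))
        · change p.val + k = m + (p.val + k - m)
          omega
        · change p.val ≤ m + (p.val + k - m)
          omega
        · change m + (p.val + k - m) < q.val
          omega
    exact Relation.EqvGen.trans _ _ _ h1 (Relation.EqvGen.rel _ _ h2)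

/-- (SEG) consecutive vertices joined by active edges. -/
theorem seg {x : L} {κ : K} (s : S) (o : Off Y) (p q : Fin (2 * m + 1)) (hpq : p.val ≤ q.val)
    (h : ∀ t : Fin m, ((p.val ≤ t.val ∧ t.val < q.val) ∨ (p.val ≤ m + t.val ∧ m + t.val < q.val)) →
      A t ≤ x) :
    PhiG A B ΦK x κ (Sum.inr (s, o, p)) (Sum.inr (s, o, q)) :=
  SEG_aux s o p (q.val - p.val) q (by omega) h

/-- (FULL) if all `A t ≤ x` and some `B s ≤ x` then all points of `Y` are related. -/
theorem base_full {x : L} {κ : K} (hA : ∀ t, A t ≤ x) (s : S) (hs : B s ≤ x) (y y' : Y) :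
    PhiG A B ΦK x κ (Sum.inl y) (Sum.inl y' : Gad m S Y) := by
  by_cases hyy : y = y'
  · subst hyy
    exact Relation.EqvGen.refl _
  · let o : Off Y := ⟨(y, y'), hyy⟩
    have h0 : 0 < 2 * m + 1 := by omega
    have h1 : 2 * m < 2 * m + 1 := by omega
    have e1 : Gen A B ΦK x κ (Sum.inl y) (Sum.inr (s, o, (⟨0, h0⟩ : Fin (2 * m + 1)))) :=
      Gen.left s o ⟨0, h0⟩ rfl hs
    have e2 : Gen A B ΦK x κ (Sum.inl y') (Sum.inr (s, o, (⟨2 * m, h1⟩ : Fin (2 * m + 1)))) :=
      Gen.right s o ⟨2 * m, h1⟩ rfl hs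
    have e3 : PhiG A B ΦK x κ (Sum.inr (s, o, (⟨0, h0⟩ : Fin (2 * m + 1))))
        (Sum.inr (s, o, (⟨2 * m, h1⟩ : Fin (2 * m + 1)))) :=
      seg s o ⟨0, h0⟩ ⟨2 * m, h1⟩ (Nat.zero_le _) (fun t _ => hA t)
    exact Relation.EqvGen.trans _ _ _ (Relation.EqvGen.rel _ _ e1)
      (Relation.EqvGen.trans _ _ _ e3 (Relation.EqvGen.symm _ _ (Relation.EqvGen.rel _ _ e2)))

end Vale.Agent.P183
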