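import Mathlib

namespace Vale.Agent.P183

universe u v

/-- `r` is a congruence of the algebra on `X` with operations `op i` of arity `ar i` -/
def IsCong {X ι : Type} (ar : ι → ℕ) (op : ∀ i, (Fin (ar i) → X) → X) (r : Setoid X) : Prop :=
  ∀ i (u v : Fin (ar i) → X), (∀ k, r (u k) (v k)) → r (op i u) (op i v)

/-- `P` is isomorphic to the congruence lattice of a finite algebra: `X` finite nonempty, finitely many
operations of finite arity -/
def Representable (P : Type u) [PartialOrder P] : Prop :=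
  ∃ (X ι : Type) (_ : Finite X) (_ : Nonempty X) (_ : Finite ι) (ar : ι → ℕ)
    (op : ∀ i, (Fin (ar i) → X) → X), Nonempty (P ≃o {r : Setoid X // IsCong ar op r})

/-- `L` with `K k` inserted over `[a k, b k]`: the pairs `(x, κ)`, `κ k ∈ K k`, with `κ k = ⊥` when
`a k ≤ x` fails and `κ k = ⊤` when `a k ≤ x` holds and `x ≤ b k` fails; ordered coordinatewise -/
abbrev Infl (L : Type u) [PartialOrder L] {I : Type} (K : I → Type v) [∀ k, PartialOrder (K k)]
    [∀ k, BoundedOrder (K k)] (a b : I → L) : Type (max u v) :=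
  {p : L × (∀ k, K k) //
    ∀ k, (¬ a k ≤ p.1 → p.2 k = ⊥) ∧ (a k ≤ p.1 → ¬ p.1 ≤ b k → p.2 k = ⊤)}

end Vale.Agent.P183
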