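import Vale.Agent.P183.WGood
import Vale.Agent.P183.WCol
import Vale.Agent.P183.WConn

namespace Vale.Agent.P183

universe u v

variable {L : Type u} [PartialOrder L] {K : Type v} [PartialOrder K] {X Y S : Type} {N : ℕ}
  {Φ : L → Setoid X} {ΦK : K → Setoid Y} {x0 : X} {y0 : Y} {e : Fin N → X × X} {l : S → X × X}
  {E : Set (X × X)} {a b : L}

theorem TD_pr_zero (l : X × X) (e : Fin N → X × X) : pr l e 0 = l := by
  unfold pr
  rw [if_pos rfl]

theorem TD_pr_last (l : X × X) (e : Fin N → X × X) : pr l e (2 * N + 1) = l.swap := by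
  unfold pr
  rw [if_neg (by omega), dif_neg (by omega), dif_neg (by omega)]

theorem TD_pr_fst (l : X × X) (e : Fin N → X × X) (m : ℕ) (j : Fin N) (h : m = 1 + j.val) :
    pr l e m = e j := by
  subst h
  have hj := j.isLt
  unfold pr
  rw [if_neg (by omega), dif_pos (by omega : 1 + j.val - 1 < N)]
  congr 1
  exact Fin.ext (by show 1 + j.val - 1 = j.val; omega)

theorem TD_pr_snd (l : X × X) (e : Fin N → X × X) (m : ℕ) (j : Fin N) (h : m = 1 + N + j.val) :
    pr l e m = e j := by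
  subst h
  have hj := j.isLt
  unfold pr
  rw [if_neg (by omega), dif_neg (by omega), dif_pos (by omega : 1 + N + j.val - 1 - N < N)]
  congr 1
  exact Fin.ext (by show 1 + N + j.val - 1 - N = j.val; omega)

theorem TD_swap (h : Cfg Φ ΦK e l E a b) (j : Fin N) : ∃ j' : Fin N, e j' = (e j).swap := by
  have h1 := h.he j
  obtain ⟨j', hj'⟩ := h.he' (e j).2 (e j).1 (h.hL.symm _ _ h1.1) ((Φ a).symm' h1.2)
  exact ⟨j', hj'⟩

/-- (TD) `τ` = start of the copy `k`.  `k = 0`: `tie_left`.  Let `k ≥ 1`.  If `l s` is not in `Φ x`: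
`good_link`.  Otherwise the copies `0` and `2N+1` are active; if all copies `1 ≤ m < k` are active:
`tie_left`; if all `k ≤ m ≤ 2N` are active: `tie_right`.  Otherwise there are inactive `m1 < k ≤ m2`.  If
`k ≤ N + 1`: `m1 = 1 + j`, `good_exc j j'` with `e j' = (e j).swap`.  If `k > N + 1`: `m2 = 1 + N + j'` and
`e j = (e j').swap`, `good_exc j j'`. -/
theorem tie_dich (h : Cfg Φ ΦK e l E a b) (x : L) (s : S) (o : Off Y) (k : Fin (2 * N + 2)) :
    (∃ y : Y, ∀ κ : K, PsiW Φ ΦK x0 y0 e l x κ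
      (Sum.inr (some (s, o, k), (pr (l s) e k.val).1)) (Sum.inl y)) ∨
    ∃ (F : Wt X Y S N → X) (u : X), Good Φ x0 y0 e l a F ∧
      (∀ w, ¬ InPath s o w → F w = u) ∧
      ¬ Φ x u (F (Sum.inr (some (s, o, k), (pr (l s) e k.val).1))) := by
  have hk := k.isLt
  rcases Nat.eq_zero_or_pos k.val with hk0 | hk0
  · exact Or.inl ⟨o.1.1, fun κ => tie_left s o k fun m hm => absurd hm (by omega)⟩
  by_cases hls : Φ x (l s).1 (l s).2
  · by_cases hL : ∀ m, m < k.val → Φ x (pr (l s) e m).1 (pr (l s) e m).2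
    · exact Or.inl ⟨o.1.1, fun κ => tie_left s o k hL⟩
    by_cases hR : ∀ m, k.val ≤ m → m < 2 * N + 2 → Φ x (pr (l s) e m).1 (pr (l s) e m).2
    · exact Or.inl ⟨o.1.2, fun κ => tie_right s o k hR⟩
    right
    obtain ⟨m1, hm1, hn1⟩ : ∃ m, m < k.val ∧ ¬ Φ x (pr (l s) e m).1 (pr (l s) e m).2 := by
      by_contra hc
      exact hL fun m hm => by_contra fun hh => hc ⟨m, hm, hh⟩
    obtain ⟨m2, hm2, hm2', hn2⟩ : ∃ m, k.val ≤ m ∧ m < 2 * N + 2 ∧
        ¬ Φ x (pr (l s) e m).1 (pr (l s) e m).2 := by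
      by_contra hc
      exact hR fun m hm hm' => by_contra fun hh => hc ⟨m, hm, hm', hh⟩
    have hm10 : m1 ≠ 0 := by
      rintro rfl
      rw [TD_pr_zero] at hn1
      exact hn1 hls
    have hm2l : m2 ≠ 2 * N + 1 := by
      rintro rfl
      rw [TD_pr_last] at hn2
      exact hn2 ((Φ x).symm' hls)
    rcases Nat.lt_or_ge (N + 1) k.val with hkN | hkN
    · set j' : Fin N := ⟨m2 - 1 - N, by omega⟩ with hj'
      have hj'v : m2 = 1 + N + j'.val := by
        show m2 = 1 + N + (m2 - 1 - N)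
        omega
      rw [TD_pr_snd (l s) e m2 j' hj'v] at hn2
      obtain ⟨j, hj⟩ := TD_swap h j'
      have hjs : e j' = (e j).swap := by rw [hj, Prod.swap_swap]
      obtain ⟨F, hF, h1, h2⟩ := good_exc (x0 := x0) (y0 := y0) h s o j j' hjs
      refine ⟨F, (e j).1, hF, h2, ?_⟩
      have hjl := j.isLt
      rw [h1 k (by omega) (by omega), hj]
      exact fun hc => hn2 ((Φ x).symm' hc)
    · set j : Fin N := ⟨m1 - 1, by omega⟩ with hj
      have hjv : m1 = 1 + j.val := by
        show m1 = 1 + (m1 - 1)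
        omega
      rw [TD_pr_fst (l s) e m1 j hjv] at hn1
      obtain ⟨j', hj'⟩ := TD_swap h j
      obtain ⟨F, hF, h1, h2⟩ := good_exc (x0 := x0) (y0 := y0) h s o j j' hj'
      refine ⟨F, (e j).1, hF, h2, ?_⟩
      rw [h1 k (by omega) (by omega)]
      exact hn1
  · right
    obtain ⟨F, hF, h1, h2, h3⟩ := good_link (x0 := x0) (y0 := y0) h s o
    refine ⟨F, (l s).1, hF, h3, ?_⟩
    rcases Nat.lt_or_ge k.val (2 * N + 1) with hkl | hkl
    · rw [h2 k _ hk0 hkl]
      exact hls
    · have hkv : k.val = 2 * N + 1 := by omega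
      rw [h1 k _ (Or.inr hkv), hkv, TD_pr_last]
      exact hls

/-- (PD) every point is connected to `Y`, or a good map separates it from everything outside its path
(its base copy).  Points `(none, z)`: `Φ x x0 z` or `good_base`.  Points `(some (s, o, k), z)`: if `z` is
related to the start of the copy: `tie_dich k`; if to its end: `tie_dich (k + 1)` or, for `k = 2N+1`, the
right end; otherwise `h.hL.sep` (all `pr (l s) e k` are in `E`) and `good_sep`. -/
theorem pt_dich (h : Cfg Φ ΦK e l E a b) (x : L) (w : Wt X Y S N) :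
    (∃ y : Y, ∀ κ : K, PsiW Φ ΦK x0 y0 e l x κ w (Sum.inl y)) ∨
    ∃ (F : Wt X Y S N → X) (u : X), Good Φ x0 y0 e l a F ∧ ¬ Φ x u (F w) ∧
      ((∃ s o, InPath s o w ∧ ∀ w', ¬ InPath s o w' → F w' = u) ∨
        ((∃ z, w = Sum.inr (none, z)) ∧ ∀ w', (∀ z, w' ≠ Sum.inr (none, z)) → F w' = u)) := by
  rcases w with y | ⟨c, z⟩
  · exact Or.inl ⟨y, fun κ => (PsiW Φ ΦK x0 y0 e l x κ).refl' _⟩
  · rcases c with _ | ⟨s, o, k⟩
    · by_cases hz : Φ x x0 z
      · left
        refine ⟨y0, fun κ => ?_⟩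
        have h1 : PsiW Φ ΦK x0 y0 e l x κ (Sum.inl y0 : Wt X Y S N) (Sum.inr (none, x0)) :=
          Relation.EqvGen.rel _ _ GenW.base
        have h2 : PsiW Φ ΦK x0 y0 e l x κ (Sum.inr (none, x0) : Wt X Y S N)
            (Sum.inr (none, z)) := Relation.EqvGen.rel _ _ (GenW.copy none x0 z hz)
        exact (PsiW Φ ΦK x0 y0 e l x κ).symm' ((PsiW Φ ΦK x0 y0 e l x κ).trans' h1 h2)
      · right
        obtain ⟨F, hF, hF1, hF2⟩ := good_base (S := S) (N := N) (x0 := x0) (y0 := y0) h
        refine ⟨F, x0, hF, ?_, Or.inr ⟨⟨z, rfl⟩, hF2⟩⟩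
        rw [hF1]
        exact hz
    · by_cases h1 : Φ x (pr (l s) e k.val).1 z
      · have hcopy : ∀ κ : K, PsiW Φ ΦK x0 y0 e l x κ
            (Sum.inr (some (s, o, k), z) : Wt X Y S N)
            (Sum.inr (some (s, o, k), (pr (l s) e k.val).1)) := fun κ =>
          (PsiW Φ ΦK x0 y0 e l x κ).symm' (Relation.EqvGen.rel _ _ (GenW.copy _ _ _ h1))
        rcases tie_dich (x0 := x0) (y0 := y0) h x s o k with ⟨y, hy⟩ | ⟨F, u, hF, hF1, hF2⟩
        · left
          exact ⟨y, fun κ => (PsiW Φ ΦK x0 y0 e l x κ).trans' (hcopy κ) (hy κ)⟩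
        · right
          refine ⟨F, u, hF, ?_, Or.inl ⟨s, o, ⟨k, z, rfl⟩, hF1⟩⟩
          intro hu
          exact hF2 ((Φ x).trans' hu ((Φ x).symm' (hF.cop (some (s, o, k)) x _ _ h1)))
      · by_cases h2 : Φ x (pr (l s) e k.val).2 z
        · by_cases hk : k.val = 2 * N + 1
          · left
            refine ⟨o.1.2, fun κ => ?_⟩
            have h3 : PsiW Φ ΦK x0 y0 e l x κ (Sum.inl o.1.2 : Wt X Y S N)
                (Sum.inr (some (s, o, k), (pr (l s) e k.val).2)) :=
              Relation.EqvGen.rel _ _ (GenW.right s o k hk)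
            have h4 : PsiW Φ ΦK x0 y0 e l x κ
                (Sum.inr (some (s, o, k), (pr (l s) e k.val).2) : Wt X Y S N)
                (Sum.inr (some (s, o, k), z)) := Relation.EqvGen.rel _ _ (GenW.copy _ _ _ h2)
            exact (PsiW Φ ΦK x0 y0 e l x κ).symm' ((PsiW Φ ΦK x0 y0 e l x κ).trans' h3 h4)
          · have hk' : k.val + 1 < 2 * N + 2 := by
              have := k.isLt
              omega
            have hw : ∀ κ : K, PsiW Φ ΦK x0 y0 e l x κ
                (Sum.inr (some (s, o, k), z) : Wt X Y S N)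
                (Sum.inr (some (s, o, ⟨k.val + 1, hk'⟩), (pr (l s) e (k.val + 1)).1)) := by
              intro κ
              have h3 : PsiW Φ ΦK x0 y0 e l x κ
                  (Sum.inr (some (s, o, k), (pr (l s) e k.val).2) : Wt X Y S N)
                  (Sum.inr (some (s, o, k), z)) := Relation.EqvGen.rel _ _ (GenW.copy _ _ _ h2)
              have h4 : PsiW Φ ΦK x0 y0 e l x κ
                  (Sum.inr (some (s, o, k), (pr (l s) e k.val).2) : Wt X Y S N)
                  (Sum.inr (some (s, o, ⟨k.val + 1, hk'⟩), (pr (l s) e (k.val + 1)).1)) :=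
                Relation.EqvGen.rel _ _ (GenW.glue s o k ⟨k.val + 1, hk'⟩ rfl)
              exact (PsiW Φ ΦK x0 y0 e l x κ).trans' ((PsiW Φ ΦK x0 y0 e l x κ).symm' h3) h4
            rcases tie_dich (x0 := x0) (y0 := y0) h x s o ⟨k.val + 1, hk'⟩ with
              ⟨y, hy⟩ | ⟨F, u, hF, hF1, hF2⟩
            · left
              exact ⟨y, fun κ => (PsiW Φ ΦK x0 y0 e l x κ).trans' (hw κ) (hy κ)⟩
            · right
              refine ⟨F, u, hF, ?_, Or.inl ⟨s, o, ⟨k, z, rfl⟩, hF1⟩⟩
              intro hu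
              have h5 := hF.cop (some (s, o, k)) x _ _ h2
              have h6 := hF.glue s o k ⟨k.val + 1, hk'⟩ rfl
              rw [h6] at h5
              exact hF2 ((Φ x).trans' hu ((Φ x).symm' h5))
        · right
          have hE : ((pr (l s) e k.val).1, (pr (l s) e k.val).2) ∈ E := by
            show pr (l s) e k.val ∈ E
            unfold pr
            split_ifs
            · exact (h.hl s).1
            · exact (h.he _).1
            · exact (h.he _).1
            · exact h.hL.symm _ _ (h.hl s).1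
          obtain ⟨f, hf1, hf2, hf3⟩ := h.hL.sep x _ _ hE z h1 h2
          obtain ⟨F, hF, hF1, hF2⟩ := good_sep (x0 := x0) (y0 := y0) h s o k f hf1 hf2
          refine ⟨F, f (pr (l s) e k.val).1, hF, ?_, Or.inl ⟨s, o, ⟨k, z, rfl⟩, ?_⟩⟩
          · rw [hF1]
            exact hf3
          · intro w' hw'
            refine hF2 w' ?_
            rintro z' rfl
            exact hw' ⟨k, z', rfl⟩

end Vale.Agent.P183
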