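import Vale.Agent.P183.Defs2

namespace Vale.Agent.P183

universe u v

variable {L : Type u} [PartialOrder L] {K : Type v} [PartialOrder K] {X Y S : Type} {N : ℕ}
  {Φ : L → Setoid X} {ΦK : K → Setoid Y} {x0 : X} {y0 : Y} {e : Fin N → X × X} {l : S → X × X}
  {E : Set (X × X)} {a b : L}

/-- (GP) Induction on `EqvGen`, cases on the generator; for `ky`: if `a ≤ x` use `hF.ys`, if not then
`κ = ⊥` and `ΦK ⊥` is equality (apply `h.hK.closed` to `⊥ : Setoid Y`, as `emb_bot` in `Core.lean`). -/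
theorem good_pres [BoundedOrder K] (h : Cfg Φ ΦK e l E a b) {F : Wt X Y S N → X}
    (hF : Good Φ x0 y0 e l a F) (p : Infl1 L K a b) {w w' : Wt X Y S N}
    (hw : PsiW Φ ΦK x0 y0 e l p.1.1 p.1.2 w w') : Φ p.1.1 (F w) (F w') := by
  have hK0 : ∀ y y', ΦK (⊥ : K) y y' → y = y' := by
    intro y y' hy
    obtain ⟨q, hq⟩ := h.hK.closed ⊥ (fun f _ x y hxy => by
      have : x = y := hxy
      subst this
      exact Setoid.refl' _ _)
    have h1 : ΦK ⊥ ≤ (⊥ : Setoid Y) := by
      rw [hq]
      exact (h.hK.le_iff _ _).2 bot_le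
    exact h1 hy
  have hw' : Relation.EqvGen (GenW Φ ΦK x0 y0 e l p.1.1 p.1.2) w w' := hw
  clear hw
  induction hw' with
  | rel w w' hg =>
    cases hg with
    | ky y y' hy =>
      by_cases hax : a ≤ p.1.1
      · exact (h.hL.emb.le_iff _ _).2 hax (hF.ys y y')
      · have h2 := p.2.1 hax
        rw [h2] at hy
        rw [hK0 y y' hy]
    | copy c z z' hz => exact hF.cop c _ z z' hz
    | base => rw [hF.base]
    | left s o k hk => rw [hF.left s o k hk]
    | right s o k hk => rw [hF.right s o k hk]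
    | glue s o k k' hk => rw [hF.glue s o k k' hk]
  | refl w => exact Setoid.refl' _ _
  | symm w w' _ ih => exact Setoid.symm' _ ih
  | trans w1 w2 w3 _ _ ih1 ih2 => exact Setoid.trans' _ ih1 ih2

/-- the map of `good_base` -/
def WGB_F {X Y S : Type} {N : ℕ} (x0 : X) : Wt X Y S N → X
  | Sum.inl _ => x0
  | Sum.inr (none, z) => z
  | Sum.inr (some _, _) => x0

/-- (GB) identity on the base copy, everything else to `x0`. -/
theorem good_base (h : Cfg Φ ΦK e l E a b) : ∃ F : Wt X Y S N → X, Good Φ x0 y0 e l a F ∧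
    (∀ z, F (Sum.inr (none, z)) = z) ∧ ∀ w, (∀ z, w ≠ Sum.inr (none, z)) → F w = x0 := by
  refine ⟨WGB_F x0, ⟨?_, rfl, fun _ _ _ _ => rfl, fun _ _ _ _ => rfl, fun _ _ _ _ _ => rfl, ?_⟩, fun _ => rfl, ?_⟩
  · intro c p z z' hz
    rcases c with _ | c
    · exact hz
    · exact (Φ p).refl' _
  · intro y y'
    exact (Φ a).refl' _
  · intro w hw
    rcases w with y | ⟨c, z⟩
    · rfl
    · rcases c with _ | c
      · exact absurd rfl (hw z)
      · rfl

theorem GL_pr_zero (l : X × X) (e : Fin N → X × X) : pr l e 0 = l := by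
  unfold pr
  simp

theorem GL_pr_last (l : X × X) (e : Fin N → X × X) : pr l e (2 * N + 1) = l.swap := by
  unfold pr
  have h1 : ¬ (2 * N + 1 = 0) := by omega
  have h2 : ¬ (2 * N + 1 - 1 < N) := by omega
  have h3 : ¬ (2 * N + 1 - 1 - N < N) := by omega
  rw [if_neg h1, dif_neg h2, dif_neg h3]

open scoped Classical in
/-- the map of `good_link` -/
noncomputable def GLF (l : S → X × X) (s0 : S) (o0 : Off Y) : Wt X Y S N → X
  | Sum.inl _ => (l s0).1
  | Sum.inr (none, _) => (l s0).1
  | Sum.inr (some (s, o, k), z) =>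
    if s = s0 ∧ o = o0 then (if k.val = 0 ∨ k.val = 2 * N + 1 then z else (l s0).2) else (l s0).1

/-- (GL) identity on the copies `0` and `2N+1` of the path `(s0, o0)`, its other copies to `(l s0).2`,
everything else to `(l s0).1`. -/
theorem good_link (h : Cfg Φ ΦK e l E a b) (s0 : S) (o0 : Off Y) :
    ∃ F : Wt X Y S N → X, Good Φ x0 y0 e l a F ∧
      (∀ (k : Fin (2 * N + 2)) z, (k.val = 0 ∨ k.val = 2 * N + 1) →
        F (Sum.inr (some (s0, o0, k), z)) = z) ∧
      (∀ (k : Fin (2 * N + 2)) z, 0 < k.val → k.val < 2 * N + 1 →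
        F (Sum.inr (some (s0, o0, k), z)) = (l s0).2) ∧
      ∀ w, ¬ InPath s0 o0 w → F w = (l s0).1 := by
  refine ⟨GLF l s0 o0, ⟨?_, rfl, ?_, ?_, ?_, ?_⟩, ?_, ?_, ?_⟩
  · intro c p z z' hz
    match c with
    | none => exact (Φ p).refl _
    | some (s, o, k) =>
      simp only [GLF]
      split_ifs
      · exact hz
      · exact (Φ p).refl _
      · exact (Φ p).refl _
  · intro s o k hk
    simp only [GLF]
    by_cases h1 : s = s0 ∧ o = o0
    · rw [if_pos h1, if_pos (Or.inl hk), hk, GL_pr_zero, h1.1]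
    · rw [if_neg h1]
  · intro s o k hk
    simp only [GLF]
    by_cases h1 : s = s0 ∧ o = o0
    · rw [if_pos h1, if_pos (Or.inr hk), hk, GL_pr_last, h1.1]
      rfl
    · rw [if_neg h1]
  · intro s o k k' hk
    simp only [GLF]
    by_cases h1 : s = s0 ∧ o = o0
    · rw [if_pos h1, if_pos h1]
      have hk' := k'.2
      have h2 : (if k.val = 0 ∨ k.val = 2 * N + 1 then (pr (l s) e k.val).2 else (l s0).2) =
          (l s0).2 := by
        by_cases h3 : k.val = 0
        · rw [if_pos (Or.inl h3), h3, GL_pr_zero, h1.1]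
        · rw [if_neg]
          rintro (h4 | h4)
          · exact h3 h4
          · omega
      have h3 : (if k'.val = 0 ∨ k'.val = 2 * N + 1 then (pr (l s) e k'.val).1 else (l s0).2) =
          (l s0).2 := by
        by_cases h4 : k'.val = 2 * N + 1
        · rw [if_pos (Or.inr h4), h4, GL_pr_last, h1.1]
          rfl
        · rw [if_neg]
          rintro (h5 | h5)
          · omega
          · exact h4 h5
      rw [h2, h3]
    · rw [if_neg h1, if_neg h1]
  · intro y y'
    exact (Φ a).refl _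
  · intro k z hk
    simp only [GLF]
    rw [if_pos ⟨trivial, trivial⟩, if_pos hk]
  · intro k z hk hk2
    simp only [GLF]
    rw [if_pos ⟨trivial, trivial⟩, if_neg]
    rintro (h1 | h1)
    · omega
    · omega
  · intro w hw
    match w, hw with
    | Sum.inl y, _ => rfl
    | Sum.inr (none, z), _ => rfl
    | Sum.inr (some (s, o, k), z), hw =>
      simp only [GLF]
      rw [if_neg]
      rintro ⟨rfl, rfl⟩
      exact hw ⟨k, z, rfl⟩

open Classical in
/-- helper map for `good_sep` -/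
noncomputable def WGS_F (s0 : S) (o0 : Off Y) (k0 : Fin (2 * N + 2)) (f : X → X) (c : X) :
    Wt X Y S N → X
  | Sum.inl _ => c
  | Sum.inr (k, z) => if k = some (s0, o0, k0) then f z else c

theorem WGS_ne (s0 : S) (o0 : Off Y) (k0 : Fin (2 * N + 2)) (f : X → X) (c : X)
    (k : Option (S × Off Y × Fin (2 * N + 2))) (z : X) (hk : k ≠ some (s0, o0, k0)) :
    WGS_F s0 o0 k0 f c (Sum.inr (k, z)) = c := if_neg hk

theorem WGS_fst (s0 : S) (o0 : Off Y) (k0 : Fin (2 * N + 2)) (f : X → X) (s : S) (o : Off Y)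
    (k : Fin (2 * N + 2)) :
    WGS_F s0 o0 k0 f (f (pr (l s0) e k0.val).1) (Sum.inr (some (s, o, k), (pr (l s) e k.val).1)) =
      f (pr (l s0) e k0.val).1 := by
  by_cases hk : (some (s, o, k) : Option (S × Off Y × Fin (2 * N + 2))) = some (s0, o0, k0)
  · have h1 : WGS_F s0 o0 k0 f (f (pr (l s0) e k0.val).1)
        (Sum.inr (some (s, o, k), (pr (l s) e k.val).1)) = f (pr (l s) e k.val).1 := if_pos hk
    rw [h1]
    have h2 := Option.some.inj hk
    have h3 : s = s0 := congrArg Prod.fst h2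
    have h4 : k = k0 := congrArg (fun q => q.2.2) h2
    rw [h3, h4]
  · exact if_neg hk

theorem WGS_snd (s0 : S) (o0 : Off Y) (k0 : Fin (2 * N + 2)) (f : X → X)
    (hff : f (pr (l s0) e k0.val).1 = f (pr (l s0) e k0.val).2) (s : S) (o : Off Y)
    (k : Fin (2 * N + 2)) :
    WGS_F s0 o0 k0 f (f (pr (l s0) e k0.val).1) (Sum.inr (some (s, o, k), (pr (l s) e k.val).2)) =
      f (pr (l s0) e k0.val).1 := by
  by_cases hk : (some (s, o, k) : Option (S × Off Y × Fin (2 * N + 2))) = some (s0, o0, k0)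
  · have h1 : WGS_F s0 o0 k0 f (f (pr (l s0) e k0.val).1)
        (Sum.inr (some (s, o, k), (pr (l s) e k.val).2)) = f (pr (l s) e k.val).2 := if_pos hk
    rw [h1]
    have h2 := Option.some.inj hk
    have h3 : s = s0 := congrArg Prod.fst h2
    have h4 : k = k0 := congrArg (fun q => q.2.2) h2
    rw [h3, h4, hff]
  · exact if_neg hk

/-- (GS) `f` on the copy `k0` of the path `(s0, o0)`, constant elsewhere. -/
theorem good_sep (h : Cfg Φ ΦK e l E a b) (s0 : S) (o0 : Off Y) (k0 : Fin (2 * N + 2)) (f : X → X)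
    (hf : ∀ p, Pres f (Φ p)) (hff : f (pr (l s0) e k0.val).1 = f (pr (l s0) e k0.val).2) :
    ∃ F : Wt X Y S N → X, Good Φ x0 y0 e l a F ∧
      (∀ z, F (Sum.inr (some (s0, o0, k0), z)) = f z) ∧
      ∀ w, (∀ z, w ≠ Sum.inr (some (s0, o0, k0), z)) → F w = f (pr (l s0) e k0.val).1 := by
  refine ⟨WGS_F s0 o0 k0 f (f (pr (l s0) e k0.val).1), ?_, ?_, ?_⟩
  · constructor
    · intro c p z z' hz
      by_cases hc : c = some (s0, o0, k0)
      · have h1 : ∀ z, WGS_F s0 o0 k0 f (f (pr (l s0) e k0.val).1) (Sum.inr (c, z)) = f z :=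
          fun z => if_pos hc
        rw [h1 z, h1 z']
        exact hf p z z' hz
      · have h1 : ∀ z, WGS_F s0 o0 k0 f (f (pr (l s0) e k0.val).1) (Sum.inr (c, z)) =
            f (pr (l s0) e k0.val).1 := fun z => if_neg hc
        rw [h1 z, h1 z']
    · have h1 : WGS_F s0 o0 k0 f (f (pr (l s0) e k0.val).1) (Sum.inr (none, x0)) =
          f (pr (l s0) e k0.val).1 := by
        exact WGS_ne s0 o0 k0 f _ none x0 (fun h2 => by cases h2)
      rw [h1]
      rfl
    · intro s o k hk
      rw [WGS_fst]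
      rfl
    · intro s o k hk
      rw [WGS_snd s0 o0 k0 f hff]
      rfl
    · intro s o k k' hk
      rw [WGS_snd s0 o0 k0 f hff, WGS_fst]
    · intro y y'
      exact (Φ a).refl _
  · intro z
    exact if_pos rfl
  · intro w hw
    rcases w with y | ⟨c, z⟩
    · rfl
    · by_cases hc : c = some (s0, o0, k0)
      · exact absurd (by rw [hc]) (hw z)
      · exact if_neg hc

end Vale.Agent.P183
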